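import Vale.Agent.H16.FIID.Defs
/-! M9a: labels: a.s. injectivity; one uniform label encodes countably many. -/
open MeasureTheory
namespace Vale.Agent.H16.FIID
variable {V : Type}

theorem diag_null : ((volume : Measure UI).prod (volume : Measure UI)) {p | p.1 = p.2} = 0 := by
  rw [Measure.measure_prod_null (measurableSet_eq_fun measurable_fst measurable_snd)]
  refine Filter.Eventually.of_forall fun x => ?_
  have h : (Prod.mk x ⁻¹' {p : UI × UI | p.1 = p.2}) = {x} := by
    ext y
    simp [eq_comm]
  simp only [h]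
  simp

theorem iid_injective [Countable V] : ∀ᵐ τ ∂(iid V), Function.Injective τ := by
  have h1 : ∀ u v : V, ∀ᵐ τ ∂(iid V), u ≠ v → τ u ≠ τ v := by
    intro u v
    by_cases huv : u = v
    · exact Filter.Eventually.of_forall fun τ h => absurd huv h
    · have h2 := Measure.infinitePi_map_eval_prod (P := fun _ : V => (volume : Measure UI)) huv
      have h3 : (iid V) {τ | τ u = τ v} = 0 := by
        have h4 : {τ : V → UI | τ u = τ v} = (fun τ : V → UI => (τ u, τ v)) ⁻¹' {p | p.1 = p.2} := rfl
        rw [h4, ← Measure.map_apply (by fun_prop)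
          (measurableSet_eq_fun measurable_fst measurable_snd)]
        unfold iid
        rw [h2]
        exact diag_null
      rw [ae_iff]
      refine measure_mono_null ?_ h3
      intro τ hτ
      simp only [Set.mem_ofPred_eq] at hτ ⊢
      by_contra hne
      exact hτ fun _ => hne
  have h2 : ∀ᵐ τ ∂(iid V), ∀ u v : V, u ≠ v → τ u ≠ τ v := by
    rw [ae_all_iff]
    intro u
    rw [ae_all_iff]
    intro v
    exact h1 u v
  filter_upwards [h2] with τ hτ u v huv
  by_contra hne
  exact hτ u v hne huv

/-- gluing map -/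
def glue (p : (V → UI) × (V × ℕ → UI)) : V × ℕ → UI :=
  fun i => match i with
    | (v, 0) => p.1 v
    | (v, n + 1) => p.2 (v, n)

/-- its inverse -/
def unglue (w : V × ℕ → UI) : (V → UI) × (V × ℕ → UI) :=
  (fun v => w (v, 0), fun i => w (i.1, i.2 + 1))

theorem measurable_glue : Measurable (glue (V := V)) := by
  refine measurable_pi_lambda _ fun i => ?_
  rcases i with ⟨v, _ | n⟩
  · exact (measurable_pi_apply v).comp measurable_fst
  · exact (measurable_pi_apply (v, n)).comp measurable_snd

theorem measurable_unglue : Measurable (unglue (V := V)) := by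
  refine Measurable.prodMk ?_ ?_
  · exact measurable_pi_lambda _ fun v => measurable_pi_apply _
  · exact measurable_pi_lambda _ fun v => measurable_pi_apply _

theorem unglue_glue (p : (V → UI) × (V × ℕ → UI)) : unglue (glue p) = p := rfl

theorem map_glue : ((iid V).prod (iid (V × ℕ))).map glue = iid (V × ℕ) := by
  classical
  refine Measure.eq_infinitePi _ fun s t ht => ?_
  rw [Measure.map_apply measurable_glue (.pi s.countable_toSet fun _ _ => ht _)]
  have h1 : (glue ⁻¹' (Set.pi (s : Set (V × ℕ)) t) : Set ((V → UI) × (V × ℕ → UI))) =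
      (Set.pi (((s.filter fun i => i.2 = 0).image Prod.fst : Finset V) : Set V)
        fun v => t (v, 0)) ×ˢ
      (Set.pi (((s.filter fun i => ¬ i.2 = 0).image fun i => (i.1, i.2 - 1) :
        Finset (V × ℕ)) : Set (V × ℕ)) fun i => t (i.1, i.2 + 1)) := by
    ext p
    simp only [Set.mem_preimage, Set.mem_pi, Finset.mem_coe, Set.mem_prod, Finset.mem_image,
      Finset.mem_filter]
    constructor
    · intro h
      refine ⟨?_, ?_⟩
      · rintro v ⟨⟨a, n⟩, ⟨hi, hn⟩, rfl⟩
        simp only at hn
        subst hn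
        exact h _ hi
      · rintro ⟨v, m⟩ ⟨⟨a, n⟩, ⟨hi, hn⟩, hh⟩
        obtain ⟨k, rfl⟩ := Nat.exists_eq_succ_of_ne_zero hn
        simp only [Nat.succ_eq_add_one, Nat.add_sub_cancel, Prod.mk.injEq] at hh
        obtain ⟨rfl, rfl⟩ := hh
        exact h _ hi
    · rintro ⟨h2, h3⟩ ⟨v, n⟩ hi
      rcases n with _ | n
      · exact h2 v ⟨(v, 0), ⟨hi, rfl⟩, rfl⟩
      · exact h3 (v, n) ⟨(v, n + 1), ⟨hi, by simp⟩, by simp⟩
  rw [h1, Measure.prod_prod]
  unfold iid
  rw [Measure.infinitePi_pi _ (fun i _ => ht _), Measure.infinitePi_pi _ (fun i _ => ht _)]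
  rw [Finset.prod_image, Finset.prod_image, ← Finset.prod_filter_mul_prod_filter_not s
    (fun i => i.2 = 0)]
  · congr 1
    · refine Finset.prod_congr rfl fun i hi => ?_
      obtain ⟨v, n⟩ := i
      have := (Finset.mem_filter.1 hi).2
      simp only at this
      subst this
      rfl
    · refine Finset.prod_congr rfl fun i hi => ?_
      obtain ⟨v, n⟩ := i
      have := (Finset.mem_filter.1 hi).2
      obtain ⟨k, rfl⟩ := Nat.exists_eq_succ_of_ne_zero this
      rfl
  · rintro ⟨v, n⟩ hi ⟨v', n'⟩ hi' hh
    have h2 := (Finset.mem_filter.1 hi).2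
    have h3 := (Finset.mem_filter.1 hi').2
    simp only [Prod.mk.injEq] at hh h2 h3 ⊢
    exact ⟨hh.1, by omega⟩
  · rintro ⟨v, n⟩ hi ⟨v', n'⟩ hi' hh
    have h2 := (Finset.mem_filter.1 hi).2
    have h3 := (Finset.mem_filter.1 hi').2
    simp only [Prod.mk.injEq] at hh h2 h3 ⊢
    exact ⟨hh, by omega⟩

theorem map_unglue : (iid (V × ℕ)).map unglue = (iid V).prod (iid (V × ℕ)) := by
  conv_lhs => rw [← map_glue]
  rw [Measure.map_map measurable_unglue measurable_glue]
  have : (unglue ∘ glue : (V → UI) × (V × ℕ → UI) → _) = id := by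
    funext p
    exact unglue_glue p
  rw [this, Measure.map_id]

/-- From one uniform label per vertex one gets (equivariantly, vertex by vertex) an independent
label `τ_v` and independent inputs `u_{v,r}`. Use `MeasureTheory.Measure.exists_measurable_map_eq`
for `Measure.infinitePi` on `ℕ → UI`. -/
theorem exists_encode [Countable V] : ∃ E : UI → ℕ → UI, Measurable E ∧
    (iid V).map (fun U => ((fun v => E (U v) 0 : V → UI),
      (fun i => E (U i.1) (i.2 + 1) : V × ℕ → UI))) = (iid V).prod (iid (V × ℕ)) := by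
  obtain ⟨E, hE, hEm⟩ := Measure.exists_measurable_map_eq
    (Measure.infinitePi fun _ : ℕ => (volume : Measure UI))
  refine ⟨E, hE, ?_⟩
  have h1 : (iid V).map (fun U v => E (U v)) =
      Measure.infinitePi fun _ : V => Measure.infinitePi fun _ : ℕ => (volume : Measure UI) := by
    unfold iid
    rw [Measure.infinitePi_map_pi _ (fun _ => hE)]
    simp only [hEm]
  have h2 := Measure.infinitePi_map_curry_symm (fun (_ : V) (_ : ℕ) => (volume : Measure UI))
  have h3 : (iid V).map (fun U => (fun i : V × ℕ => E (U i.1) i.2)) = iid (V × ℕ) := by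
    have h4 : (fun U : V → UI => (fun i : V × ℕ => E (U i.1) i.2)) =
        (MeasurableEquiv.curry V ℕ UI).symm ∘ (fun U v => E (U v)) := rfl
    rw [h4, ← Measure.map_map (by fun_prop) (by fun_prop), h1, h2]
    rfl
  rw [← map_unglue, ← h3, Measure.map_map measurable_unglue (by fun_prop)]
  rfl

end Vale.Agent.H16.FIID
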