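import Mathlib

/-!
# P161: definitions (statement and proof)

Spins are coded by `Bool` (`true = +1`, `false = -1`).
-/

open MeasureTheory

namespace Vale.Agent.H16.FIID

/-! ### Definitions used by the final statement -/

/-- The unit interval `[0,1]` as a type. -/
abbrev UI : Type := unitInterval

/-- The real value `±1` of a spin. -/
def sgn (s : Bool) : ℝ := if s then 1 else -1

/-- `G` is the `d`-regular tree (for `d ≥ 3`: all neighbour sets have exactly `d` elements). -/
def IsRegularTree {V : Type} (G : SimpleGraph V) (d : ℕ) : Prop :=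
  G.IsTree ∧ ∀ v, (G.neighborSet v).ncard = d

/-- The edges of `G` with both endpoints in `D`. -/
noncomputable def edgesIn {V : Type} (G : SimpleGraph V) (D : Finset V) : Finset (Sym2 V) :=
  letI := Classical.decEq V
  letI := Classical.decPred fun e : Sym2 V => e ∈ G.edgeSet
  D.sym2.filter fun e => e ∈ G.edgeSet

/-- The factor `(1 + θ η_u η_v)/2` of an edge `{u,v}`. -/
noncomputable def edgeFactor {V : Type} (θ : ℝ) (η : V → Bool) (e : Sym2 V) : ℝ :=
  Sym2.lift ⟨fun u v => (1 + θ * (sgn (η u) * sgn (η v))) / 2, fun u v => by ring⟩ e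

/-- `μ` satisfies `μ(σ|_D = η) = (1/2) ∏_{{u,v} ∈ E(D)} (1 + θ η_u η_v)/2` for every finite
connected (nonempty) vertex set `D`: the defining property of the free Ising state. -/
def IsFreeIsing {V : Type} (G : SimpleGraph V) (θ : ℝ) (μ : Measure (V → Bool)) : Prop :=
  ∀ D : Finset V, (G.induce (D : Set V)).Connected → ∀ η : V → Bool,
    μ {σ | ∀ v ∈ D, σ v = η v} = ENNReal.ofReal (1 / 2 * ∏ e ∈ edgesIn G D, edgeFactor θ η e)

/-- The law of i.i.d. uniform `[0,1]` labels indexed by `ι`. -/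
noncomputable def iid (ι : Type) : Measure (ι → UI) :=
  Measure.infinitePi fun _ : ι => (volume : Measure UI)

instance (ι : Type) : IsProbabilityMeasure (iid ι) := by
  unfold iid
  infer_instance

/-- `ν` is a factor of IID for the action of `Aut(G)`. -/
def IsFactorOfIID {V : Type} (G : SimpleGraph V) (ν : Measure (V → Bool)) : Prop :=
  ∃ Φ : (V → UI) → (V → Bool), Measurable Φ ∧
    (∀ g : G ≃g G, ∀ᵐ U ∂(iid V), Φ (fun v => U (g.symm v)) = fun v => Φ U (g.symm v)) ∧
    (iid V).map Φ = ν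

/-! ### Definitions used by the proof -/

/-- distribution function `F_a(w) = w - a w (1-w)` (density `1 + a(2w-1)`), `|a| < 1`. -/
noncomputable def cdR (a w : ℝ) : ℝ := w - a * w * (1 - w)

/-- its inverse -/
noncomputable def qtR (a u : ℝ) : ℝ :=
  2 * u / ((1 - a) + Real.sqrt ((1 - a) ^ 2 + 4 * a * u))

/-- `F_a` as a map `[0,1] → [0,1]` -/
noncomputable def cd (a : ℝ) (w : UI) : UI := Set.projIcc 0 1 zero_le_one (cdR a w)

/-- the quantile function as a map `[0,1] → [0,1]` -/
noncomputable def qt (a : ℝ) (u : UI) : UI := Set.projIcc 0 1 zero_le_one (qtR a u)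

variable {V : Type}

/-- likelihood of the data `w` on `S` given the spins `σ` -/
noncomputable def lik (ε : ℝ) (S : Finset (V × ℕ)) (w : V × ℕ → UI) (σ : V → Bool) : ℝ :=
  ∏ j ∈ S, (1 + ε * sgn (σ j.1) * (2 * (w j : ℝ) - 1))

/-- `∫ lik dμ` -/
noncomputable def Zp (μ : Measure (V → Bool)) (ε : ℝ) (S : Finset (V × ℕ)) (w : V × ℕ → UI) : ℝ :=
  ∫ σ, lik ε S w σ ∂μ

/-- `∫ σ_v lik dμ` -/
noncomputable def Np (μ : Measure (V → Bool)) (ε : ℝ) (v : V) (S : Finset (V × ℕ))
    (w : V × ℕ → UI) : ℝ :=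
  ∫ σ, sgn (σ v) * lik ε S w σ ∂μ

/-- posterior mean of `σ_v` given the data `w` on `S` -/
noncomputable def pm (μ : Measure (V → Bool)) (ε : ℝ) (v : V) (S : Finset (V × ℕ))
    (w : V × ℕ → UI) : ℝ :=
  Np μ ε v S w / Zp μ ε S w

/-- the update `j` comes before the update `i` (rounds first, then labels `τ`) -/
def before (τ : V → UI) (j i : V × ℕ) : Prop := j.2 < i.2 ∨ (j.2 = i.2 ∧ τ j.1 < τ i.1)

/-- the updates of `J` coming before `i` -/
noncomputable def past (τ : V → UI) (J : Finset (V × ℕ)) (i : V × ℕ) : Finset (V × ℕ) :=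
  letI := Classical.decPred fun j : V × ℕ => before τ j i
  J.filter fun j => before τ j i

/-- one simultaneous application of the update rule -/
noncomputable def step (μ : Measure (V → Bool)) (ε : ℝ) (τ : V → UI) (J : Finset (V × ℕ))
    (u : V × ℕ → UI) (w : V × ℕ → UI) : V × ℕ → UI :=
  fun i => qt (ε * pm μ ε i.1 (past τ J i) w) (u i)

/-- the sequential scheme: the fixed point of `step` -/
noncomputable def T (μ : Measure (V → Bool)) (ε : ℝ) (τ : V → UI) (J : Finset (V × ℕ))
    (u : V × ℕ → UI) : V × ℕ → UI :=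
  (step μ ε τ J u)^[J.card + 1] (fun _ => 0)

/-- the inverse of the scheme (the innovations) -/
noncomputable def inn (μ : Measure (V → Bool)) (ε : ℝ) (τ : V → UI) (J : Finset (V × ℕ))
    (w : V × ℕ → UI) : V × ℕ → UI :=
  fun i => cd (ε * pm μ ε i.1 (past τ J i) w) (w i)

/-- the data: `w_i` has density `1 + ε σ_{i.1} (2w-1)` given the spins `σ` -/
noncomputable def data (ε : ℝ) (p : (V → Bool) × (V × ℕ → UI)) : V × ℕ → UI :=
  fun i => qt (ε * sgn (p.1 i.1)) (p.2 i)

end Vale.Agent.H16.FIID
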