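import Vale.Agent.H16.FIID.Defs
import Vale.Agent.H8.IsingAux
/-! M3: existence, uniqueness and automorphism invariance of the free Ising state. -/
open MeasureTheory
namespace Vale.Agent.H16.FIID
variable {V : Type} {G : SimpleGraph V}

open Vale.Agent.H8.IsingAux

/-- Proof idea: root `o`; i.i.d. signs `s_v` with mean `θ` (`v ≠ o`), `s_o` fair
(`Measure.infinitePi` on `V → Bool`); `σ_v = ∏_{w ∈ path(o,v)} s_w`.  For `D ∋ o` connected the
event is `{s_v = η_v η_{parent v}, v ∈ D∖o, s_o = η_o}`; for `o ∉ D` let `a ∈ D` be closest to `o`; flipping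
`s_o` is measure preserving and flips `σ_a`, so `σ_a` is fair and independent of `(s_v)_{v ∈ D∖a}`.
(Or prove it for balls around `o` and sum out leaves.) -/
theorem exists_freeIsing {d : ℕ} (hd : 3 ≤ d) (hG : IsRegularTree G d) {θ : ℝ} (h0 : 0 ≤ θ)
    (h1 : θ < 1) :
    ∃ μ : Measure (V → Bool), IsProbabilityMeasure μ ∧ IsFreeIsing G θ μ := by
  have _ := hd
  obtain ⟨o⟩ := hG.1.connected.nonempty
  exact ⟨isingAt G h0 h1 o, isingAt_prob h0 h1 o, isFreeIsing_isingAt hG.1 h0 h1 o⟩

theorem freeIsing_prob (hG : G.IsTree) {θ : ℝ} {μ : Measure (V → Bool)}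
    (hμ : IsFreeIsing G θ μ) : IsProbabilityMeasure μ := by
  classical
  obtain ⟨o⟩ := hG.connected.nonempty
  have hc : (G.induce (({o} : Finset V) : Set V)).Connected := by
    apply Vale.Agent.H8.TreeAux.connected_of_par (o := o) (by simp)
    intro v hv hvo
    exact absurd (by simpa using hv) hvo
  have he : edgesIn G {o} = ∅ := by
    apply Finset.eq_empty_of_forall_notMem
    intro e he
    induction e using Sym2.ind with
    | _ x y =>
      rw [mem_edgesIn] at he
      obtain ⟨⟨hx, hy⟩, hadj⟩ := he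
      rw [Finset.mem_singleton] at hx hy
      subst hx; subst hy
      exact G.loopless.irrefl _ hadj
  have h : ∀ b : Bool, μ {σ | σ o = b} = ENNReal.ofReal (1 / 2) := by
    intro b
    have := hμ {o} hc (fun _ => b)
    rw [he] at this
    simpa using this
  refine ⟨?_⟩
  have hu : (Set.univ : Set (V → Bool)) = {σ | σ o = true} ∪ {σ | σ o = false} := by
    ext σ
    cases h : σ o <;> simp [h]
  rw [hu, measure_union, h, h, ← ENNReal.ofReal_add (by norm_num) (by norm_num)]
  · norm_num
  · rw [Set.disjoint_left]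
    intro σ h1 h2
    have h1' : σ o = true := h1
    have h2' : σ o = false := h2
    rw [h1'] at h2'
    exact absurd h2' (by simp)
  · have h3 : MeasurableSet ((fun σ : V → Bool => σ o) ⁻¹' {false}) :=
      measurable_pi_apply o (measurableSet_singleton false)
    exact h3

theorem freeIsing_unique [Countable V] (hG : G.IsTree) {θ : ℝ} {μ ν : Measure (V → Bool)}
    (hμ : IsFreeIsing G θ μ) (hν : IsFreeIsing G θ ν) : μ = ν := by
  obtain ⟨o⟩ := hG.connected.nonempty
  have := freeIsing_prob hG hμ
  refine eq_of_cyl hG.connected {o} ⟨o, by simp⟩ ?_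
  intro D _ hD η
  exact (hμ D hD η).trans (hν D hD η).symm

theorem freeIsing_map {θ : ℝ} {μ : Measure (V → Bool)}
    (hμ : IsFreeIsing G θ μ) (g : G ≃g G) :
    IsFreeIsing G θ (μ.map fun σ v => σ (g.symm v)) := by
  intro D hD η
  have hf : Measurable fun (σ : V → Bool) (v : V) => σ (g.symm v) :=
    measurable_pi_lambda _ fun v => measurable_pi_apply _
  set D' : Finset V := D.map g.symm.toEquiv.toEmbedding with hD'
  have hmem : ∀ v, g.symm v ∈ D' ↔ v ∈ D := by
    intro v
    rw [hD', Finset.mem_map]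
    constructor
    · rintro ⟨w, hw, hwv⟩
      have : w = v := g.symm.injective hwv
      rwa [← this]
    · intro h; exact ⟨v, h, rfl⟩
  have hmem' : ∀ v, v ∈ D' ↔ g v ∈ D := by
    intro v
    rw [← hmem (g v), g.symm_apply_apply]
  have hDc : (G.induce (D' : Set V)).Connected := by
    let φ : G.induce (D : Set V) →g G.induce (D' : Set V) :=
      { toFun := fun x => ⟨g.symm x.1, (hmem x.1).2 x.2⟩
        map_rel' := by
          intro x y h
          exact g.symm.map_adj_iff.2 h }
    refine hD.map φ ?_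
    rintro ⟨x, hx⟩
    refine ⟨⟨g x, (hmem' x).1 hx⟩, ?_⟩
    apply Subtype.ext
    exact g.symm_apply_apply x
  have h1 := hμ D' hDc (fun v => η (g v))
  have hpre : (fun (σ : V → Bool) (v : V) => σ (g.symm v)) ⁻¹' {σ | ∀ v ∈ D, σ v = η v}
      = {σ | ∀ v ∈ D', σ v = η (g v)} := by
    ext σ
    simp only [Set.mem_preimage, Set.mem_ofPred_eq]
    constructor
    · intro h v hv
      have := h (g v) ((hmem' v).1 hv)
      rwa [g.symm_apply_apply] at this
    · intro h v hv
      have := h (g.symm v) ((hmem v).2 hv)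
      rwa [g.apply_symm_apply] at this
  have hms : MeasurableSet {σ : V → Bool | ∀ v ∈ D, σ v = η v} := measurableSet_cyl D η
  rw [Measure.map_apply hf hms, hpre, h1]
  congr 2
  symm
  refine Finset.prod_bij (fun e _ => Sym2.map g.symm e) ?_ ?_ ?_ ?_
  · intro e he
    induction e using Sym2.ind with
    | _ x y =>
      rw [mem_edgesIn] at he
      rw [Sym2.map_mk, mem_edgesIn]
      exact ⟨⟨(hmem x).2 he.1.1, (hmem y).2 he.1.2⟩, g.symm.map_adj_iff.2 he.2⟩
  · intro e _ e' _ h
    exact Sym2.map.injective g.symm.injective h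
  · intro e he
    induction e using Sym2.ind with
    | _ x y =>
      rw [mem_edgesIn] at he
      refine ⟨s(g x, g y), ?_, ?_⟩
      · rw [mem_edgesIn]
        exact ⟨⟨(hmem' x).1 he.1.1, (hmem' y).1 he.1.2⟩, g.map_adj_iff.2 he.2⟩
      · rw [Sym2.map_mk, g.symm_apply_apply, g.symm_apply_apply]
  · intro e _
    induction e using Sym2.ind with
    | _ x y =>
      rw [Sym2.map_mk]
      simp only [edgeFactor, Sym2.lift_mk, g.apply_symm_apply]

end Vale.Agent.H16.FIID
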