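import Vale.Agent.H16.FIID.Defs
/-! M2: geometry of the regular tree: kernel bound and summability. `d = b+1`. -/
open MeasureTheory
namespace Vale.Agent.H16.FIID
variable {V : Type} {G : SimpleGraph V}

/-- a vertex at distance `k+1` from `x` has a neighbour at distance `k` -/
theorem exists_parent (hc : G.Connected) {x z : V} {k : ℕ} (h : G.dist x z = k + 1) :
    ∃ u, G.Adj z u ∧ G.dist x u = k := by
  obtain ⟨w, hw⟩ := hc.exists_walk_length_eq_dist z x
  rw [SimpleGraph.dist_comm, h] at hw
  cases w with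
  | nil => simp at hw
  | @cons _ u _ ha w' =>
    refine ⟨u, ha, ?_⟩
    have h1 : G.dist u x ≤ w'.length := SimpleGraph.dist_le w'
    have h2 : w'.length = k := by simpa using hw
    have h3 : G.dist x z ≤ G.dist x u + G.dist u z := hc.dist_triangle
    have h4 : G.dist u z = 1 := SimpleGraph.dist_eq_one_iff_adj.2 ha.symm
    rw [SimpleGraph.dist_comm (u := u) (v := x)] at h1
    omega

theorem nbr_finite {b : ℕ} (hG : IsRegularTree G (b + 1)) (v : V) : (G.neighborSet v).Finite :=
  Set.finite_of_ncard_ne_zero (by rw [hG.2 v]; omega)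

theorem sphere_finite {b : ℕ} (hG : IsRegularTree G (b + 1)) (x : V) (k : ℕ) :
    {z | G.dist x z = k}.Finite := by
  have hc : G.Connected := hG.1.connected
  induction k with
  | zero =>
    refine (Set.finite_singleton x).subset ?_
    intro z hz
    have : G.dist x z = 0 := hz
    rw [hc.dist_eq_zero_iff] at this
    simp [this]
  | succ k ih =>
    refine (ih.biUnion fun u _ => nbr_finite hG u).subset ?_
    intro z hz
    obtain ⟨u, hu1, hu2⟩ := exists_parent hc hz
    exact Set.mem_biUnion (show u ∈ {z | G.dist x z = k} from hu2) hu1.symm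

theorem tree_countable {b : ℕ} (hG : IsRegularTree G (b + 1)) : Countable V := by
  have hc : G.Connected := hG.1.connected
  obtain ⟨x⟩ := hc.nonempty
  have h : (Set.univ : Set V) = ⋃ k : ℕ, {z | G.dist x z = k} := by
    ext z
    simp
  have h2 : (Set.univ : Set V).Countable := by
    rw [h]
    exact Set.countable_iUnion fun k => (sphere_finite hG x k).countable
  exact Set.countable_univ_iff.1 h2

/-- adjacent vertices are at different distances from any vertex -/
theorem dist_ne_of_adj (hG : G.IsTree) {x p : V} (hxp : G.Adj x p) (z : V) :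
    G.dist x z ≠ G.dist p z := by
  rw [SimpleGraph.dist_comm (u := x), SimpleGraph.dist_comm (u := p)]
  exact hG.dist_ne_of_adj z hxp

/-- For an edge `x p` of a tree: if `z` is strictly closer to `x` and `v` is strictly closer to `p`,
then the geodesic from `z` to `v` uses the edge. -/
theorem dist_across (hG : G.IsTree) {x p z v : V} (hxp : G.Adj x p)
    (hz : G.dist x z < G.dist p z) (hv : G.dist p v < G.dist x v) :
    G.dist z v = G.dist z x + 1 + G.dist p v := by
  classical
  have hc : G.Connected := hG.connected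
  obtain ⟨w1, hw1p, hw1⟩ := hc.exists_path_of_dist z x
  obtain ⟨w2, hw2p, hw2⟩ := hc.exists_path_of_dist p v
  obtain ⟨w3, hw3p, hw3⟩ := hc.exists_path_of_dist z v
  have h1 : ∀ u ∈ w1.support, G.dist x u < G.dist p u := by
    intro u hu
    have e1 : w1.length = (w1.takeUntil u hu).length + (w1.dropUntil u hu).length := by
      rw [← SimpleGraph.Walk.length_append, SimpleGraph.Walk.take_spec]
    have e2 := SimpleGraph.dist_le (w1.takeUntil u hu)
    have e3 := SimpleGraph.dist_le (w1.dropUntil u hu)
    have e4 : G.dist p z ≤ G.dist p u + G.dist u z := hc.dist_triangle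
    rw [SimpleGraph.dist_comm (u := z) (v := u)] at e2
    rw [SimpleGraph.dist_comm (u := u) (v := x)] at e3
    rw [SimpleGraph.dist_comm (u := z) (v := x)] at hw1
    omega
  have h2 : ∀ u ∈ w2.support, G.dist p u < G.dist x u := by
    intro u hu
    have e1 : w2.length = (w2.takeUntil u hu).length + (w2.dropUntil u hu).length := by
      rw [← SimpleGraph.Walk.length_append, SimpleGraph.Walk.take_spec]
    have e2 := SimpleGraph.dist_le (w2.takeUntil u hu)
    have e3 := SimpleGraph.dist_le (w2.dropUntil u hu)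
    have e4 : G.dist x v ≤ G.dist x u + G.dist u v := hc.dist_triangle
    omega
  have hxw2 : x ∉ w2.support := fun h => by
    have := h2 x h
    simp at this
  have hp : (w1.append (SimpleGraph.Walk.cons hxp w2)).IsPath := by
    rw [SimpleGraph.Walk.isPath_def, SimpleGraph.Walk.support_append, SimpleGraph.Walk.support_cons,
      List.tail_cons, List.nodup_append]
    refine ⟨hw1p.support_nodup, hw2p.support_nodup, ?_⟩
    intro a ha c hc' hac
    subst hac
    exact absurd (h1 a ha) (not_lt.2 (h2 a hc').le)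
  have := (hG.existsUnique_path z v).unique hp hw3p
  rw [← hw3, ← this, SimpleGraph.Walk.length_append, SimpleGraph.Walk.length_cons, hw1, hw2]
  omega

/-- spheres have at most `2 b^k` points -/
theorem sphere_card {b : ℕ} (hb : 2 ≤ b) (hG : IsRegularTree G (b + 1)) (x : V) :
    ∀ (k : ℕ) (S : Finset V), (∀ z ∈ S, G.dist x z = k) → S.card ≤ 2 * b ^ k := by
  classical
  have hc : G.Connected := hG.1.connected
  intro k
  induction k with
  | zero =>
    intro S hS
    have : S ⊆ {x} := by
      intro z hz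
      have := hS z hz
      rw [hc.dist_eq_zero_iff] at this
      simp [this]
    have := Finset.card_le_card this
    rw [Finset.card_singleton] at this
    rw [pow_zero]
    omega
  | succ k ih =>
    intro S hS
    have hex : ∀ z : V, ∃ u, z ∈ S → G.Adj z u ∧ G.dist x u = k := by
      intro z
      by_cases hz : z ∈ S
      · obtain ⟨u, hu⟩ := exists_parent hc (hS z hz)
        exact ⟨u, fun _ => hu⟩
      · exact ⟨z, fun h => absurd h hz⟩
    choose f hf using hex
    rcases Nat.eq_zero_or_pos k with hk | hk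
    · subst hk
      have hsub : (S : Set V) ⊆ G.neighborSet x := by
        intro z hz
        have h := hf z hz
        have hx : x = f z := hc.dist_eq_zero_iff.1 h.2
        rw [SimpleGraph.mem_neighborSet, hx]
        exact h.1.symm
      have h1 := Set.ncard_le_ncard hsub (nbr_finite hG x)
      rw [Set.ncard_coe_finset, hG.2 x] at h1
      simp
      omega
    · have hfib : ∀ a ∈ S.image f, (S.filter fun z => f z = a).card ≤ b := by
        intro a ha
        obtain ⟨z0, hz0, rfl⟩ := Finset.mem_image.1 ha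
        have hk2 : G.dist x (f z0) = (k - 1) + 1 := by rw [(hf z0 hz0).2]; omega
        obtain ⟨q, hq1, hq2⟩ := exists_parent hc hk2
        have hsub : (((S.filter fun z => f z = f z0) : Finset V) : Set V) ⊆
            G.neighborSet (f z0) \ {q} := by
          intro z hz
          rw [Finset.mem_coe, Finset.mem_filter] at hz
          refine ⟨?_, ?_⟩
          · rw [SimpleGraph.mem_neighborSet, ← hz.2]
            exact (hf z hz.1).1.symm
          · intro hzq
            rw [Set.mem_singleton_iff] at hzq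
            have := hS z hz.1
            rw [hzq, hq2] at this
            omega
        have h1 := Set.ncard_le_ncard hsub ((nbr_finite hG _).sdiff)
        rw [Set.ncard_coe_finset] at h1
        have h2 : (G.neighborSet (f z0) \ {q}).ncard = b := by
          have h3 : q ∈ G.neighborSet (f z0) := hq1
          rw [Set.ncard_sdiff_singleton_of_mem h3, hG.2]
          omega
        omega
      have h1 := Finset.card_le_mul_card_image (f := f) S b hfib
      have h2 := ih (S.image f) (by
        intro u hu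
        obtain ⟨z, hz, rfl⟩ := Finset.mem_image.1 hu
        exact (hf z hz).2)
      calc S.card ≤ b * (S.image f).card := h1
        _ ≤ b * (2 * b ^ k) := Nat.mul_le_mul_left _ h2
        _ = 2 * b ^ (k + 1) := by ring

theorem sum_pow_dist_le {b : ℕ} (hb : 2 ≤ b) (hG : IsRegularTree G (b + 1)) {q : ℝ} (h0 : 0 ≤ q)
    (h1 : (b : ℝ) * q < 1) (x : V) (S : Finset V) :
    ∑ z ∈ S, q ^ G.dist x z ≤ 2 / (1 - b * q) := by
  classical
  have hbq : 0 ≤ (b : ℝ) * q := by positivity
  set K := S.sup (fun z => G.dist x z) + 1 with hK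
  have hmaps : ∀ z ∈ S, G.dist x z ∈ Finset.range K := by
    intro z hz
    rw [Finset.mem_range, hK]
    exact Nat.lt_succ_of_le (Finset.le_sup (f := fun z => G.dist x z) hz)
  rw [← Finset.sum_fiberwise_of_maps_to hmaps]
  have h2 : ∀ k ∈ Finset.range K, ∑ z ∈ S with G.dist x z = k, q ^ G.dist x z ≤
      2 * ((b : ℝ) * q) ^ k := by
    intro k _
    have h3 : ∑ z ∈ S with G.dist x z = k, q ^ G.dist x z =
        ((S.filter fun z => G.dist x z = k).card : ℝ) * q ^ k := by
      rw [Finset.sum_congr rfl (fun z hz => by rw [(Finset.mem_filter.1 hz).2]),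
        Finset.sum_const, nsmul_eq_mul]
    rw [h3]
    have h4 := sphere_card hb hG x k (S.filter fun z => G.dist x z = k)
      (fun z hz => (Finset.mem_filter.1 hz).2)
    have h5 : ((S.filter fun z => G.dist x z = k).card : ℝ) ≤ 2 * (b : ℝ) ^ k := by
      exact_mod_cast h4
    calc ((S.filter fun z => G.dist x z = k).card : ℝ) * q ^ k ≤ 2 * (b : ℝ) ^ k * q ^ k :=
          mul_le_mul_of_nonneg_right h5 (by positivity)
      _ = 2 * ((b : ℝ) * q) ^ k := by rw [mul_pow]; ring
  refine (Finset.sum_le_sum h2).trans ?_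
  rw [← Finset.mul_sum, div_eq_mul_inv]
  refine mul_le_mul_of_nonneg_left ?_ (by norm_num)
  rw [← tsum_geometric_of_lt_one hbq h1]
  exact (summable_geometric_of_lt_one hbq h1).sum_le_tsum _ (fun i _ => by positivity)

/-- Proof idea: induction on `dist x v`.  `n = 0`: `∑ (θθ')^{dist x z} ≤ C₀` since spheres have
`≤ (b+1) b^{k-1}` points and `bθθ' < 1`.  `n ≥ 1`: `p` = neighbour of `x` towards `v`; points closer to
`p` give `≤ θ C θ'^{n-1}`, points closer to `x` give `≤ C₀ θ'^n`; `C = C₀/(1-θ/θ')`. -/
theorem tree_kernel {b : ℕ} (hb : 2 ≤ b) (hG : IsRegularTree G (b + 1)) {θ θ' : ℝ} (h0 : 0 ≤ θ)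
    (h1 : θ < θ') (h2 : (b : ℝ) * θ' ^ 2 < 1) :
    ∃ C : ℝ, 0 < C ∧ ∀ (x v : V) (S : Finset V),
      ∑ z ∈ S, θ ^ G.dist x z * θ' ^ G.dist z v ≤ C * θ' ^ G.dist x v := by
  classical
  have hc : G.Connected := hG.1.connected
  have h0' : 0 < θ' := lt_of_le_of_lt h0 h1
  have hq0 : 0 ≤ θ * θ' := mul_nonneg h0 h0'.le
  have hqb : (b : ℝ) * (θ * θ') < 1 := by
    have h3 : θ * θ' ≤ θ' ^ 2 := by nlinarith
    have h4 : (b : ℝ) * (θ * θ') ≤ b * θ' ^ 2 := mul_le_mul_of_nonneg_left h3 (by positivity)
    linarith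
  have hD : 0 < 1 - (b : ℝ) * (θ * θ') := by linarith
  have hr1 : θ / θ' < 1 := (div_lt_one h0').2 h1
  have hr : 0 < 1 - θ / θ' := by linarith
  have hr0 : 0 ≤ θ / θ' := div_nonneg h0 h0'.le
  obtain ⟨C₀, hC₀⟩ : ∃ C₀ : ℝ, C₀ = 2 / (1 - b * (θ * θ')) := ⟨_, rfl⟩
  have hC₀p : 0 < C₀ := by rw [hC₀]; positivity
  obtain ⟨C, hC⟩ : ∃ C : ℝ, C = C₀ / (1 - θ / θ') := ⟨_, rfl⟩
  have hCp : 0 < C := by rw [hC]; positivity
  have hCC : C * (1 - θ / θ') = C₀ := by rw [hC, div_mul_cancel₀ _ hr.ne']
  have hCge : C₀ ≤ C := by nlinarith [mul_nonneg hCp.le hr0]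
  refine ⟨C, hCp, ?_⟩
  have H : ∀ n : ℕ, ∀ x v : V, G.dist x v = n → ∀ S : Finset V,
      ∑ z ∈ S, θ ^ G.dist x z * θ' ^ G.dist z v ≤ C * θ' ^ n := by
    intro n
    induction n with
    | zero =>
      intro x v hxv S
      have hxv' : x = v := hc.dist_eq_zero_iff.1 hxv
      subst hxv'
      have h5 : ∑ z ∈ S, θ ^ G.dist x z * θ' ^ G.dist z x = ∑ z ∈ S, (θ * θ') ^ G.dist x z := by
        refine Finset.sum_congr rfl fun z _ => ?_
        rw [SimpleGraph.dist_comm (u := z) (v := x), mul_pow]
      rw [h5, pow_zero, mul_one]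
      exact (sum_pow_dist_le hb hG hq0 hqb x S).trans (hC₀ ▸ hCge)
    | succ n ih =>
      intro x v hxv S
      obtain ⟨p, hp1, hp2⟩ := exists_parent hc (x := v) (z := x) (k := n)
        (by rw [SimpleGraph.dist_comm]; exact hxv)
      have hpv : G.dist p v = n := by rw [SimpleGraph.dist_comm]; exact hp2
      rw [← Finset.sum_filter_add_sum_filter_not S (fun z => G.dist x z < G.dist p z)]
      have hA : ∑ z ∈ S with G.dist x z < G.dist p z, θ ^ G.dist x z * θ' ^ G.dist z v ≤
          C₀ * θ' ^ (n + 1) := by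
        have h6 : ∀ z ∈ S.filter (fun z => G.dist x z < G.dist p z),
            θ ^ G.dist x z * θ' ^ G.dist z v = (θ * θ') ^ G.dist x z * θ' ^ (n + 1) := by
          intro z hz
          rw [Finset.mem_filter] at hz
          have h7 := dist_across hG.1 hp1 hz.2 (v := v) (by rw [hpv, hxv]; omega)
          rw [h7, hpv, SimpleGraph.dist_comm (u := z) (v := x), mul_pow, pow_add, pow_add, pow_add]
          ring
        rw [Finset.sum_congr rfl h6, ← Finset.sum_mul, hC₀]
        exact mul_le_mul_of_nonneg_right (sum_pow_dist_le hb hG hq0 hqb x _) (by positivity)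
      have hB : ∑ z ∈ S with ¬ G.dist x z < G.dist p z, θ ^ G.dist x z * θ' ^ G.dist z v ≤
          θ * (C * θ' ^ n) := by
        have h6 : ∀ z ∈ S.filter (fun z => ¬ G.dist x z < G.dist p z),
            θ ^ G.dist x z * θ' ^ G.dist z v = θ * (θ ^ G.dist p z * θ' ^ G.dist z v) := by
          intro z hz
          rw [Finset.mem_filter, not_lt] at hz
          have h7 := dist_ne_of_adj hG.1 hp1 z
          have h8 : G.dist x z ≤ G.dist x p + G.dist p z := hc.dist_triangle
          have h9 : G.dist x p = 1 := SimpleGraph.dist_eq_one_iff_adj.2 hp1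
          have h10 : G.dist x z = G.dist p z + 1 := by omega
          rw [h10, pow_succ]
          ring
        rw [Finset.sum_congr rfl h6, ← Finset.mul_sum]
        exact mul_le_mul_of_nonneg_left (ih p v hpv _) h0
      refine (add_le_add hA hB).trans (le_of_eq ?_)
      have h11 : θ * (C * θ' ^ n) = C * (θ / θ') * θ' ^ (n + 1) := by
        rw [pow_succ]
        field_simp
      rw [h11, ← hCC]
      ring
  intro x v S
  exact H _ x v rfl S

theorem tree_summable {b : ℕ} (hb : 2 ≤ b) (hG : IsRegularTree G (b + 1)) {θ' : ℝ} (h0 : 0 ≤ θ')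
    (h2 : (b : ℝ) * θ' ^ 2 < 1) (x : V) : Summable fun z : V => (θ' ^ G.dist x z) ^ 2 := by
  refine summable_of_sum_le (c := 2 / (1 - b * θ' ^ 2)) (fun z => by positivity) fun S => ?_
  have h3 : ∑ z ∈ S, (θ' ^ G.dist x z) ^ 2 = ∑ z ∈ S, (θ' ^ 2) ^ G.dist x z :=
    Finset.sum_congr rfl fun z _ => by rw [← pow_mul, ← pow_mul, mul_comm]
  rw [h3]
  exact sum_pow_dist_le hb hG (by positivity) h2 x S

end Vale.Agent.H16.FIID
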