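import Vale.Agent.H16.FIID.M4aLeaf
import Vale.Agent.H16.FIID.M2Tree
/-! M4b: influence of one observation on posterior means decays like `θ^dist`. -/
open MeasureTheory
namespace Vale.Agent.H16.FIID
variable {V : Type} {G : SimpleGraph V}

/-- mean of `σ_x` under the positive weights `∏_{v ∈ A} lam v (σ v)` -/
noncomputable def wmean (μ : Measure (V → Bool)) (A : Finset V) (lam : V → Bool → ℝ) (x : V) : ℝ :=
  (∫ σ, sgn (σ x) * ∏ v ∈ A, lam v (σ v) ∂μ) / ∫ σ, ∏ v ∈ A, lam v (σ v) ∂μ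

/-- functions of finitely many spins are integrable -/
theorem b4_integrable_of_dep (μ : Measure (V → Bool)) [IsProbabilityMeasure μ] (A : Finset V)
    (F : (V → Bool) → ℝ) (hF : ∀ σ σ' : V → Bool, (∀ a ∈ A, σ a = σ' a) → F σ = F σ') :
    Integrable F μ := by
  classical
  have h1 : F = (fun g : A → Bool => F (fun v => if h : v ∈ A then g ⟨v, h⟩ else true)) ∘
      (fun σ : V → Bool => fun a : A => σ a) := by
    funext σ
    refine hF _ _ fun a ha => ?_
    simp [ha]
  have hmeas : Measurable F := by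
    rw [h1]
    refine Measurable.comp (measurable_of_countable _) ?_
    exact measurable_pi_lambda _ fun a => measurable_pi_apply _
  obtain ⟨C, hC⟩ : ∃ C : ℝ, ∀ σ, ‖F σ‖ ≤ C := by
    refine ⟨∑ g : A → Bool, ‖F (fun v => if h : v ∈ A then g ⟨v, h⟩ else true)‖, fun σ => ?_⟩
    have h2 : F σ = F (fun v => if h : v ∈ A then (fun a : A => σ a) ⟨v, h⟩ else true) :=
      congrFun h1 σ
    rw [h2]
    exact Finset.single_le_sum
      (f := fun g : A → Bool => ‖F (fun v => if h : v ∈ A then g ⟨v, h⟩ else true)‖)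
      (fun _ _ => norm_nonneg _) (Finset.mem_univ (fun a : A => σ a))
  exact Integrable.of_bound hmeas.aestronglyMeasurable C (Filter.Eventually.of_forall hC)

theorem b4_sgn_true : sgn true = 1 := by simp [sgn]
theorem b4_sgn_false : sgn false = -1 := by simp [sgn]

theorem b4_dep_prod (A : Finset V) (lam : V → Bool → ℝ) (σ σ' : V → Bool)
    (h : ∀ a ∈ A, σ a = σ' a) : ∏ v ∈ A, lam v (σ v) = ∏ v ∈ A, lam v (σ' v) :=
  Finset.prod_congr rfl fun v hv => by rw [h v hv]

theorem b4_integral_prod_pos (μ : Measure (V → Bool)) [IsProbabilityMeasure μ] (A : Finset V)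
    (lam : V → Bool → ℝ) (hpos : ∀ v s, 0 < lam v s) : 0 < ∫ σ, ∏ v ∈ A, lam v (σ v) ∂μ := by
  have hint : Integrable (fun σ : V → Bool => ∏ v ∈ A, lam v (σ v)) μ :=
    b4_integrable_of_dep μ A _ fun σ σ' h => b4_dep_prod A lam σ σ' h
  have h1 : (∏ v ∈ A, min (lam v true) (lam v false)) ≤ ∫ σ, ∏ v ∈ A, lam v (σ v) ∂μ := by
    have h2 : (∫ _σ : V → Bool, (∏ v ∈ A, min (lam v true) (lam v false)) ∂μ) =
        ∏ v ∈ A, min (lam v true) (lam v false) := by simp
    rw [← h2]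
    refine integral_mono (integrable_const _) hint fun σ => ?_
    refine Finset.prod_le_prod (fun v _ => (lt_min (hpos v true) (hpos v false)).le) fun v _ => ?_
    cases σ v
    · exact min_le_right _ _
    · exact min_le_left _ _
  refine lt_of_lt_of_le (Finset.prod_pos fun v _ => lt_min (hpos v true) (hpos v false)) h1

theorem b4_edgeAvg_pos {θ : ℝ} (h0 : 0 ≤ θ) (h1 : θ < 1) {g : Bool → ℝ} (hg : ∀ s, 0 < g s)
    (s : Bool) : 0 < edgeAvg θ g s := by
  unfold edgeAvg
  have ht := hg true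
  have hf := hg false
  cases s
  · rw [b4_sgn_false]
    have : 0 < (1 + θ * -1) / 2 * g true := mul_pos (by linarith) ht
    have : 0 < (1 - θ * -1) / 2 * g false := mul_pos (by linarith) hf
    linarith
  · rw [b4_sgn_true]
    have : 0 < (1 + θ * 1) / 2 * g true := mul_pos (by linarith) ht
    have : 0 < (1 - θ * 1) / 2 * g false := mul_pos (by linarith) hf
    linarith

/-- the averaged `sgn * g` is an affine function of the spin times the average of `g` -/
theorem b4_edgeAvg_sgn {θ : ℝ} (h0 : 0 ≤ θ) (h1 : θ < 1) {g : Bool → ℝ} (hg : ∀ s, 0 < g s) :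
    ∃ α κ : ℝ, 0 ≤ κ ∧ κ ≤ θ ∧
      ∀ s, edgeAvg θ (fun t => sgn t * g t) s = (α + κ * sgn s) * edgeAvg θ g s := by
  have ht := hg true
  have hf := hg false
  obtain ⟨a, ha⟩ : ∃ a, a = g true := ⟨_, rfl⟩
  obtain ⟨b, hb⟩ : ∃ b, b = g false := ⟨_, rfl⟩
  rw [← ha] at ht
  rw [← hb] at hf
  have hP : 0 < (1 + θ) * a + (1 - θ) * b := by nlinarith
  have hM : 0 < (1 - θ) * a + (1 + θ) * b := by nlinarith
  refine ⟨(((1 + θ) * a - (1 - θ) * b) / ((1 + θ) * a + (1 - θ) * b) +
      ((1 - θ) * a - (1 + θ) * b) / ((1 - θ) * a + (1 + θ) * b)) / 2,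
    (((1 + θ) * a - (1 - θ) * b) / ((1 + θ) * a + (1 - θ) * b) -
      ((1 - θ) * a - (1 + θ) * b) / ((1 - θ) * a + (1 + θ) * b)) / 2, ?_, ?_, ?_⟩
  · have : ((1 + θ) * a - (1 - θ) * b) / ((1 + θ) * a + (1 - θ) * b) -
      ((1 - θ) * a - (1 + θ) * b) / ((1 - θ) * a + (1 + θ) * b) =
      8 * θ * a * b / (((1 + θ) * a + (1 - θ) * b) * ((1 - θ) * a + (1 + θ) * b)) := by
      rw [div_sub_div _ _ hP.ne' hM.ne']
      congr 1
      ring
    rw [this]
    positivity
  · have : ((1 + θ) * a - (1 - θ) * b) / ((1 + θ) * a + (1 - θ) * b) -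
      ((1 - θ) * a - (1 + θ) * b) / ((1 - θ) * a + (1 + θ) * b) =
      8 * θ * a * b / (((1 + θ) * a + (1 - θ) * b) * ((1 - θ) * a + (1 + θ) * b)) := by
      rw [div_sub_div _ _ hP.ne' hM.ne']
      congr 1
      ring
    rw [this, div_div, div_le_iff₀ (by positivity)]
    have h3 : 4 * a * b ≤ ((1 + θ) * a + (1 - θ) * b) * ((1 - θ) * a + (1 + θ) * b) := by
      nlinarith [mul_nonneg (sub_nonneg.2 (mul_le_one₀ h1.le h0 h1.le)) (sq_nonneg (a - b)),
        mul_pos ht hf]
    nlinarith [mul_le_mul_of_nonneg_left h3 h0]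
  · obtain ⟨r1, hr1⟩ : ∃ r1, r1 = ((1 + θ) * a - (1 - θ) * b) / ((1 + θ) * a + (1 - θ) * b) :=
      ⟨_, rfl⟩
    obtain ⟨r2, hr2⟩ : ∃ r2, r2 = ((1 - θ) * a - (1 + θ) * b) / ((1 - θ) * a + (1 + θ) * b) :=
      ⟨_, rfl⟩
    have e1 : r1 * ((1 + θ) * a + (1 - θ) * b) = (1 + θ) * a - (1 - θ) * b := by
      rw [hr1, div_mul_cancel₀ _ hP.ne']
    have e2 : r2 * ((1 - θ) * a + (1 + θ) * b) = (1 - θ) * a - (1 + θ) * b := by
      rw [hr2, div_mul_cancel₀ _ hM.ne']
    rw [← hr1, ← hr2]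
    intro s
    unfold edgeAvg
    cases s
    · simp only [b4_sgn_true, b4_sgn_false, ← ha, ← hb]
      linear_combination (-1 / 2 : ℝ) * e2
    · simp only [b4_sgn_true, b4_sgn_false, ← ha, ← hb]
      linear_combination (-1 / 2 : ℝ) * e1

/-- the weights after integrating out `l` towards `p` -/
noncomputable def b4_push (θ : ℝ) (B : Finset V) (lam : V → Bool → ℝ) (l p : V) : V → Bool → ℝ :=
  letI := Classical.decEq V
  letI := Classical.propDecidable (p ∈ B)
  fun v s => if v = p then (if p ∈ B then lam p s else 1) * edgeAvg θ (lam l) s else lam v s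

theorem b4_push_pos {θ : ℝ} (h0 : 0 ≤ θ) (h1 : θ < 1) (B : Finset V) {lam : V → Bool → ℝ}
    (hpos : ∀ v s, 0 < lam v s) (l p : V) : ∀ v s, 0 < b4_push θ B lam l p v s := by
  intro v s
  unfold b4_push
  have h2 := b4_edgeAvg_pos h0 h1 (hpos l) s
  split_ifs
  · exact mul_pos (hpos p s) h2
  · simpa using h2
  · exact hpos v s

theorem b4_push_agree {θ : ℝ} (B : Finset V) {lam lam' : V → Bool → ℝ} {l p z : V} (hlz : l ≠ z)
    (hz : ∀ v, v ≠ z → lam v = lam' v) :
    ∀ v, v ≠ z → b4_push θ B lam l p v = b4_push θ B lam' l p v := by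
  intro v hv
  unfold b4_push
  funext s
  by_cases hvp : v = p
  · subst hvp
    simp only [if_true]
    rw [hz v hv, hz l hlz]
  · simp only [hvp, if_false]
    rw [hz v hv]

open Classical in
theorem b4_push_prod {θ : ℝ} (B : Finset V) (lam : V → Bool → ℝ) {l p : V} (hpl : p ≠ l)
    (σ : V → Bool) :
    edgeAvg θ (lam l) (σ p) * ∏ v ∈ B.erase l, lam v (σ v) =
      ∏ v ∈ insert p (B.erase l), b4_push θ B lam l p v (σ v) := by
  have h2 : ∀ v ∈ (B.erase l).erase p, b4_push θ B lam l p v (σ v) = lam v (σ v) := by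
    intro v hv
    have : v ≠ p := (Finset.mem_erase.1 hv).1
    unfold b4_push
    simp [this]
  by_cases hp : p ∈ B
  · have hp' : p ∈ B.erase l := Finset.mem_erase.2 ⟨hpl, hp⟩
    rw [Finset.insert_eq_of_mem hp', ← Finset.mul_prod_erase _ _ hp',
      ← Finset.mul_prod_erase (B.erase l) (fun v => b4_push θ B lam l p v (σ v)) hp',
      Finset.prod_congr rfl h2]
    have : b4_push θ B lam l p p (σ p) = lam p (σ p) * edgeAvg θ (lam l) (σ p) := by
      unfold b4_push
      simp [hp]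
    rw [this]
    ring
  · have hp' : p ∉ B.erase l := fun h => hp (Finset.mem_erase.1 h).2
    rw [Finset.prod_insert hp']
    have h3 : (B.erase l).erase p = B.erase l := Finset.erase_eq_of_notMem hp'
    rw [h3] at h2
    rw [Finset.prod_congr rfl h2]
    have : b4_push θ B lam l p p (σ p) = edgeAvg θ (lam l) (σ p) := by
      unfold b4_push
      simp [hp]
    rw [this]

theorem b4_adj_closer (hG : G.IsTree) {l p : V} (hlp : G.Adj l p) : G.dist p p < G.dist l p := by
  rw [SimpleGraph.dist_self, SimpleGraph.dist_eq_one_iff_adj.2 hlp]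
  exact one_pos

open Classical in
/-- integrate `l` out of a product -/
theorem b4_integral_push (hG : G.IsTree) {θ : ℝ} (h0 : 0 ≤ θ) (h1 : θ < 1)
    {μ : Measure (V → Bool)} [IsProbabilityMeasure μ] (hμ : IsFreeIsing G θ μ)
    {B : Finset V} (lam : V → Bool → ℝ) {l p : V} (hlp : G.Adj l p)
    (hA : ∀ a ∈ B.erase l, G.dist p a < G.dist l a) (φ : (V → Bool) → ℝ)
    (hφ : ∀ σ σ' : V → Bool, (∀ a ∈ insert p (B.erase l), σ a = σ' a) → φ σ = φ σ')
    (g : Bool → ℝ) :
    ∫ σ, g (σ l) * (φ σ * ∏ v ∈ B.erase l, lam v (σ v)) ∂μ =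
      ∫ σ, edgeAvg θ g (σ p) * (φ σ * ∏ v ∈ B.erase l, lam v (σ v)) ∂μ := by
  refine leaf_integration hG h0 h1 hμ hlp (insert p (B.erase l)) ?_ _ ?_ g
  · intro a ha
    rcases Finset.mem_insert.1 ha with rfl | ha
    · exact b4_adj_closer hG hlp
    · exact hA a ha
  · intro σ σ' h
    rw [hφ σ σ' h, b4_dep_prod (B.erase l) lam σ σ' fun a ha => h a (Finset.mem_insert_of_mem ha)]

open Classical in
theorem b4_denom_push (hG : G.IsTree) {θ : ℝ} (h0 : 0 ≤ θ) (h1 : θ < 1)
    {μ : Measure (V → Bool)} [IsProbabilityMeasure μ] (hμ : IsFreeIsing G θ μ)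
    {B : Finset V} (lam : V → Bool → ℝ) {l p : V} (hl : l ∈ B) (hlp : G.Adj l p)
    (hA : ∀ a ∈ B.erase l, G.dist p a < G.dist l a) :
    ∫ σ, ∏ v ∈ B, lam v (σ v) ∂μ =
      ∫ σ, ∏ v ∈ insert p (B.erase l), b4_push θ B lam l p v (σ v) ∂μ := by
  have e1 : ∀ σ : V → Bool, ∏ v ∈ B, lam v (σ v) =
      lam l (σ l) * ((fun _ : V → Bool => (1 : ℝ)) σ * ∏ v ∈ B.erase l, lam v (σ v)) := by
    intro σ
    rw [one_mul, Finset.mul_prod_erase B (fun v => lam v (σ v)) hl]
  have e2 : ∀ σ : V → Bool, ∏ v ∈ insert p (B.erase l), b4_push θ B lam l p v (σ v) =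
      edgeAvg θ (lam l) (σ p) * ((fun _ : V → Bool => (1 : ℝ)) σ *
        ∏ v ∈ B.erase l, lam v (σ v)) := by
    intro σ
    rw [one_mul, b4_push_prod B lam hlp.ne' σ]
  simp only [e1, e2]
  exact b4_integral_push hG h0 h1 hμ lam hlp hA _ (fun _ _ _ => rfl) (lam l)

open Classical in
theorem b4_wmean_push_ne (hG : G.IsTree) {θ : ℝ} (h0 : 0 ≤ θ) (h1 : θ < 1)
    {μ : Measure (V → Bool)} [IsProbabilityMeasure μ] (hμ : IsFreeIsing G θ μ)
    {B : Finset V} (lam : V → Bool → ℝ) {l p : V} (hl : l ∈ B) (hlp : G.Adj l p)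
    (hA : ∀ a ∈ B.erase l, G.dist p a < G.dist l a) {x : V} (hx : x ∈ B) (hxl : x ≠ l) :
    wmean μ B lam x = wmean μ (insert p (B.erase l)) (b4_push θ B lam l p) x := by
  unfold wmean
  rw [b4_denom_push hG h0 h1 hμ lam hl hlp hA]
  congr 1
  have e1 : ∀ σ : V → Bool, sgn (σ x) * ∏ v ∈ B, lam v (σ v) =
      lam l (σ l) * ((fun τ : V → Bool => sgn (τ x)) σ * ∏ v ∈ B.erase l, lam v (σ v)) := by
    intro σ
    rw [← Finset.mul_prod_erase B (fun v => lam v (σ v)) hl]
    ring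
  have e2 : ∀ σ : V → Bool,
      sgn (σ x) * ∏ v ∈ insert p (B.erase l), b4_push θ B lam l p v (σ v) =
      edgeAvg θ (lam l) (σ p) * ((fun τ : V → Bool => sgn (τ x)) σ *
        ∏ v ∈ B.erase l, lam v (σ v)) := by
    intro σ
    rw [← b4_push_prod B lam hlp.ne' σ]
    ring
  simp only [e1, e2]
  refine b4_integral_push hG h0 h1 hμ lam hlp hA _ (fun σ σ' h => ?_) (lam l)
  rw [h x (Finset.mem_insert_of_mem (Finset.mem_erase.2 ⟨hxl, hx⟩))]

open Classical in
theorem b4_wmean_push_self (hG : G.IsTree) {θ : ℝ} (h0 : 0 ≤ θ) (h1 : θ < 1)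
    {μ : Measure (V → Bool)} [IsProbabilityMeasure μ] (hμ : IsFreeIsing G θ μ)
    {B : Finset V} (lam : V → Bool → ℝ) (hpos : ∀ v s, 0 < lam v s)
    {l p : V} (hl : l ∈ B) (hlp : G.Adj l p)
    (hA : ∀ a ∈ B.erase l, G.dist p a < G.dist l a) {α κ : ℝ}
    (hακ : ∀ s, edgeAvg θ (fun t => sgn t * lam l t) s = (α + κ * sgn s) * edgeAvg θ (lam l) s) :
    wmean μ B lam l = α + κ * wmean μ (insert p (B.erase l)) (b4_push θ B lam l p) p := by
  have hden := b4_denom_push hG h0 h1 hμ lam hl hlp hA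
  have hdpos := b4_integral_prod_pos μ (insert p (B.erase l)) (b4_push θ B lam l p)
    (b4_push_pos h0 h1 B hpos l p)
  have hnum : ∫ σ, sgn (σ l) * ∏ v ∈ B, lam v (σ v) ∂μ =
      α * ∫ σ, ∏ v ∈ insert p (B.erase l), b4_push θ B lam l p v (σ v) ∂μ +
      κ * ∫ σ, sgn (σ p) * ∏ v ∈ insert p (B.erase l), b4_push θ B lam l p v (σ v) ∂μ := by
    have e1 : ∀ σ : V → Bool, sgn (σ l) * ∏ v ∈ B, lam v (σ v) =
        (fun t => sgn t * lam l t) (σ l) *
          ((fun _ : V → Bool => (1 : ℝ)) σ * ∏ v ∈ B.erase l, lam v (σ v)) := by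
      intro σ
      rw [← Finset.mul_prod_erase B (fun v => lam v (σ v)) hl]
      ring
    simp only [e1]
    rw [b4_integral_push hG h0 h1 hμ lam hlp hA _ (fun _ _ _ => rfl) (fun t => sgn t * lam l t)]
    rw [← integral_const_mul, ← integral_const_mul, ← integral_add]
    · refine integral_congr_ae (Filter.Eventually.of_forall fun σ => ?_)
      simp only
      rw [hακ, ← b4_push_prod B lam hlp.ne' σ]
      ring
    · exact (b4_integrable_of_dep μ (insert p (B.erase l)) _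
        fun σ σ' h => b4_dep_prod _ _ σ σ' h).const_mul _
    · refine (b4_integrable_of_dep μ (insert p (B.erase l)) _ fun σ σ' h => ?_).const_mul _
      rw [h p (Finset.mem_insert_self _ _), b4_dep_prod _ _ σ σ' h]
  unfold wmean
  rw [hnum, hden]
  field_simp

open Classical in
theorem b4_sum_dist_push {B : Finset V} {z l p : V} (hl : l ∈ B) (hlt : G.dist z p < G.dist z l) :
    ∑ v ∈ insert p (B.erase l), G.dist z v < ∑ v ∈ B, G.dist z v := by
  have h1 := Finset.add_sum_erase B (fun v => G.dist z v) hl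
  by_cases hp : p ∈ B.erase l
  · rw [Finset.insert_eq_of_mem hp]
    omega
  · rw [Finset.sum_insert hp]
    omega

open Classical in
theorem b4_wmean_influence_mem (hG : G.IsTree) {θ : ℝ} (h0 : 0 ≤ θ) (h1 : θ < 1)
    {μ : Measure (V → Bool)} [IsProbabilityMeasure μ] (hμ : IsFreeIsing G θ μ) (z : V) :
    ∀ (n : ℕ) (B : Finset V), ∑ v ∈ B, G.dist z v = n → z ∈ B →
      ∀ (lam lam' : V → Bool → ℝ), (∀ v s, 0 < lam v s) → (∀ v s, 0 < lam' v s) →
      (∀ v, v ≠ z → lam v = lam' v) → ∀ x ∈ B,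
      |wmean μ B lam x - wmean μ B lam' x| ≤
        θ ^ G.dist x z * |wmean μ B lam z - wmean μ B lam' z| := by
  intro n
  induction n using Nat.strong_induction_on with
  | _ n ih =>
    intro B hn hzB lam lam' hpos hpos' hz x hx
    have hc : G.Connected := hG.connected
    by_cases hne : ∃ v ∈ B, v ≠ z
    · obtain ⟨l, hlB, hlmax⟩ := Finset.exists_max_image B (fun v => G.dist z v) ⟨z, hzB⟩
      obtain ⟨v0, hv0, hv0z⟩ := hne
      have hpl : 0 < G.dist z l :=
        lt_of_lt_of_le (hc.pos_dist_of_ne hv0z.symm) (hlmax v0 hv0)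
      have hlz : l ≠ z := by
        rintro rfl
        simp at hpl
      obtain ⟨k, hk⟩ := Nat.exists_eq_succ_of_ne_zero hpl.ne'
      obtain ⟨p, hlp, hpk⟩ := exists_parent hc (x := z) (z := l) hk
      have hlz' : G.dist l z = k + 1 := by rw [SimpleGraph.dist_comm]; exact hk
      have hpz' : G.dist p z = k := by rw [SimpleGraph.dist_comm]; exact hpk
      have hA : ∀ a ∈ B.erase l, G.dist p a < G.dist l a := by
        intro a ha
        obtain ⟨hal, haB⟩ := Finset.mem_erase.1 ha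
        by_contra hcon
        have hlt : G.dist l a < G.dist p a :=
          lt_of_le_of_ne (not_lt.1 hcon) (dist_ne_of_adj hG hlp a)
        have h5 := dist_across hG hlp hlt (v := z) (by omega)
        have h6 : G.dist z a ≤ G.dist z l := hlmax a haB
        have h7 := hc.pos_dist_of_ne hal
        rw [SimpleGraph.dist_comm (u := z) (v := a)] at h6
        omega
      have hlt := b4_sum_dist_push (G := G) (z := z) (p := p) hlB (by omega)
      have hzB' : z ∈ insert p (B.erase l) :=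
        Finset.mem_insert_of_mem (Finset.mem_erase.2 ⟨hlz.symm, hzB⟩)
      have IH := ih _ (hn ▸ hlt) (insert p (B.erase l)) rfl hzB' (b4_push θ B lam l p)
        (b4_push θ B lam' l p) (b4_push_pos h0 h1 B hpos l p) (b4_push_pos h0 h1 B hpos' l p)
        (b4_push_agree B hlz hz)
      have ez := b4_wmean_push_ne hG h0 h1 hμ lam hlB hlp hA hzB hlz.symm
      have ez' := b4_wmean_push_ne hG h0 h1 hμ lam' hlB hlp hA hzB hlz.symm
      by_cases hxl : x = l
      · subst hxl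
        obtain ⟨α, κ, hκ0, hκ1, hακ⟩ := b4_edgeAvg_sgn h0 h1 (hpos x)
        have ex := b4_wmean_push_self hG h0 h1 hμ lam hpos hlB hlp hA hακ
        have ex' := b4_wmean_push_self hG h0 h1 hμ lam' hpos' hlB hlp hA (α := α) (κ := κ) (by
          rw [← hz x hlz]
          exact hακ)
        have h8 := IH p (Finset.mem_insert_self _ _)
        rw [← ez, ← ez', hpz'] at h8
        rw [ex, ex', hlz']
        have h9 : α + κ * wmean μ (insert p (B.erase x)) (b4_push θ B lam x p) p -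
            (α + κ * wmean μ (insert p (B.erase x)) (b4_push θ B lam' x p) p) =
            κ * (wmean μ (insert p (B.erase x)) (b4_push θ B lam x p) p -
              wmean μ (insert p (B.erase x)) (b4_push θ B lam' x p) p) := by ring
        rw [h9, abs_mul, abs_of_nonneg hκ0, pow_succ']
        calc κ * |wmean μ (insert p (B.erase x)) (b4_push θ B lam x p) p -
              wmean μ (insert p (B.erase x)) (b4_push θ B lam' x p) p|
            ≤ θ * (θ ^ k * |wmean μ B lam z - wmean μ B lam' z|) :=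
              mul_le_mul hκ1 h8 (abs_nonneg _) h0
          _ = θ * θ ^ k * |wmean μ B lam z - wmean μ B lam' z| := by ring
      · have ex := b4_wmean_push_ne hG h0 h1 hμ lam hlB hlp hA hx hxl
        have ex' := b4_wmean_push_ne hG h0 h1 hμ lam' hlB hlp hA hx hxl
        have h8 := IH x (Finset.mem_insert_of_mem (Finset.mem_erase.2 ⟨hxl, hx⟩))
        rw [ez, ez', ex, ex']
        exact h8
    · push Not at hne
      have := hne x hx
      subst this
      simp

open Classical in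
/-- enlarge the set of weighted vertices -/
theorem b4_wmean_extend (μ : Measure (V → Bool)) (A B : Finset V) (hAB : A ⊆ B)
    (lam : V → Bool → ℝ) (x : V) :
    wmean μ A lam x = wmean μ B (fun v s => if v ∈ A then lam v s else 1) x := by
  have h : ∀ σ : V → Bool, ∏ v ∈ B, (if v ∈ A then lam v (σ v) else 1) =
      ∏ v ∈ A, lam v (σ v) := by
    intro σ
    rw [← Finset.prod_subset hAB]
    · exact Finset.prod_congr rfl fun v hv => by simp [hv]
    · intro v _ hv
      simp [hv]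
  unfold wmean
  simp only [h]

/-- Changing the weight at the single vertex `z` changes the mean at `x` by at most `θ^{dist x z}`
times the change at `z`. -/
theorem wmean_influence (hG : G.IsTree) {θ : ℝ} (h0 : 0 ≤ θ) (h1 : θ < 1)
    {μ : Measure (V → Bool)} [IsProbabilityMeasure μ] (hμ : IsFreeIsing G θ μ)
    (A : Finset V) (lam lam' : V → Bool → ℝ) (hpos : ∀ v s, 0 < lam v s) (hpos' : ∀ v s, 0 < lam' v s)
    (z : V) (hz : ∀ v, v ≠ z → lam v = lam' v) (x : V) :
    |wmean μ A lam x - wmean μ A lam' x| ≤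
      θ ^ G.dist x z * |wmean μ A lam z - wmean μ A lam' z| := by
  classical
  have hAB : A ⊆ insert x (insert z A) :=
    (Finset.subset_insert _ _).trans (Finset.subset_insert _ _)
  rw [b4_wmean_extend μ A _ hAB lam x, b4_wmean_extend μ A _ hAB lam' x,
    b4_wmean_extend μ A _ hAB lam z, b4_wmean_extend μ A _ hAB lam' z]
  refine b4_wmean_influence_mem hG h0 h1 hμ z _ _ rfl (by simp) _ _ ?_ ?_ ?_ x (by simp)
  · intro v s
    split_ifs
    · exact hpos v s
    · exact one_pos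
  · intro v s
    split_ifs
    · exact hpos' v s
    · exact one_pos
  · intro v hv
    funext s
    rw [hz v hv]

/-! ### posterior means -/

/-- vertex weights of the data `w` on `S` -/
noncomputable def b4_vw (ε : ℝ) (S : Finset (V × ℕ)) (w : V × ℕ → UI) (u : V) (s : Bool) : ℝ :=
  letI := Classical.decEq V
  ∏ j ∈ S.filter (fun j => j.1 = u), (1 + ε * sgn s * (2 * (w j : ℝ) - 1))

theorem b4_factor_bounds {ε : ℝ} (hε0 : 0 < ε) (s : Bool) (y : UI) :
    1 - ε ≤ 1 + ε * sgn s * (2 * (y : ℝ) - 1) := by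
  have h1 := y.2.1
  have h2 := y.2.2
  cases s
  · rw [b4_sgn_false]
    nlinarith
  · rw [b4_sgn_true]
    nlinarith

theorem b4_vw_pos {ε : ℝ} (hε0 : 0 < ε) (hε1 : ε < 1) (S : Finset (V × ℕ)) (w : V × ℕ → UI)
    (u : V) (s : Bool) : 0 < b4_vw ε S w u s := by
  unfold b4_vw
  refine Finset.prod_pos fun j _ => ?_
  have := b4_factor_bounds hε0 s (w j)
  linarith

open Classical in
theorem b4_lik_eq (ε : ℝ) (S : Finset (V × ℕ)) (w : V × ℕ → UI) (σ : V → Bool) :
    lik ε S w σ = ∏ u ∈ S.image Prod.fst, b4_vw ε S w u (σ u) := by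
  unfold lik b4_vw
  rw [← Finset.prod_fiberwise_of_maps_to (s := S) (t := S.image Prod.fst) (g := Prod.fst)
    (fun j hj => Finset.mem_image_of_mem _ hj)]
  refine Finset.prod_congr rfl fun u _ => ?_
  refine Finset.prod_congr (by congr!) fun j hj => ?_
  rw [(Finset.mem_filter.1 hj).2]

open Classical in
theorem b4_pm_eq (μ : Measure (V → Bool)) (ε : ℝ) (v : V) (S : Finset (V × ℕ)) (w : V × ℕ → UI) :
    pm μ ε v S w = wmean μ (S.image Prod.fst) (b4_vw ε S w) v := by
  unfold pm Np Zp wmean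
  simp only [b4_lik_eq]

theorem b4_lik_dep (ε : ℝ) (S : Finset (V × ℕ)) (w : V × ℕ → UI) (A : Finset V)
    (hA : ∀ j ∈ S, j.1 ∈ A) (σ σ' : V → Bool) (h : ∀ a ∈ A, σ a = σ' a) :
    lik ε S w σ = lik ε S w σ' := by
  unfold lik
  exact Finset.prod_congr rfl fun j hj => by rw [h j.1 (hA j hj)]

theorem b4_lik_pos {ε : ℝ} (hε0 : 0 < ε) (hε1 : ε < 1) (S : Finset (V × ℕ)) (w : V × ℕ → UI)
    (σ : V → Bool) : 0 < lik ε S w σ := by
  unfold lik
  refine Finset.prod_pos fun j _ => ?_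
  have := b4_factor_bounds hε0 (σ j.1) (w j)
  linarith

theorem b4_sgn_mul_self (s : Bool) : sgn s * sgn s = 1 := by
  cases s
  · rw [b4_sgn_false]; norm_num
  · rw [b4_sgn_true]; norm_num

theorem b4_abs_sgn (s : Bool) : |sgn s| = 1 := by
  cases s
  · rw [b4_sgn_false]; norm_num
  · rw [b4_sgn_true]; norm_num

open Classical in
/-- the effect of one observation on the posterior mean of its own spin -/
theorem b4_pm_self_diff {μ : Measure (V → Bool)} [IsProbabilityMeasure μ] {ε : ℝ} (hε0 : 0 < ε)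
    (hε1 : ε < 1) (S : Finset (V × ℕ)) {j : V × ℕ} (hj : j ∈ S) (w w' : V × ℕ → UI)
    (hw : ∀ i, i ≠ j → w i = w' i) :
    |pm μ ε j.1 S w - pm μ ε j.1 S w'| ≤ 2 * ε / (1 - ε) ^ 2 * |(w j : ℝ) - w' j| := by
  obtain ⟨A, hA⟩ : ∃ A : Finset V, A = S.image Prod.fst := ⟨_, rfl⟩
  have hAS : ∀ i ∈ S, i.1 ∈ A := fun i hi => by rw [hA]; exact Finset.mem_image_of_mem _ hi
  have hAS' : ∀ i ∈ S.erase j, i.1 ∈ A := fun i hi => hAS i (Finset.mem_of_mem_erase hi)
  obtain ⟨L, hL⟩ : ∃ L : (V → Bool) → ℝ, L = lik ε (S.erase j) w := ⟨_, rfl⟩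
  have hLw' : lik ε (S.erase j) w' = L := by
    rw [hL]
    funext σ
    unfold lik
    refine Finset.prod_congr rfl fun i hi => ?_
    rw [hw i (Finset.mem_erase.1 hi).1]
  have hLdep : ∀ σ σ' : V → Bool, (∀ a ∈ A, σ a = σ' a) → L σ = L σ' := by
    intro σ σ' h
    rw [hL]
    exact b4_lik_dep ε _ w A hAS' σ σ' h
  have hLint : Integrable L μ := b4_integrable_of_dep μ A L hLdep
  have hsLint : Integrable (fun σ => sgn (σ j.1) * L σ) μ := by
    refine b4_integrable_of_dep μ A _ fun σ σ' h => ?_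
    rw [hLdep σ σ' h, h j.1 (hAS j hj)]
  have hLpos : ∀ σ, 0 < L σ := fun σ => by rw [hL]; exact b4_lik_pos hε0 hε1 _ w σ
  obtain ⟨Z, hZ⟩ : ∃ Z : ℝ, Z = ∫ σ, L σ ∂μ := ⟨_, rfl⟩
  obtain ⟨N, hN⟩ : ∃ N : ℝ, N = ∫ σ, sgn (σ j.1) * L σ ∂μ := ⟨_, rfl⟩
  have hZpos : 0 < Z := by
    rw [hZ, integral_pos_iff_support_of_nonneg (fun σ => (hLpos σ).le) hLint]
    have : Function.support L = Set.univ := by
      ext σ
      simp [(hLpos σ).ne']
    rw [this]
    simp
  have hNZ : |N| ≤ Z := by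
    rw [hN, hZ]
    refine (abs_integral_le_integral_abs).trans (le_of_eq ?_)
    refine integral_congr_ae (Filter.Eventually.of_forall fun σ => ?_)
    simp only
    rw [abs_mul, b4_abs_sgn, one_mul, abs_of_pos (hLpos σ)]
  have key : ∀ u : V × ℕ → UI, lik ε (S.erase j) u = L →
      Zp μ ε S u = Z + ε * (2 * (u j : ℝ) - 1) * N ∧
      Np μ ε j.1 S u = N + ε * (2 * (u j : ℝ) - 1) * Z := by
    intro u hu
    have e1 : ∀ σ, lik ε S u σ = (1 + ε * sgn (σ j.1) * (2 * (u j : ℝ) - 1)) * L σ := by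
      intro σ
      rw [← hu]
      unfold lik
      rw [← Finset.mul_prod_erase S _ hj]
    unfold Zp Np
    simp only [e1]
    constructor
    · have e2 : ∀ σ : V → Bool, (1 + ε * sgn (σ j.1) * (2 * (u j : ℝ) - 1)) * L σ =
          L σ + ε * (2 * (u j : ℝ) - 1) * (sgn (σ j.1) * L σ) := fun σ => by ring
      simp only [e2]
      rw [integral_add hLint (hsLint.const_mul _), integral_const_mul, hZ, hN]
    · have e2 : ∀ σ : V → Bool, sgn (σ j.1) *
          ((1 + ε * sgn (σ j.1) * (2 * (u j : ℝ) - 1)) * L σ) =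
          sgn (σ j.1) * L σ + ε * (2 * (u j : ℝ) - 1) * L σ := fun σ => by
        linear_combination (ε * (2 * (u j : ℝ) - 1) * L σ) * b4_sgn_mul_self (σ j.1)
      simp only [e2]
      rw [integral_add hsLint (hLint.const_mul _), integral_const_mul, hZ, hN]
  obtain ⟨k1, k2⟩ := key w hL.symm
  obtain ⟨k3, k4⟩ := key w' hLw'
  have hb : ∀ y : UI, (1 - ε) * Z ≤ Z + ε * (2 * (y : ℝ) - 1) * N := by
    intro y
    have h1 := y.2.1
    have h2 := y.2.2
    have h3 : |(2 * (y : ℝ) - 1) * N| ≤ Z := by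
      rw [abs_mul]
      have : |2 * (y : ℝ) - 1| ≤ 1 := abs_le.2 ⟨by linarith, by linarith⟩
      calc |2 * (y : ℝ) - 1| * |N| ≤ 1 * Z :=
            mul_le_mul this hNZ (abs_nonneg _) zero_le_one
        _ = Z := one_mul _
    have h4 := (abs_le.1 h3).1
    nlinarith
  have hD : 0 < (1 - ε) * Z := mul_pos (by linarith) hZpos
  have hD1 := lt_of_lt_of_le hD (hb (w j))
  have hD2 := lt_of_lt_of_le hD (hb (w' j))
  have hdiff : pm μ ε j.1 S w - pm μ ε j.1 S w' =
      2 * ε * ((w j : ℝ) - w' j) * (Z ^ 2 - N ^ 2) /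
        ((Z + ε * (2 * (w j : ℝ) - 1) * N) * (Z + ε * (2 * (w' j : ℝ) - 1) * N)) := by
    unfold pm
    rw [k1, k2, k3, k4, div_sub_div _ _ hD1.ne' hD2.ne']
    congr 1
    ring
  have hNZ2 : N ^ 2 ≤ Z ^ 2 := sq_le_sq' (by linarith [(abs_le.1 hNZ).1]) (abs_le.1 hNZ).2
  rw [hdiff, abs_div, abs_mul, abs_mul, abs_of_nonneg (by linarith : 0 ≤ Z ^ 2 - N ^ 2),
    abs_of_pos (by positivity : 0 < 2 * ε), abs_of_pos (mul_pos hD1 hD2),
    div_le_iff₀ (mul_pos hD1 hD2)]
  have h7 : ((1 - ε) * Z) * ((1 - ε) * Z) ≤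
      (Z + ε * (2 * (w j : ℝ) - 1) * N) * (Z + ε * (2 * (w' j : ℝ) - 1) * N) :=
    mul_le_mul (hb _) (hb _) hD.le hD1.le
  have h8 : 0 < (1 - ε) ^ 2 := by
    have : 0 < 1 - ε := by linarith
    positivity
  have h9 : 2 * ε / (1 - ε) ^ 2 * |(w j : ℝ) - w' j| * (((1 - ε) * Z) * ((1 - ε) * Z)) =
      2 * ε * |(w j : ℝ) - w' j| * Z ^ 2 := by
    have hne : (1 - ε) ≠ 0 := (by linarith : (0 : ℝ) < 1 - ε).ne'
    field_simp
  calc 2 * ε * |(w j : ℝ) - w' j| * (Z ^ 2 - N ^ 2) ≤ 2 * ε * |(w j : ℝ) - w' j| * Z ^ 2 := by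
        refine mul_le_mul_of_nonneg_left ?_ (by positivity)
        nlinarith [sq_nonneg N]
    _ = 2 * ε / (1 - ε) ^ 2 * |(w j : ℝ) - w' j| * (((1 - ε) * Z) * ((1 - ε) * Z)) := h9.symm
    _ ≤ _ := mul_le_mul_of_nonneg_left h7 (by positivity)

open Classical in
/-- one coordinate change -/
theorem b4_pm_step (hG : G.IsTree) {θ : ℝ} (h0 : 0 ≤ θ) (h1 : θ < 1)
    {μ : Measure (V → Bool)} [IsProbabilityMeasure μ] (hμ : IsFreeIsing G θ μ)
    {ε : ℝ} (hε0 : 0 < ε) (hε1 : ε < 1) (v : V) (S : Finset (V × ℕ)) {j : V × ℕ} (hj : j ∈ S)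
    (w w' : V × ℕ → UI) (hw : ∀ i, i ≠ j → w i = w' i) :
    |pm μ ε v S w - pm μ ε v S w'| ≤
      θ ^ G.dist v j.1 * (2 * ε / (1 - ε) ^ 2) * |(w j : ℝ) - w' j| := by
  have h2 := wmean_influence hG h0 h1 hμ (S.image Prod.fst) (b4_vw ε S w) (b4_vw ε S w')
    (b4_vw_pos hε0 hε1 S w) (b4_vw_pos hε0 hε1 S w') j.1 (by
      intro u hu
      funext s
      unfold b4_vw
      refine Finset.prod_congr rfl fun i hi => ?_
      rw [hw i]
      rintro rfl
      exact hu (Finset.mem_filter.1 hi).2.symm) v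
  rw [← b4_pm_eq, ← b4_pm_eq, ← b4_pm_eq, ← b4_pm_eq] at h2
  refine h2.trans ?_
  rw [mul_assoc]
  exact mul_le_mul_of_nonneg_left (b4_pm_self_diff hε0 hε1 S hj w w' hw) (pow_nonneg h0 _)

theorem b4_pm_congr_on (μ : Measure (V → Bool)) (ε : ℝ) (v : V) (S : Finset (V × ℕ))
    (w w' : V × ℕ → UI) (h : ∀ j ∈ S, w j = w' j) : pm μ ε v S w = pm μ ε v S w' := by
  have : lik ε S w = lik ε S w' := by
    funext σ
    unfold lik
    exact Finset.prod_congr rfl fun j hj => by rw [h j hj]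
  unfold pm Np Zp
  rw [this]

/-- influence of the data on the posterior means -/
theorem pm_influence (hG : G.IsTree) {θ : ℝ} (h0 : 0 ≤ θ) (h1 : θ < 1)
    {μ : Measure (V → Bool)} [IsProbabilityMeasure μ] (hμ : IsFreeIsing G θ μ)
    {ε : ℝ} (hε0 : 0 < ε) (hε1 : ε < 1) (v : V) (S : Finset (V × ℕ)) (w w' : V × ℕ → UI) :
    |pm μ ε v S w - pm μ ε v S w'| ≤
      ∑ j ∈ S, θ ^ G.dist v j.1 * (2 * ε / (1 - ε) ^ 2) * |(w j : ℝ) - w' j| := by
  classical
  have H : ∀ T : Finset (V × ℕ), T ⊆ S →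
      |pm μ ε v S w - pm μ ε v S (fun i => if i ∈ T then w' i else w i)| ≤
      ∑ j ∈ T, θ ^ G.dist v j.1 * (2 * ε / (1 - ε) ^ 2) * |(w j : ℝ) - w' j| := by
    intro T
    induction T using Finset.induction_on with
    | empty => intro _; simp
    | insert j T hjT ih =>
      intro hTS
      have hjS : j ∈ S := hTS (Finset.mem_insert_self j T)
      have ih' := ih ((Finset.subset_insert j T).trans hTS)
      have h2 := b4_pm_step hG h0 h1 hμ hε0 hε1 v S hjS (fun i => if i ∈ T then w' i else w i)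
        (fun i => if i ∈ insert j T then w' i else w i) (by
          intro i hij
          simp [hij])
      simp only [hjT, if_false, Finset.mem_insert_self, if_true] at h2
      rw [Finset.sum_insert hjT]
      have h3 := abs_sub_le (pm μ ε v S w) (pm μ ε v S (fun i => if i ∈ T then w' i else w i))
        (pm μ ε v S (fun i => if i ∈ insert j T then w' i else w i))
      linarith
  have h2 := H S (Finset.Subset.refl S)
  rwa [b4_pm_congr_on μ ε v S (fun i => if i ∈ S then w' i else w i) w'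
    (fun j hj => by simp [hj])] at h2

end Vale.Agent.H16.FIID
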