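import Vale.Agent.H16.FIID.M6Scheme
/-! M6b: influence of one input of the scheme. -/
open MeasureTheory
namespace Vale.Agent.H16.FIID
variable {V : Type}

lemma infl_nonneg (G : SimpleGraph V) {θ' ε : ℝ} (hε1 : ε < 1) (h0 : 0 ≤ θ') (i j : V × ℕ) :
    0 ≤ infl G θ' ε i j := by
  unfold infl
  have : 0 < 1 - ε := by linarith
  split_ifs
  · positivity
  · exact le_rfl

section
variable (μ : Measure (V → Bool)) [IsProbabilityMeasure μ] {ε : ℝ}

omit [IsProbabilityMeasure μ] in
/-- no influence on updates that are neither `j₀` nor after `j₀` -/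
lemma T_update_eq (τ : V → UI) (J : Finset (V × ℕ)) (u : V × ℕ → UI) (j₀ : V × ℕ)
    [DecidableEq (V × ℕ)] (a : UI) (i : V × ℕ) (hi : i ≠ j₀) (hb : ¬ before τ j₀ i) :
    T μ ε τ J (Function.update u j₀ a) i = T μ ε τ J u i := by
  have key : ∀ (n : ℕ) (i : V × ℕ), (past τ J i).card = n → i ≠ j₀ → ¬ before τ j₀ i →
      T μ ε τ J (Function.update u j₀ a) i = T μ ε τ J u i := by
    intro n
    induction n using Nat.strong_induction_on with
    | _ n ih =>
      intro i hn hi hb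
      rw [T_fixed μ τ J (Function.update u j₀ a) i, T_fixed μ τ J u i,
        Function.update_of_ne hi, pm_congr μ (v := i.1) (S := past τ J i)]
      intro k hk
      have hk' := mem_past.1 hk
      refine ih _ (hn ▸ past_card_lt hk) k rfl ?_ ?_
      · rintro rfl
        exact hb hk'.2
      · intro h
        exact hb (before_trans h hk'.2)
  exact key _ i rfl hi hb

/-- Influence of one input.  Hypotheses: kernel bound (M2) and posterior influence (M4). -/
theorem T_influence (G : SimpleGraph V)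
    (hε0 : 0 < ε) (hε1 : ε < 1) {θ θ' C : ℝ} (h0 : 0 ≤ θ) (h1 : θ < θ') (hC : 0 < C)
    (hK : ∀ (x v : V) (S : Finset V),
      ∑ z ∈ S, θ ^ G.dist x z * θ' ^ G.dist z v ≤ C * θ' ^ G.dist x v)
    (hpm : ∀ (v : V) (S : Finset (V × ℕ)) (w w' : V × ℕ → UI),
      |pm μ ε v S w - pm μ ε v S w'| ≤
        ∑ j ∈ S, θ ^ G.dist v j.1 * (2 * ε / (1 - ε) ^ 2) * |(w j : ℝ) - w' j|)
    (hsmall : ε ^ 2 / (2 * (1 - ε) ^ 3) * C ≤ 1 / 2)
    (τ : V → UI) (J : Finset (V × ℕ)) (u : V × ℕ → UI) (j₀ : V × ℕ) [DecidableEq (V × ℕ)] (a : UI)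
    (i : V × ℕ) :
    |(T μ ε τ J (Function.update u j₀ a) i : ℝ) - T μ ε τ J u i| ≤
      infl G θ' ε i j₀ * |(a : ℝ) - u j₀| := by
  have hθ' : 0 < θ' := lt_of_le_of_lt h0 h1
  have h1ε : 0 < 1 - ε := by linarith
  set Δ : ℝ := |(a : ℝ) - u j₀| with hΔ
  have hΔ0 : 0 ≤ Δ := abs_nonneg _
  -- the base case: `i = j₀`
  have hbase : |(T μ ε τ J (Function.update u j₀ a) j₀ : ℝ) - T μ ε τ J u j₀| ≤
      (1 - ε)⁻¹ * Δ := by
    have e1 : pm μ ε j₀.1 (past τ J j₀) (T μ ε τ J (Function.update u j₀ a)) =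
        pm μ ε j₀.1 (past τ J j₀) (T μ ε τ J u) := by
      apply pm_congr
      intro k hk
      have hk' := (mem_past.1 hk).2
      apply T_update_eq
      · rintro rfl
        exact before_irrefl τ _ hk'
      · intro h
        exact before_irrefl τ _ (before_trans h hk')
    rw [T_fixed μ τ J (Function.update u j₀ a) j₀, T_fixed μ τ J u j₀, e1,
      Function.update_self]
    have := abs_qt_sub_le hε1 (abs_eps_pm_le μ hε0 hε1 j₀.1 (past τ J j₀) (T μ ε τ J u)) a (u j₀)
    rw [div_eq_inv_mul] at this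
    exact this
  have key : ∀ (n : ℕ) (i : V × ℕ), (past τ J i).card = n →
      |(T μ ε τ J (Function.update u j₀ a) i : ℝ) - T μ ε τ J u i| ≤ infl G θ' ε i j₀ * Δ := by
    intro n
    induction n using Nat.strong_induction_on with
    | _ n ih =>
      intro i hn
      by_cases hi : i = j₀
      · subst hi
        refine hbase.trans ?_
        unfold infl
        rw [if_pos le_rfl, SimpleGraph.dist_self, pow_zero, mul_one]
        apply mul_le_mul_of_nonneg_right _ hΔ0
        have : (1 : ℝ) ≤ 2 ^ i.2 := one_le_pow₀ (by norm_num)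
        have h2 : 0 < (1 - ε)⁻¹ := by positivity
        nlinarith
      by_cases hb : before τ j₀ i
      swap
      · rw [T_update_eq μ τ J u j₀ a i hi hb, sub_self, abs_zero]
        exact mul_nonneg (infl_nonneg G hε1 hθ'.le _ _) hΔ0
      -- main case
      have hle : j₀.2 ≤ i.2 := by
        rcases hb with h | ⟨h, _⟩
        · exact h.le
        · exact h.le
      set w' := T μ ε τ J (Function.update u j₀ a) with hw'
      set w := T μ ε τ J u with hw
      have e1 : |(w' i : ℝ) - w i| ≤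
          |ε * pm μ ε i.1 (past τ J i) w' - ε * pm μ ε i.1 (past τ J i) w| / (4 * (1 - ε)) := by
        rw [hw', hw, T_fixed μ τ J (Function.update u j₀ a) i, T_fixed μ τ J u i,
          Function.update_of_ne hi]
        exact abs_qt_sub_le' hε1 (abs_eps_pm_le μ hε0 hε1 _ _ _) (abs_eps_pm_le μ hε0 hε1 _ _ _) _
      have e2 := hpm i.1 (past τ J i) w' w
      -- bound of the sum over the past
      have e3 : ∀ k ∈ past τ J i, θ ^ G.dist i.1 k.1 * (2 * ε / (1 - ε) ^ 2) *
          |(w' k : ℝ) - w k| ≤ (2 * ε / (1 - ε) ^ 2) * ((1 - ε)⁻¹ * Δ) *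
            (2 ^ k.2 * (θ ^ G.dist i.1 k.1 * θ' ^ G.dist k.1 j₀.1)) := by
        intro k hk
        have hk1 := ih _ (hn ▸ past_card_lt hk) k rfl
        have hk2 : infl G θ' ε k j₀ ≤ (1 - ε)⁻¹ * 2 ^ k.2 * θ' ^ G.dist k.1 j₀.1 := by
          unfold infl
          split_ifs
          · exact le_rfl
          · positivity
        have hk3 : |(w' k : ℝ) - w k| ≤ (1 - ε)⁻¹ * 2 ^ k.2 * θ' ^ G.dist k.1 j₀.1 * Δ :=
          hk1.trans (mul_le_mul_of_nonneg_right hk2 hΔ0)
        have hc : 0 ≤ θ ^ G.dist i.1 k.1 * (2 * ε / (1 - ε) ^ 2) := by positivity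
        calc _ ≤ θ ^ G.dist i.1 k.1 * (2 * ε / (1 - ε) ^ 2) *
              ((1 - ε)⁻¹ * 2 ^ k.2 * θ' ^ G.dist k.1 j₀.1 * Δ) :=
              mul_le_mul_of_nonneg_left hk3 hc
          _ = _ := by ring
      have e4 : ∑ k ∈ past τ J i, (2 : ℝ) ^ k.2 * (θ ^ G.dist i.1 k.1 * θ' ^ G.dist k.1 j₀.1) ≤
          2 * 2 ^ i.2 * (C * θ' ^ G.dist i.1 j₀.1) := by
        classical
        have hsub : past τ J i ⊆
            ((past τ J i).image Prod.fst) ×ˢ (Finset.range (i.2 + 1)) := by
          intro k hk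
          rw [Finset.mem_product]
          refine ⟨Finset.mem_image_of_mem _ hk, ?_⟩
          rw [Finset.mem_range]
          rcases (mem_past.1 hk).2 with h | ⟨h, _⟩ <;> omega
        calc _ ≤ ∑ k ∈ ((past τ J i).image Prod.fst) ×ˢ (Finset.range (i.2 + 1)),
              (2 : ℝ) ^ k.2 * (θ ^ G.dist i.1 k.1 * θ' ^ G.dist k.1 j₀.1) :=
              Finset.sum_le_sum_of_subset_of_nonneg hsub fun k _ _ => by positivity
          _ = (∑ z ∈ (past τ J i).image Prod.fst, θ ^ G.dist i.1 z * θ' ^ G.dist z j₀.1) *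
              ∑ r ∈ Finset.range (i.2 + 1), (2 : ℝ) ^ r := by
              rw [Finset.sum_product, Finset.sum_mul]
              apply Finset.sum_congr rfl
              intro z _
              rw [Finset.mul_sum]
              apply Finset.sum_congr rfl
              intro r _
              ring
          _ ≤ (C * θ' ^ G.dist i.1 j₀.1) * (2 * 2 ^ i.2) := by
              apply mul_le_mul (hK _ _ _) _ (Finset.sum_nonneg fun r _ => by positivity)
                (by positivity)
              rw [geom_sum_eq (by norm_num)]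
              rw [pow_succ]
              have : (0 : ℝ) < 2 ^ i.2 := by positivity
              rw [show (2 : ℝ) - 1 = 1 by norm_num, div_one]
              linarith
          _ = _ := by ring
      have e5 : |pm μ ε i.1 (past τ J i) w' - pm μ ε i.1 (past τ J i) w| ≤
          (2 * ε / (1 - ε) ^ 2) * ((1 - ε)⁻¹ * Δ) * (2 * 2 ^ i.2 * (C * θ' ^ G.dist i.1 j₀.1)) := by
        refine e2.trans ((Finset.sum_le_sum e3).trans ?_)
        rw [← Finset.mul_sum]
        exact mul_le_mul_of_nonneg_left e4 (by positivity)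
      have e6 : |ε * pm μ ε i.1 (past τ J i) w' - ε * pm μ ε i.1 (past τ J i) w| ≤
          ε * ((2 * ε / (1 - ε) ^ 2) * ((1 - ε)⁻¹ * Δ) *
            (2 * 2 ^ i.2 * (C * θ' ^ G.dist i.1 j₀.1))) := by
        rw [← mul_sub, abs_mul, abs_of_pos hε0]
        exact mul_le_mul_of_nonneg_left e5 hε0.le
      have e7 : |(w' i : ℝ) - w i| ≤ ε * ((2 * ε / (1 - ε) ^ 2) * ((1 - ε)⁻¹ * Δ) *
            (2 * 2 ^ i.2 * (C * θ' ^ G.dist i.1 j₀.1))) / (4 * (1 - ε)) :=
        e1.trans (div_le_div_of_nonneg_right e6 (by positivity))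
      have e8 : ε * ((2 * ε / (1 - ε) ^ 2) * ((1 - ε)⁻¹ * Δ) *
            (2 * 2 ^ i.2 * (C * θ' ^ G.dist i.1 j₀.1))) / (4 * (1 - ε)) =
          (ε ^ 2 / (2 * (1 - ε) ^ 3) * C) * 2 *
            ((1 - ε)⁻¹ * 2 ^ i.2 * θ' ^ G.dist i.1 j₀.1 * Δ) := by
        field_simp
        ring
      rw [e8] at e7
      refine e7.trans ?_
      unfold infl
      rw [if_pos hle]
      have hpos : 0 ≤ (1 - ε)⁻¹ * 2 ^ i.2 * θ' ^ G.dist i.1 j₀.1 * Δ := by positivity
      have : (ε ^ 2 / (2 * (1 - ε) ^ 3) * C) * 2 ≤ 1 := by linarith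
      calc _ ≤ 1 * ((1 - ε)⁻¹ * 2 ^ i.2 * θ' ^ G.dist i.1 j₀.1 * Δ) :=
            mul_le_mul_of_nonneg_right this hpos
        _ = _ := one_mul _
  exact key _ i rfl

end

end Vale.Agent.H16.FIID
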