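import Vale.Agent.H16.FIID.M7Data
/-! M7b: the innovations are i.i.d. uniform. -/
open MeasureTheory
namespace Vale.Agent.H16.FIID
variable {V : Type}
variable (μ : Measure (V → Bool)) [IsProbabilityMeasure μ] {ε : ℝ} (hε0 : 0 < ε) (hε1 : ε < 1)

lemma measurable_inn (τ : V → UI) (J : Finset (V × ℕ)) (i : V × ℕ) :
    Measurable fun w : V × ℕ → UI => inn μ ε τ J w i := by
  have h1 : Measurable fun w : V × ℕ → UI => (ε * pm μ ε i.1 (past τ J i) w, w i) :=
    ((measurable_pm μ i.1 (past τ J i)).const_mul ε).prodMk (measurable_pi_apply i)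
  exact measurable_cd.comp h1

/-- the last update of a nonempty finite set -/
lemma exists_last {τ : V → UI} (hτ : Function.Injective τ) {J : Finset (V × ℕ)}
    (hJ : J.Nonempty) : ∃ i ∈ J, ∀ k ∈ J, k ≠ i → before τ k i := by
  obtain ⟨i, hi, hmax⟩ := J.exists_max_image
    (fun j => (toLex (j.2, τ j.1) : ℕ ×ₗ UI)) hJ
  refine ⟨i, hi, fun k hk hki => ?_⟩
  have h := hmax k hk
  have hne : (toLex (k.2, τ k.1) : ℕ ×ₗ UI) ≠ toLex (i.2, τ i.1) := by
    intro e
    have e' := toLex.injective e
    rw [Prod.mk.injEq] at e'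
    exact hki (Prod.ext (hτ e'.2) e'.1)
  have hlt := lt_of_le_of_ne h hne
  rw [Prod.Lex.toLex_lt_toLex] at hlt
  exact hlt

include hε0 hε1 in
theorem inn_law_aux [Countable V] {τ : V → UI} (hτ : Function.Injective τ)
    (φ : V × ℕ → UI → ℝ) (hφ : ∀ j, Measurable (φ j)) (hφb : ∀ j a, |φ j a| ≤ 1) :
    ∀ (n : ℕ) (J : Finset (V × ℕ)), J.card = n →
    ∫ p, ∏ j ∈ J, φ j (inn μ ε τ J (data ε p) j) ∂(μ.prod (iid (V × ℕ))) =
      ∏ j ∈ J, ∫ a : UI, φ j a := by
  classical
  intro n
  induction n with
  | zero =>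
    intro J hJ
    rw [Finset.card_eq_zero] at hJ
    subst hJ
    simp
  | succ n ih =>
    intro J hJ
    have hne : J.Nonempty := by
      rw [← Finset.card_pos, hJ]
      omega
    obtain ⟨i, hi, hlast⟩ := exists_last hτ hne
    set J' := J.erase i with hJ'
    have hcard : J'.card = n := by
      rw [Finset.card_erase_of_mem hi, hJ]
      rfl
    have hi' : i ∉ J' := Finset.notMem_erase i J
    have hpi : past τ J i = J' := by
      ext k
      rw [mem_past, hJ', Finset.mem_erase]
      constructor
      · rintro ⟨h1, h2⟩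
        refine ⟨?_, h1⟩
        rintro rfl
        exact before_irrefl τ _ h2
      · rintro ⟨h1, h2⟩
        exact ⟨h2, hlast k h2 h1⟩
    have hpj : ∀ j ∈ J', past τ J j = past τ J' j := by
      intro j hj
      have hj' := Finset.mem_erase.1 hj
      ext k
      rw [mem_past, mem_past, hJ', Finset.mem_erase]
      constructor
      · rintro ⟨h1, h2⟩
        refine ⟨⟨?_, h1⟩, h2⟩
        rintro rfl
        exact before_irrefl τ _ (before_trans h2 (hlast j hj'.2 hj'.1))
      · rintro ⟨⟨_, h1⟩, h2⟩
        exact ⟨h1, h2⟩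
    -- the function for `next_obs`
    set g : (V × ℕ → UI) → UI → ℝ := fun w a =>
      (∏ j ∈ J', φ j (inn μ ε τ J' w j)) * φ i (cd (ε * pm μ ε i.1 J' w) a) with hg
    have hprodm : Measurable fun w : V × ℕ → UI => ∏ j ∈ J', φ j (inn μ ε τ J' w j) :=
      Finset.measurable_prod _ fun j _ => (hφ j).comp (measurable_inn μ τ J' j)
    have hprodb : ∀ w : V × ℕ → UI, |∏ j ∈ J', φ j (inn μ ε τ J' w j)| ≤ 1 := by
      intro w
      rw [Finset.abs_prod]
      exact Finset.prod_le_one (fun j _ => abs_nonneg _) fun j _ => hφb _ _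
    have hgm : Measurable (Function.uncurry g) := by
      have h1 : Measurable fun q : (V × ℕ → UI) × UI => (ε * pm μ ε i.1 J' q.1, q.2) :=
        (((measurable_pm μ i.1 J').comp measurable_fst).const_mul ε).prodMk measurable_snd
      have h2 : Measurable fun q : (V × ℕ → UI) × UI => cd (ε * pm μ ε i.1 J' q.1) q.2 :=
        measurable_cd.comp h1
      exact (hprodm.comp measurable_fst).mul ((hφ i).comp h2)
    have hgb : ∃ C, ∀ w a, |g w a| ≤ C := by
      refine ⟨1 * 1, fun w a => ?_⟩
      rw [hg]
      change |(∏ j ∈ J', φ j (inn μ ε τ J' w j)) * φ i (cd (ε * pm μ ε i.1 J' w) a)| ≤ _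
      rw [abs_mul]
      exact mul_le_mul (hprodb w) (hφb _ _) (abs_nonneg _) (by norm_num)
    have hgdep : ∀ w w' : V × ℕ → UI, (∀ j ∈ J', w j = w' j) → g w = g w' := by
      intro w w' hww
      funext a
      rw [hg]
      dsimp only
      rw [pm_congr μ i.1 hww]
      congr 1
      apply Finset.prod_congr rfl
      intro j hj
      unfold inn
      rw [hww j hj, pm_congr μ j.1 (S := past τ J' j) (w' := w')]
      intro k hk
      exact hww k (mem_past.1 hk).1
    have e1 : ∀ p : (V → Bool) × (V × ℕ → UI),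
        ∏ j ∈ J, φ j (inn μ ε τ J (data ε p) j) = g (data ε p) (data ε p i) := by
      intro p
      rw [← Finset.prod_erase_mul J _ hi, hg]
      dsimp only
      congr 1
      · apply Finset.prod_congr rfl
        intro j hj
        unfold inn
        rw [hpj j hj]
      · unfold inn
        rw [hpi]
    simp only [e1]
    rw [next_obs μ hε0 hε1 J' i hi' hgm hgb hgdep]
    have e2 : ∀ p : (V → Bool) × (V × ℕ → UI),
        ∫ u : UI, g (data ε p) (qt (ε * pm μ ε i.1 J' (data ε p)) u) =
        (∏ j ∈ J', φ j (inn μ ε τ J' (data ε p) j)) * ∫ a : UI, φ i a := by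
      intro p
      rw [hg]
      dsimp only
      rw [integral_const_mul]
      congr 2
      funext u
      rw [cd_qt (abs_eps_pm_lt μ hε0 hε1 i.1 J' (data ε p))]
    simp only [e2]
    rw [integral_mul_const, ih J' hcard, ← Finset.prod_erase_mul J _ hi]

include hε0 hε1 in
/-- The innovations are i.i.d. uniform. -/
theorem inn_law [Countable V] {τ : V → UI} (hτ : Function.Injective τ) (J : Finset (V × ℕ)) :
    (μ.prod (iid (V × ℕ))).map (fun p (j : J) => inn μ ε τ J (data ε p) j) =
      Measure.pi fun _ : J => (volume : Measure UI) := by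
  classical
  symm
  apply Measure.pi_eq
  intro s hs
  have hm : Measurable fun (p : (V → Bool) × (V × ℕ → UI)) (j : J) =>
      inn μ ε τ J (data ε p) j :=
    measurable_pi_lambda _ fun j => (measurable_inn μ τ J j.1).comp measurable_data
  rw [Measure.map_apply hm (MeasurableSet.univ_pi hs)]
  -- extend the family of sets
  set t : V × ℕ → Set UI := fun j => if h : j ∈ J then s ⟨j, h⟩ else Set.univ with ht
  have htm : ∀ j, MeasurableSet (t j) := by
    intro j
    rw [ht]
    dsimp only
    split_ifs with h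
    · exact hs _
    · exact MeasurableSet.univ
  have hts : ∀ j : J, t j.1 = s j := by
    intro j
    rw [ht]
    simp
  set φ : V × ℕ → UI → ℝ := fun j => (t j).indicator 1 with hφ
  have hφm : ∀ j, Measurable (φ j) := fun j => measurable_one.indicator (htm j)
  have hφb : ∀ j a, |φ j a| ≤ 1 := by
    intro j a
    rw [hφ]
    by_cases h : a ∈ t j
    · simp [h]
    · simp [h]
  have key := inn_law_aux μ hε0 hε1 hτ φ hφm hφb J.card J rfl
  set E := (fun (p : (V → Bool) × (V × ℕ → UI)) (j : J) => inn μ ε τ J (data ε p) j) ⁻¹'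
    (Set.univ.pi s) with hE
  have hEm : MeasurableSet E := hm (MeasurableSet.univ_pi hs)
  have e1 : ∀ p : (V → Bool) × (V × ℕ → UI),
      ∏ j ∈ J, φ j (inn μ ε τ J (data ε p) j) = E.indicator 1 p := by
    intro p
    by_cases hp : p ∈ E
    · rw [Set.indicator_of_mem hp, Pi.one_apply]
      apply Finset.prod_eq_one
      intro j hj
      have : inn μ ε τ J (data ε p) j ∈ t j := by
        rw [hts ⟨j, hj⟩]
        exact hp ⟨j, hj⟩ (Set.mem_univ _)
      rw [hφ]
      simp [this]
    · rw [Set.indicator_of_notMem hp]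
      have : ∃ j : J, inn μ ε τ J (data ε p) j ∉ s j := by
        by_contra hcon
        push Not at hcon
        exact hp fun j _ => hcon j
      obtain ⟨j, hj⟩ := this
      apply Finset.prod_eq_zero j.2
      rw [hφ]
      have : inn μ ε τ J (data ε p) j ∉ t j.1 := by
        rw [hts j]
        exact hj
      simp [this]
  simp only [e1] at key
  rw [integral_indicator_one hEm] at key
  have e2 : ∀ j, ∫ a : UI, φ j a = ((volume : Measure UI) (t j)).toReal := by
    intro j
    rw [hφ]
    exact integral_indicator_one (htm j)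
  simp only [e2] at key
  have e3 : (μ.prod (iid (V × ℕ))) E = ENNReal.ofReal (∏ j ∈ J, ((volume : Measure UI) (t j)).toReal) := by
    rw [← key, Measure.real, ENNReal.ofReal_toReal (measure_ne_top _ _)]
  rw [e3, ENNReal.ofReal_prod_of_nonneg fun j _ => ENNReal.toReal_nonneg,
    ← Finset.prod_coe_sort J]
  apply Finset.prod_congr rfl
  intro j _
  rw [ENNReal.ofReal_toReal (measure_ne_top _ _), hts j]

end Vale.Agent.H16.FIID
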