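import Vale.Agent.H16.FIID.M5Efron
import Vale.Agent.H16.FIID.M7bInn
/-! M8: the scheme is Cauchy in `L²` along finite sets of updates (fixed injective labels). -/
open MeasureTheory
namespace Vale.Agent.H16.FIID
variable {V : Type}

/-- extension by `0` -/
noncomputable def extd (J : Finset (V × ℕ)) (x : J → UI) : V × ℕ → UI :=
  letI := Classical.decEq (V × ℕ)
  fun i => if h : i ∈ J then x ⟨i, h⟩ else 0

lemma extd_of_mem {J : Finset (V × ℕ)} (x : J → UI) {i : V × ℕ} (h : i ∈ J) :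
    extd J x i = x ⟨i, h⟩ := by
  simp only [extd, h, dite_true]

lemma measurable_extd (J : Finset (V × ℕ)) : Measurable (extd J) := by
  refine measurable_pi_lambda _ fun i => ?_
  by_cases h : i ∈ J
  · simp only [extd, h, dite_true]
    exact measurable_pi_apply _
  · simp only [extd, h, dite_false]
    exact measurable_const

lemma extd_update (J : Finset (V × ℕ)) [DecidableEq (V × ℕ)] [DecidableEq J]
    (x : J → UI) (j : J) (a : UI) :
    extd J (Function.update x j a) = Function.update (extd J x) j.1 a := by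
  funext i
  rw [Function.update_apply]
  by_cases h : i ∈ J
  · rw [extd_of_mem _ h, Function.update_apply, extd_of_mem _ h]
    by_cases hij : (⟨i, h⟩ : J) = j
    · have : i = j.1 := congrArg Subtype.val hij
      rw [if_pos hij, if_pos this]
    · have : i ≠ j.1 := fun e => hij (Subtype.ext e)
      rw [if_neg hij, if_neg this]
  · have hij : i ≠ j.1 := fun e => h (e ▸ j.2)
    rw [if_neg hij]
    simp only [extd, h, dite_false]

lemma int_transfer (J : Finset (V × ℕ)) (f : (V × ℕ → UI) → ℝ) (hf : Measurable f)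
    (hdep : ∀ u u' : V × ℕ → UI, (∀ i ∈ J, u i = u' i) → f u = f u')
    {Ω : Type*} [MeasurableSpace Ω] (P : Measure Ω) (X : Ω → J → UI) (hX : Measurable X)
    (hlaw : P.map X = Measure.pi fun _ : J => (volume : Measure UI)) :
    ∫ ω, f (extd J (X ω)) ∂P = ∫ u, f u ∂(iid (V × ℕ)) := by
  have hm : Measurable fun x : J → UI => f (extd J x) := hf.comp (measurable_extd J)
  have h1 : ∫ ω, f (extd J (X ω)) ∂P = ∫ x, f (extd J x) ∂(P.map X) := by
    rw [integral_map hX.aemeasurable hm.aestronglyMeasurable]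
  rw [h1, hlaw]
  have h2 := integral_restrict_infinitePi (X := fun _ : V × ℕ => UI)
    (μ := fun _ => (volume : Measure UI)) (s := J) (f := fun x : J → UI => f (extd J x))
    hm.aestronglyMeasurable
  rw [← h2]
  unfold iid
  congr 1
  funext u
  apply hdep
  intro i hi
  rw [extd_of_mem _ hi]
  rfl

lemma summable_infl (G : SimpleGraph V) {ε : ℝ} {θ' : ℝ}
    (hsum : ∀ x : V, Summable fun z : V => (θ' ^ G.dist x z) ^ 2) (i : V × ℕ) :
    Summable fun j : V × ℕ => infl G θ' ε i j ^ 2 := by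
  have hg : Summable fun n : ℕ => if n ≤ i.2 then (1 : ℝ) else 0 := by
    apply summable_of_hasFiniteSupport
    apply (Set.finite_Iic i.2).subset
    intro n hn
    by_contra h
    apply hn
    simp only [Set.mem_Iic] at h
    simp [h]
  have h1 : Summable fun j : V × ℕ =>
      (θ' ^ G.dist i.1 j.1) ^ 2 * (if j.2 ≤ i.2 then (1 : ℝ) else 0) :=
    (hsum i.1).mul_of_nonneg hg (fun z => by positivity) (fun n => by dsimp only; split_ifs <;> norm_num)
  have h2 := h1.mul_left (((1 - ε)⁻¹ * 2 ^ i.2) ^ 2)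
  refine h2.congr fun j => ?_
  unfold infl
  split_ifs <;> ring

lemma past_mono (τ : V → UI) {J J' : Finset (V × ℕ)} (h : J ⊆ J') (i : V × ℕ) :
    past τ J i ⊆ past τ J' i := by
  classical
  unfold past
  exact Finset.filter_subset_filter _ h

/-- second moment of the posterior mean used by the update `j` -/
noncomputable def eng (μ : Measure (V → Bool)) (ε : ℝ) (τ : V → UI) (j : V × ℕ)
    (J : Finset (V × ℕ)) : ℝ :=
  ∫ p, pm μ ε j.1 (past τ J j) (data ε p) ^ 2 ∂(μ.prod (iid (V × ℕ)))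

section
variable [Countable V] (μ : Measure (V → Bool)) [IsProbabilityMeasure μ] {ε : ℝ} (hε0 : 0 < ε)
  (hε1 : ε < 1)

lemma measurable_inn_data (τ : V → UI) (J : Finset (V × ℕ)) (i : V × ℕ) :
    Measurable fun p : (V → Bool) × (V × ℕ → UI) => inn μ ε τ J (data ε p) i := by
  have h1 : Measurable fun p : (V → Bool) × (V × ℕ → UI) =>
      (ε * pm μ ε i.1 (past τ J i) (data ε p), data ε p i) :=
    (((measurable_pm μ i.1 (past τ J i)).comp measurable_data).const_mul ε).prodMk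
      ((measurable_pi_apply i).comp measurable_data)
  exact measurable_cd.comp h1

lemma integrable_bd8 {Ω : Type*} [MeasurableSpace Ω] {P : Measure Ω} [IsFiniteMeasure P]
    {f : Ω → ℝ} (hf : Measurable f) {C : ℝ} (hC : ∀ x, |f x| ≤ C) : Integrable f P :=
  Integrable.of_bound hf.aestronglyMeasurable C (Filter.Eventually.of_forall hC)

include hε0 hε1 in
lemma pm_sq_integrable (v : V) (S : Finset (V × ℕ)) :
    Integrable (fun p : (V → Bool) × (V × ℕ → UI) => pm μ ε v S (data ε p) ^ 2)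
      (μ.prod (iid (V × ℕ))) := by
  apply integrable_bd8 (((measurable_pm μ v S).comp measurable_data).pow_const 2) (C := 1)
  intro p
  have := abs_pm_le μ hε0 hε1 v S (data ε p)
  rw [abs_pow]
  exact pow_le_one₀ (abs_nonneg _) this

include hε0 hε1 in
lemma eng_le_one (τ : V → UI) (j : V × ℕ) (J : Finset (V × ℕ)) : eng μ ε τ j J ≤ 1 := by
  unfold eng
  calc _ ≤ ∫ _p, (1 : ℝ) ∂(μ.prod (iid (V × ℕ))) := by
        apply integral_mono (pm_sq_integrable μ hε0 hε1 _ _) (integrable_const _)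
        intro p
        have := abs_pm_le μ hε0 hε1 j.1 (past τ J j) (data ε p)
        dsimp only
        rw [← sq_abs]
        exact pow_le_one₀ (abs_nonneg _) this
    _ = 1 := by simp

include hε0 hε1 in
lemma eng_diff (τ : V → UI) (j : V × ℕ) {J J' : Finset (V × ℕ)} (h : J ⊆ J') :
    ∫ p, (pm μ ε j.1 (past τ J' j) (data ε p) - pm μ ε j.1 (past τ J j) (data ε p)) ^ 2
      ∂(μ.prod (iid (V × ℕ))) = eng μ ε τ j J' - eng μ ε τ j J :=
  pm_pythagoras μ hε0 hε1 j.1 (past_mono τ h j)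

include hε0 hε1 in
lemma eng_mono (τ : V → UI) (j : V × ℕ) {J J' : Finset (V × ℕ)} (h : J ⊆ J') :
    eng μ ε τ j J ≤ eng μ ε τ j J' := by
  have h1 := eng_diff μ hε0 hε1 τ j h
  have h2 : 0 ≤ ∫ p, (pm μ ε j.1 (past τ J' j) (data ε p) -
      pm μ ε j.1 (past τ J j) (data ε p)) ^ 2 ∂(μ.prod (iid (V × ℕ))) :=
    integral_nonneg fun _ => sq_nonneg _
  linarith

include hε0 hε1 in
lemma inn_diff_le (τ : V → UI) (j : V × ℕ) {J J' : Finset (V × ℕ)} (h : J ⊆ J') :
    ∫ p, ((inn μ ε τ J (data ε p) j : ℝ) - inn μ ε τ J' (data ε p) j) ^ 2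
      ∂(μ.prod (iid (V × ℕ))) ≤ eng μ ε τ j J' - eng μ ε τ j J := by
  rw [← eng_diff μ hε0 hε1 τ j h]
  have hpt : ∀ p : (V → Bool) × (V × ℕ → UI),
      ((inn μ ε τ J (data ε p) j : ℝ) - inn μ ε τ J' (data ε p) j) ^ 2 ≤
      (pm μ ε j.1 (past τ J' j) (data ε p) - pm μ ε j.1 (past τ J j) (data ε p)) ^ 2 := by
    intro p
    set a := pm μ ε j.1 (past τ J j) (data ε p)
    set a' := pm μ ε j.1 (past τ J' j) (data ε p)
    have ha : |a| ≤ 1 := abs_pm_le μ hε0 hε1 _ _ _
    have ha' : |a'| ≤ 1 := abs_pm_le μ hε0 hε1 _ _ _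
    have h1 : |(inn μ ε τ J (data ε p) j : ℝ) - inn μ ε τ J' (data ε p) j| ≤
        |ε * a - ε * a'| / 4 := by
      apply abs_cd_sub_le
      · rw [abs_mul, abs_of_pos hε0]; nlinarith
      · rw [abs_mul, abs_of_pos hε0]; nlinarith
    have h2 : |ε * a - ε * a'| / 4 ≤ |a' - a| := by
      rw [← mul_sub, abs_mul, abs_of_pos hε0, abs_sub_comm a a']
      nlinarith [abs_nonneg (a' - a)]
    rw [← sq_abs, ← sq_abs (a' - a)]
    exact pow_le_pow_left₀ (abs_nonneg _) (h1.trans h2) 2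
  apply integral_mono _ _ hpt
  · have hm : Measurable fun p : (V → Bool) × (V × ℕ → UI) =>
        ((inn μ ε τ J (data ε p) j : ℝ) - inn μ ε τ J' (data ε p) j) ^ 2 :=
      ((measurable_subtype_coe.comp (measurable_inn_data μ τ J j)).sub
        (measurable_subtype_coe.comp (measurable_inn_data μ τ J' j))).pow_const 2
    apply integrable_bd8 hm (C := 4)
    intro p
    have := hpt p
    rw [abs_of_nonneg (sq_nonneg _)]
    have ha : |pm μ ε j.1 (past τ J j) (data ε p)| ≤ 1 := abs_pm_le μ hε0 hε1 _ _ _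
    have ha' : |pm μ ε j.1 (past τ J' j) (data ε p)| ≤ 1 := abs_pm_le μ hε0 hε1 _ _ _
    rw [abs_le] at ha ha'
    nlinarith
  · have hm : Measurable fun p : (V → Bool) × (V × ℕ → UI) =>
        (pm μ ε j.1 (past τ J' j) (data ε p) - pm μ ε j.1 (past τ J j) (data ε p)) ^ 2 :=
      (((measurable_pm μ _ _).comp measurable_data).sub
        ((measurable_pm μ _ _).comp measurable_data)).pow_const 2
    apply integrable_bd8 hm (C := 4)
    intro p
    rw [abs_of_nonneg (sq_nonneg _)]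
    have ha : |pm μ ε j.1 (past τ J j) (data ε p)| ≤ 1 := abs_pm_le μ hε0 hε1 _ _ _
    have ha' : |pm μ ε j.1 (past τ J' j) (data ε p)| ≤ 1 := abs_pm_le μ hε0 hε1 _ _ _
    rw [abs_le] at ha ha'
    nlinarith

include hε0 hε1 in
/-- restriction of the innovations to a smaller set of coordinates -/
lemma inn_law_restrict {τ : V → UI} (hτ : Function.Injective τ) {J J' : Finset (V × ℕ)}
    (h : J ⊆ J') :
    (μ.prod (iid (V × ℕ))).map (fun p (j : J) => inn μ ε τ J' (data ε p) j) =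
      Measure.pi fun _ : J => (volume : Measure UI) := by
  have h1 := inn_law μ hε0 hε1 hτ J'
  have h2 := isProjectiveMeasureFamily_pi (fun _ : V × ℕ => (volume : Measure UI)) J' J h
  dsimp only at h2
  have hm : Measurable fun (p : (V → Bool) × (V × ℕ → UI)) (j : J') =>
      inn μ ε τ J' (data ε p) j.1 :=
    measurable_pi_lambda _ fun j => measurable_inn_data μ τ J' j.1
  have hr : Measurable (Finset.restrict₂ (π := fun _ : V × ℕ => UI) h) :=
    Finset.measurable_restrict₂ h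
  rw [h2, ← h1]
  exact (Measure.map_map hr hm).symm

open Classical in
include hε0 hε1 in
lemma nested (G : SimpleGraph V) {θ' : ℝ} (h0 : 0 ≤ θ')
    {τ : V → UI} (hτ : Function.Injective τ)
    (hinf : ∀ [DecidableEq (V × ℕ)] (J : Finset (V × ℕ)) (u : V × ℕ → UI) (j₀ : V × ℕ) (a : UI)
      (i : V × ℕ), |(T μ ε τ J (Function.update u j₀ a) i : ℝ) - T μ ε τ J u i| ≤
        infl G θ' ε i j₀ * |(a : ℝ) - u j₀|)
    (i : V × ℕ) (J J' A0 : Finset (V × ℕ)) (hJ : J ⊆ J') (hi : i ∈ J) (hA : A0 ⊆ J) :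
    ∫ u, ((T μ ε τ J u i : ℝ) - T μ ε τ J' u i) ^ 2 ∂(iid (V × ℕ)) ≤
      6 * ∑ j ∈ J \ A0, infl G θ' ε i j ^ 2 +
      3 * A0.card * ∑ j ∈ A0, infl G θ' ε i j ^ 2 * (eng μ ε τ j J' - eng μ ε τ j J) := by
  classical
  have hinfl : ∀ j, 0 ≤ infl G θ' ε i j := by
    intro j
    unfold infl
    have : 0 < 1 - ε := by linarith
    split_ifs
    · positivity
    · exact le_rfl
  set Q := μ.prod (iid (V × ℕ)) with hQ
  set X : ((V → Bool) × (V × ℕ → UI)) → J → UI := fun p j => inn μ ε τ J (data ε p) j with hX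
  set X' : ((V → Bool) × (V × ℕ → UI)) → J → UI := fun p j => inn μ ε τ J' (data ε p) j with hX'
  set X'' : ((V → Bool) × (V × ℕ → UI)) → J' → UI := fun p j => inn μ ε τ J' (data ε p) j with hX''
  have hXm : Measurable X := measurable_pi_lambda _ fun j => measurable_inn_data μ τ J j.1
  have hXm' : Measurable X' := measurable_pi_lambda _ fun j => measurable_inn_data μ τ J' j.1
  have hXm'' : Measurable X'' := measurable_pi_lambda _ fun j => measurable_inn_data μ τ J' j.1
  have hlaw : Q.map X = Measure.pi fun _ : J => (volume : Measure UI) := inn_law μ hε0 hε1 hτ J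
  have hlaw' : Q.map X' = Measure.pi fun _ : J => (volume : Measure UI) :=
    inn_law_restrict μ hε0 hε1 hτ hJ
  have hlaw'' : Q.map X'' = Measure.pi fun _ : J' => (volume : Measure UI) :=
    inn_law μ hε0 hε1 hτ J'
  set F : (J → UI) → ℝ := fun x => (T μ ε τ J (extd J x) i : ℝ) with hF
  have hTm : ∀ K : Finset (V × ℕ), Measurable fun u : V × ℕ → UI => (T μ ε τ K u i : ℝ) := fun K =>
    measurable_subtype_coe.comp (measurable_T_fixed μ τ K i)
  have hFm : Measurable F := (hTm J).comp (measurable_extd J)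
  have hiJ' : i ∈ J' := hJ hi
  -- the left side as an integral over the data
  have h1 : ∫ u, ((T μ ε τ J u i : ℝ) - T μ ε τ J' u i) ^ 2 ∂(iid (V × ℕ)) =
      ∫ p, (F (X p) - F (X' p)) ^ 2 ∂Q := by
    rw [← int_transfer J' (fun u => ((T μ ε τ J u i : ℝ) - T μ ε τ J' u i) ^ 2)
      (((hTm J).sub (hTm J')).pow_const 2) ?_ Q X'' hXm'' hlaw'']
    · congr 1
      funext p
      have e1 : T μ ε τ J (extd J' (X'' p)) i = T μ ε τ J (extd J (X' p)) i := by
        apply T_congr μ τ J _ i hi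
        intro k hk
        rw [extd_of_mem _ hk, extd_of_mem _ (hJ hk)]
      have e2 : T μ ε τ J' (extd J' (X'' p)) i = data ε p i := by
        rw [T_congr μ τ J' (u' := inn μ ε τ J' (data ε p)) _ i hiJ']
        · exact T_inn μ hε0 hε1 τ J' (data ε p) i hiJ'
        · intro k hk
          rw [extd_of_mem _ hk]
      have e3 : T μ ε τ J (extd J (X p)) i = data ε p i := by
        rw [T_congr μ τ J (u' := inn μ ε τ J (data ε p)) _ i hi]
        · exact T_inn μ hε0 hε1 τ J (data ε p) i hi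
        · intro k hk
          rw [extd_of_mem _ hk]
      simp only [hF]
      rw [e1, e2, e3]
      ring
    · intro u u' huu
      have e1 : T μ ε τ J u i = T μ ε τ J u' i :=
        T_congr μ τ J (fun k hk => huu k (hJ hk)) i hi
      have e2 : T μ ε τ J' u i = T μ ε τ J' u' i := T_congr μ τ J' huu i hiJ'
      simp only [e1, e2]
  rw [h1]
  -- Efron–Stein
  have hL : ∀ (x : J → UI) (j : J) (a : UI),
      |F (Function.update x j a) - F x| ≤ infl G θ' ε i j.1 * |(a : ℝ) - x j| := by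
    intro x j a
    have h := hinf J (extd J x) j.1 a i
    have e : extd J x j.1 = x j := extd_of_mem x j.2
    rw [e, ← extd_update J x j a] at h
    exact h
  have h2 := efron_coupling F hFm (fun j : J => infl G θ' ε i j.1) (fun j => hinfl j.1) hL Q X X'
    hXm hXm' hlaw hlaw' (A0.subtype (· ∈ J))
  refine h2.trans ?_
  have hfilt : A0.filter (· ∈ J) = A0 := Finset.filter_true_of_mem fun x hx => hA hx
  have hcard : (A0.subtype (· ∈ J)).card = A0.card := by
    rw [Finset.card_subtype, hfilt]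
  have hsumA : ∀ f : V × ℕ → ℝ, ∑ j ∈ A0.subtype (· ∈ J), f j.1 = ∑ j ∈ A0, f j := by
    intro f
    rw [Finset.sum_subtype_eq_sum_filter, hfilt]
  have hsumAc : ∑ j ∈ (A0.subtype (· ∈ J))ᶜ, infl G θ' ε i j.1 ^ 2 =
      ∑ j ∈ J \ A0, infl G θ' ε i j ^ 2 := by
    have a1 := Finset.sum_compl_add_sum (A0.subtype (· ∈ J)) (fun j : J => infl G θ' ε i j.1 ^ 2)
    have a2 := Finset.sum_sdiff hA (f := fun j => infl G θ' ε i j ^ 2)
    have a3 : ∑ j : J, infl G θ' ε i j.1 ^ 2 = ∑ j ∈ J, infl G θ' ε i j ^ 2 :=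
      Finset.sum_coe_sort J (fun j => infl G θ' ε i j ^ 2)
    have a4 := hsumA (fun j => infl G θ' ε i j ^ 2)
    linarith
  rw [hcard, hsumAc]
  have h3 : ∑ j ∈ A0.subtype (· ∈ J), infl G θ' ε i j.1 ^ 2 *
      ∫ p, ((X p j : ℝ) - X' p j) ^ 2 ∂Q ≤
      ∑ j ∈ A0.subtype (· ∈ J), infl G θ' ε i j.1 ^ 2 *
        (eng μ ε τ j.1 J' - eng μ ε τ j.1 J) := by
    apply Finset.sum_le_sum
    intro j _
    apply mul_le_mul_of_nonneg_left _ (sq_nonneg _)
    exact inn_diff_le μ hε0 hε1 τ j.1 hJ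
  rw [hsumA (fun j => infl G θ' ε i j ^ 2 * (eng μ ε τ j J' - eng μ ε τ j J))] at h3
  have h4 : (0 : ℝ) ≤ 3 * A0.card := by positivity
  have h5 := mul_le_mul_of_nonneg_left h3 h4
  linarith

open Classical in
include hε0 hε1 in
/-- `L²` Cauchy property of the scheme along finite sets of updates. -/
theorem T_cauchy (G : SimpleGraph V) {θ' : ℝ} (h0 : 0 ≤ θ')
    (hsum : ∀ x : V, Summable fun z : V => (θ' ^ G.dist x z) ^ 2)
    {τ : V → UI} (hτ : Function.Injective τ)
    (hinf : ∀ [DecidableEq (V × ℕ)] (J : Finset (V × ℕ)) (u : V × ℕ → UI) (j₀ : V × ℕ) (a : UI)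
      (i : V × ℕ), |(T μ ε τ J (Function.update u j₀ a) i : ℝ) - T μ ε τ J u i| ≤
        infl G θ' ε i j₀ * |(a : ℝ) - u j₀|)
    (i : V × ℕ) {δ : ℝ} (hδ : 0 < δ) :
    ∃ J₀ : Finset (V × ℕ), ∀ J J' : Finset (V × ℕ), J₀ ⊆ J → J₀ ⊆ J' →
      ∫ u, ((T μ ε τ J u i : ℝ) - T μ ε τ J' u i) ^ 2 ∂(iid (V × ℕ)) ≤ δ := by
  have hS := summable_infl (ε := ε) G hsum i
  set tot := ∑' j, infl G θ' ε i j ^ 2 with htot
  have htot0 : 0 ≤ tot := tsum_nonneg fun j => sq_nonneg _
  obtain ⟨A0, hA0⟩ := summable_iff_vanishing_norm.1 hS (δ / 96) (by positivity)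
  set η := δ / (8 * (3 * A0.card * tot + 1)) with hη
  have hden : 0 < 3 * A0.card * tot + 1 := by positivity
  have hηpos : 0 < η := by positivity
  have hbdd : ∀ j, BddAbove (Set.range fun J => eng μ ε τ j J) := by
    intro j
    refine ⟨1, ?_⟩
    rintro _ ⟨J, rfl⟩
    exact eng_le_one μ hε0 hε1 τ j J
  have hex : ∀ j, ∃ Jj, (⨆ J, eng μ ε τ j J) - η < eng μ ε τ j Jj := by
    intro j
    exact exists_lt_of_lt_ciSup (by linarith)
  choose Jf hJf using hex
  have hclose : ∀ j J J', Jf j ⊆ J → J ⊆ J' → eng μ ε τ j J' - eng μ ε τ j J ≤ η := by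
    intro j J J' h1 h2
    have a1 := hJf j
    have a2 := eng_mono μ hε0 hε1 τ j h1
    have a3 : eng μ ε τ j J' ≤ ⨆ J, eng μ ε τ j J := le_ciSup (hbdd j) J'
    linarith
  refine ⟨insert i (A0 ∪ A0.biUnion Jf), ?_⟩
  have key : ∀ J J', insert i (A0 ∪ A0.biUnion Jf) ⊆ J → J ⊆ J' →
      ∫ u, ((T μ ε τ J u i : ℝ) - T μ ε τ J' u i) ^ 2 ∂(iid (V × ℕ)) ≤ δ / 4 := by
    intro J J' hJ₀ hJJ'
    have hi : i ∈ J := hJ₀ (Finset.mem_insert_self _ _)
    have hAJ : A0 ⊆ J := fun x hx => hJ₀ (Finset.mem_insert_of_mem (Finset.mem_union_left _ hx))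
    have hfJ : ∀ j ∈ A0, Jf j ⊆ J := fun j hj x hx =>
      hJ₀ (Finset.mem_insert_of_mem (Finset.mem_union_right _ (Finset.mem_biUnion.2 ⟨j, hj, hx⟩)))
    have hn := nested μ hε0 hε1 G h0 hτ hinf i J J' A0 hJJ' hi hAJ
    have b1 : ∑ j ∈ J \ A0, infl G θ' ε i j ^ 2 ≤ δ / 96 := by
      have := hA0 (J \ A0) Finset.sdiff_disjoint
      rw [Real.norm_eq_abs] at this
      exact (le_abs_self _).trans this.le
    have b2 : ∑ j ∈ A0, infl G θ' ε i j ^ 2 * (eng μ ε τ j J' - eng μ ε τ j J) ≤ tot * η := by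
      calc _ ≤ ∑ j ∈ A0, infl G θ' ε i j ^ 2 * η := by
            apply Finset.sum_le_sum
            intro j hj
            exact mul_le_mul_of_nonneg_left (hclose j J J' (hfJ j hj) hJJ') (sq_nonneg _)
        _ = (∑ j ∈ A0, infl G θ' ε i j ^ 2) * η := by rw [Finset.sum_mul]
        _ ≤ tot * η := mul_le_mul_of_nonneg_right
            (hS.sum_le_tsum A0 fun j _ => sq_nonneg _) hηpos.le
    have b3 : 3 * (A0.card : ℝ) * (tot * η) ≤ δ / 8 := by
      have : 3 * (A0.card : ℝ) * (tot * η) = (3 * A0.card * tot) / (3 * A0.card * tot + 1) *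
          (δ / 8) := by
        rw [hη]
        field_simp
      rw [this]
      have : (3 * A0.card * tot) / (3 * A0.card * tot + 1) ≤ 1 := by
        rw [div_le_one hden]
        linarith
      nlinarith
    have b4 := mul_le_mul_of_nonneg_left b2 (show (0 : ℝ) ≤ 3 * A0.card by positivity)
    linarith
  intro J J' hJ hJ'
  have k1 := key J (J ∪ J') hJ Finset.subset_union_left
  have k2 := key J' (J ∪ J') hJ' Finset.subset_union_right
  have hTm : ∀ K : Finset (V × ℕ), Measurable fun u : V × ℕ → UI => (T μ ε τ K u i : ℝ) := fun K =>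
    measurable_subtype_coe.comp (measurable_T_fixed μ τ K i)
  have hint : ∀ K K' : Finset (V × ℕ), Integrable (fun u : V × ℕ → UI =>
      ((T μ ε τ K u i : ℝ) - T μ ε τ K' u i) ^ 2) (iid (V × ℕ)) := by
    intro K K'
    apply integrable_bd8 (((hTm K).sub (hTm K')).pow_const 2) (C := 1)
    intro u
    have c1 := (T μ ε τ K u i).2
    have c2 := (T μ ε τ K' u i).2
    rw [Set.mem_Icc] at c1 c2
    rw [abs_of_nonneg (sq_nonneg _)]
    change ((T μ ε τ K u i : ℝ) - T μ ε τ K' u i) ^ 2 ≤ 1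
    nlinarith
  calc ∫ u, ((T μ ε τ J u i : ℝ) - T μ ε τ J' u i) ^ 2 ∂(iid (V × ℕ)) ≤
      ∫ u, (2 * ((T μ ε τ J u i : ℝ) - T μ ε τ (J ∪ J') u i) ^ 2 +
        2 * ((T μ ε τ J' u i : ℝ) - T μ ε τ (J ∪ J') u i) ^ 2) ∂(iid (V × ℕ)) := by
        apply integral_mono (hint _ _) (((hint _ _).const_mul 2).add ((hint _ _).const_mul 2))
        intro u
        dsimp only [Pi.add_apply]
        nlinarith [sq_nonneg ((T μ ε τ J u i : ℝ) + T μ ε τ J' u i - 2 * T μ ε τ (J ∪ J') u i)]
    _ = 2 * ∫ u, ((T μ ε τ J u i : ℝ) - T μ ε τ (J ∪ J') u i) ^ 2 ∂(iid (V × ℕ)) +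
        2 * ∫ u, ((T μ ε τ J' u i : ℝ) - T μ ε τ (J ∪ J') u i) ^ 2 ∂(iid (V × ℕ)) := by
        rw [integral_add ((hint _ _).const_mul 2) ((hint _ _).const_mul 2), integral_const_mul,
          integral_const_mul]
    _ ≤ δ := by linarith

end

end Vale.Agent.H16.FIID
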