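import Vale.Agent.H16.FIID.Defs
/-! M9b: abstract limit theorem: `L²` Cauchy along finite sets gives a limit. -/
open MeasureTheory Filter Topology
namespace Vale.Agent.H16.FIID

section aux

theorem ui_abs_sub_le (a b : UI) : |(a : ℝ) - b| ≤ 1 := by
  have h1 := a.2.1
  have h2 := a.2.2
  have h3 := b.2.1
  have h4 := b.2.2
  rw [abs_le]; constructor <;> linarith

theorem integrable_bdd {Ω : Type*} [MeasurableSpace Ω] (P : Measure Ω) [IsFiniteMeasure P]
    {f : Ω → ℝ} (hf : Measurable f) {C : ℝ} (hC : ∀ x, |f x| ≤ C) : Integrable f P :=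
  Integrable.of_bound hf.aestronglyMeasurable C (Filter.Eventually.of_forall fun x => by
    rw [Real.norm_eq_abs]; exact hC x)

theorem measurable_coeUI {Ω : Type*} [MeasurableSpace Ω] {f : Ω → UI} (hf : Measurable f) :
    Measurable fun x => (f x : ℝ) := measurable_subtype_coe.comp hf

theorem int_sq {Ω : Type*} [MeasurableSpace Ω] (P : Measure Ω) [IsFiniteMeasure P]
    {f g : Ω → UI} (hf : Measurable f) (hg : Measurable g) :
    Integrable (fun x => ((f x : ℝ) - g x) ^ 2) P :=
  integrable_bdd P (((measurable_coeUI hf).sub (measurable_coeUI hg)).pow_const 2) (C := 1)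
    fun x => by
      rw [abs_pow]
      exact pow_le_one₀ (abs_nonneg _) (ui_abs_sub_le _ _)

theorem int_abs {Ω : Type*} [MeasurableSpace Ω] (P : Measure Ω) [IsFiniteMeasure P]
    {f g : Ω → UI} (hf : Measurable f) (hg : Measurable g) :
    Integrable (fun x => |(f x : ℝ) - g x|) P :=
  integrable_bdd P (((measurable_coeUI hf).sub (measurable_coeUI hg)).norm) (C := 1)
    fun x => by
      simp only [Real.norm_eq_abs, abs_abs]
      exact ui_abs_sub_le _ _

theorem abs_le_of_sq {x η : ℝ} (hη : 0 < η) : |x| ≤ η / 2 + x ^ 2 / (2 * η) := by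
  have h : 0 ≤ (|x| - η) ^ 2 := sq_nonneg _
  have h2 : η / 2 + x ^ 2 / (2 * η) - |x| = (|x| - η) ^ 2 / (2 * η) := by
    rw [← sq_abs x]
    field_simp
    ring
  have h3 : 0 ≤ (|x| - η) ^ 2 / (2 * η) := by positivity
  linarith

theorem projIcc_abs_le (t : ℝ) (a : UI) :
    |(a : ℝ) - (Set.projIcc (0 : ℝ) 1 zero_le_one t : ℝ)| ≤ |(a : ℝ) - t| := by
  have h1 := a.2.1
  have h2 := a.2.2
  rw [Set.coe_projIcc]
  rcases le_total t 0 with h | h
  · rw [min_eq_right (by linarith : t ≤ 1), max_eq_left h, sub_zero, abs_of_nonneg h1]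
    exact le_trans (by linarith) (le_abs_self _)
  · rcases le_total t 1 with h' | h'
    · rw [min_eq_right h', max_eq_right h]
    · rw [min_eq_left h', max_eq_right zero_le_one, abs_of_nonpos (by linarith)]
      exact le_trans (by linarith) (neg_le_abs _)

end aux

/-- Joint version: `f J τ u` measurable and `[0,1]`-valued; for a.e. `τ` Cauchy in `L²(u)`.  Then there is
a measurable limit in `L²(τ,u)`, along the net of all finite sets.
Proof idea: dominated convergence gives Cauchy in `L²` of the product; `Finset ι` has countably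
generated `atTop`; completeness of `Lp`; take a representative with values in `[0,1]`. -/
theorem exists_limit {ι : Type} [Countable ι] {A B : Type} [MeasurableSpace A] [MeasurableSpace B]
    (P : Measure A) [IsProbabilityMeasure P] (Q : Measure B) [IsProbabilityMeasure Q]
    (f : Finset ι → A × B → UI) (hf : ∀ J, Measurable (f J))
    (hc : ∀ᵐ a ∂P, ∀ δ : ℝ, 0 < δ → ∃ J₀ : Finset ι, ∀ J J' : Finset ι, J₀ ⊆ J → J₀ ⊆ J' →
      ∫ b, ((f J (a, b) : ℝ) - f J' (a, b)) ^ 2 ∂Q ≤ δ) :
    ∃ W : A × B → UI, Measurable W ∧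
      Tendsto (fun J : Finset ι => ∫ p, ((f J p : ℝ) - W p) ^ 2 ∂(P.prod Q)) atTop (𝓝 0) := by
  classical
  have hint : ∀ J, Integrable (fun p => (f J p : ℝ)) (P.prod Q) := fun J =>
    integrable_bdd _ (measurable_coeUI (hf J)) (C := 1) fun p => by
      rw [abs_le]; exact ⟨by linarith [(f J p).2.1], (f J p).2.2⟩
  set F : Finset ι → Lp ℝ 1 (P.prod Q) := fun J => (hint J).toL1 with hF
  have hdist : ∀ J J', dist (F J) (F J') = ∫ p, |(f J p : ℝ) - f J' p| ∂(P.prod Q) := by
    intro J J'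
    rw [L1.dist_eq_integral_dist]
    refine integral_congr_ae ?_
    filter_upwards [(hint J).coeFn_toL1, (hint J').coeFn_toL1] with p h1 h2
    simp only [hF]
    rw [h1, h2, Real.dist_eq]
  set h : Finset ι × Finset ι → A → ℝ := fun n a => ∫ b, |(f n.1 (a, b) : ℝ) - f n.2 (a, b)| ∂Q
    with hh
  have hsec : ∀ (J : Finset ι) (a : A), Measurable fun b => f J (a, b) := fun J a =>
    (hf J).comp measurable_prodMk_left
  have hlim : ∀ᵐ a ∂P, Tendsto (fun n => h n a) atTop (𝓝 0) := by
    filter_upwards [hc] with a ha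
    rw [Metric.tendsto_atTop]
    intro η hη
    obtain ⟨J₀, hJ₀⟩ := ha ((η / 2) ^ 2) (by positivity)
    refine ⟨(J₀, J₀), fun n hn => ?_⟩
    have h1 := hJ₀ n.1 n.2 hn.1 hn.2
    have h2 : h n a ≤ η / 2 := by
      calc h n a ≤ ∫ b, ((η / 2) / 2 + ((f n.1 (a, b) : ℝ) - f n.2 (a, b)) ^ 2 / (2 * (η / 2))) ∂Q :=
            integral_mono (int_abs Q (hsec _ a) (hsec _ a))
              ((integrable_const _).add ((int_sq Q (hsec _ a) (hsec _ a)).div_const _))
              fun b => abs_le_of_sq (by positivity)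
        _ = (η / 2) / 2 + (∫ b, ((f n.1 (a, b) : ℝ) - f n.2 (a, b)) ^ 2 ∂Q) / (2 * (η / 2)) := by
            rw [integral_add (integrable_const _) ((int_sq Q (hsec _ a) (hsec _ a)).div_const _),
              integral_const, integral_div]
            simp
        _ ≤ (η / 2) / 2 + ((η / 2) ^ 2) / (2 * (η / 2)) := by gcongr
        _ = η / 2 := by field_simp; ring
    have h3 : 0 ≤ h n a := integral_nonneg fun b => abs_nonneg _
    rw [Real.dist_eq, sub_zero, abs_of_nonneg h3]
    linarith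
  have hhm : ∀ n, Measurable (h n) := by
    intro n
    have : Measurable fun p : A × B => |(f n.1 p : ℝ) - f n.2 p| :=
      ((measurable_coeUI (hf n.1)).sub (measurable_coeUI (hf n.2))).norm
    exact (this.stronglyMeasurable.integral_prod_right').measurable
  have hdct : Tendsto (fun n => ∫ a, h n a ∂P) atTop (𝓝 0) := by
    have := tendsto_integral_filter_of_dominated_convergence (μ := P) (l := (atTop : Filter
      (Finset ι × Finset ι))) (F := h) (f := fun _ => (0 : ℝ)) (fun _ => (1 : ℝ))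
      (Eventually.of_forall fun n => (hhm n).aestronglyMeasurable)
      (Eventually.of_forall fun n => Eventually.of_forall fun a => ?_) (integrable_const _) hlim
    · simpa using this
    · have h3 : 0 ≤ h n a := integral_nonneg fun b => abs_nonneg _
      rw [Real.norm_eq_abs, abs_of_nonneg h3]
      calc h n a ≤ ∫ _ : B, (1 : ℝ) ∂Q := integral_mono (int_abs Q (hsec _ a) (hsec _ a))
            (integrable_const _) fun b => ui_abs_sub_le _ _
        _ = 1 := by simp
  have hcauchy : CauchySeq F := by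
    rw [cauchySeq_iff_tendsto_dist_atTop_0]
    refine hdct.congr fun n => ?_
    rw [hdist, integral_prod _ (int_abs _ (hf _) (hf _))]
  obtain ⟨G, hG⟩ := cauchySeq_tendsto_of_complete hcauchy
  set W : A × B → UI := fun p => Set.projIcc (0 : ℝ) 1 zero_le_one (G p) with hW
  have hGm : Measurable (G : A × B → ℝ) := (Lp.stronglyMeasurable G).measurable
  have hWm : Measurable W := continuous_projIcc.measurable.comp hGm
  refine ⟨W, hWm, ?_⟩
  have hdG : Tendsto (fun J => dist (F J) G) atTop (𝓝 0) := tendsto_iff_dist_tendsto_zero.mp hG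
  refine squeeze_zero (fun J => integral_nonneg fun p => sq_nonneg _) (fun J => ?_) hdG
  rw [L1.dist_eq_integral_dist]
  have hiG : Integrable (fun p => dist ((F J : A × B → ℝ) p) (G p)) (P.prod Q) := by
    have h1 := (L1.integrable_coeFn (F J)).sub (L1.integrable_coeFn G)
    refine h1.norm.congr (Eventually.of_forall fun p => ?_)
    simp [dist_eq_norm]
  refine integral_mono_ae (int_sq _ (hf J) hWm) hiG ?_
  filter_upwards [(hint J).coeFn_toL1] with p h1
  simp only [hF]
  rw [h1, Real.dist_eq]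
  have h2 := ui_abs_sub_le (f J p) (W p)
  have h3 := projIcc_abs_le (G p) (f J p)
  calc ((f J p : ℝ) - W p) ^ 2 = |(f J p : ℝ) - W p| * |(f J p : ℝ) - W p| := by
        rw [← sq_abs]; ring
    _ ≤ |(f J p : ℝ) - W p| * 1 := by gcongr
    _ ≤ |(f J p : ℝ) - G p| := by rw [mul_one]; exact h3

/-- Uniqueness of such limits. -/
theorem limit_unique {ι : Type} [Countable ι] {Ω : Type} [MeasurableSpace Ω] (P : Measure Ω)
    [IsProbabilityMeasure P] (f : Finset ι → Ω → UI) (hf : ∀ J, Measurable (f J))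
    (W W' : Ω → UI) (hW : Measurable W) (hW' : Measurable W')
    (h : Tendsto (fun J : Finset ι => ∫ p, ((f J p : ℝ) - W p) ^ 2 ∂P) atTop (𝓝 0))
    (h' : Tendsto (fun J : Finset ι => ∫ p, ((f J p : ℝ) - W' p) ^ 2 ∂P) atTop (𝓝 0)) :
    W =ᵐ[P] W' := by
  have h1 : Tendsto (fun J : Finset ι => 2 * (∫ p, ((f J p : ℝ) - W p) ^ 2 ∂P) +
      2 * ∫ p, ((f J p : ℝ) - W' p) ^ 2 ∂P) atTop (𝓝 0) := by
    have := (h.const_mul 2).add (h'.const_mul 2)
    simpa using this
  have h2 : ∀ J, ∫ p, ((W p : ℝ) - W' p) ^ 2 ∂P ≤ 2 * (∫ p, ((f J p : ℝ) - W p) ^ 2 ∂P) +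
      2 * ∫ p, ((f J p : ℝ) - W' p) ^ 2 ∂P := by
    intro J
    rw [← integral_const_mul, ← integral_const_mul,
      ← integral_add ((int_sq P (hf J) hW).const_mul 2) ((int_sq P (hf J) hW').const_mul 2)]
    refine integral_mono (int_sq P hW hW') (((int_sq P (hf J) hW).const_mul 2).add
      ((int_sq P (hf J) hW').const_mul 2)) fun p => ?_
    simp only [Pi.add_apply]
    nlinarith [sq_nonneg (((f J p : ℝ) - W p) + ((f J p : ℝ) - W' p))]
  have h3 : ∫ p, ((W p : ℝ) - W' p) ^ 2 ∂P ≤ 0 := ge_of_tendsto' h1 h2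
  have h4 : ∫ p, ((W p : ℝ) - W' p) ^ 2 ∂P = 0 :=
    le_antisymm h3 (integral_nonneg fun p => sq_nonneg _)
  rw [integral_eq_zero_iff_of_nonneg (fun p => sq_nonneg _) (int_sq P hW hW')] at h4
  filter_upwards [h4] with p hp
  simp only [Pi.zero_apply] at hp
  have := pow_eq_zero_iff (two_ne_zero) |>.mp hp
  exact Subtype.ext (by linarith)

theorem bcf_modulus {κ : Type*} [Fintype κ] (φ : BoundedContinuousFunction (κ → UI) ℝ) {η : ℝ}
    (hη : 0 < η) : ∃ M : ℝ, 0 ≤ M ∧ ∀ x y : κ → UI,
      |φ x - φ y| ≤ η + M * ∑ i, ((x i : ℝ) - y i) ^ 2 := by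
  have huc := CompactSpace.uniformContinuous_of_continuous φ.continuous
  obtain ⟨δ, hδ, hδ2⟩ := Metric.uniformContinuous_iff.mp huc η hη
  refine ⟨2 * ‖φ‖ / δ ^ 2, by positivity, fun x y => ?_⟩
  set M : ℝ := 2 * ‖φ‖ / δ ^ 2 with hM
  have hM0 : 0 ≤ M := by positivity
  have hs0 : 0 ≤ ∑ i, ((x i : ℝ) - y i) ^ 2 := Finset.sum_nonneg fun i _ => sq_nonneg _
  by_cases hd : dist x y < δ
  · have := (hδ2 hd).le
    rw [Real.dist_eq] at this
    have := mul_nonneg hM0 hs0
    linarith
  · push Not at hd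
    have h1 : ∃ i, δ ≤ dist (x i) (y i) := by
      by_contra hcon
      push Not at hcon
      exact absurd ((dist_pi_lt_iff hδ).mpr hcon) (not_lt.mpr hd)
    obtain ⟨i, hi⟩ := h1
    have h2 : δ ^ 2 ≤ ∑ i, ((x i : ℝ) - y i) ^ 2 := by
      have h3 : δ ^ 2 ≤ ((x i : ℝ) - y i) ^ 2 := by
        rw [← sq_abs ((x i : ℝ) - y i)]
        apply pow_le_pow_left₀ hδ.le
        rw [← Real.dist_eq]
        exact hi
      exact h3.trans (Finset.single_le_sum (f := fun i => ((x i : ℝ) - y i) ^ 2)
        (fun _ _ => sq_nonneg _) (Finset.mem_univ i))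
    have h4 : |φ x - φ y| ≤ 2 * ‖φ‖ := by
      have := φ.dist_le_two_norm x y
      rwa [Real.dist_eq] at this
    have h5 : 2 * ‖φ‖ ≤ M * ∑ i, ((x i : ℝ) - y i) ^ 2 := by
      calc 2 * ‖φ‖ = M * δ ^ 2 := by rw [hM]; field_simp
        _ ≤ _ := by gcongr
    linarith

theorem tendsto_integral_bcf {κ Ω T : Type*} [Fintype κ] [MeasurableSpace Ω] (P : Measure Ω)
    [IsProbabilityMeasure P] (l : Filter T) (f : T → Ω → κ → UI) (hf : ∀ J, Measurable (f J))
    (W : Ω → κ → UI) (hW : Measurable W)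
    (hlim : ∀ i, Tendsto (fun J => ∫ ω, ((f J ω i : ℝ) - W ω i) ^ 2 ∂P) l (𝓝 0))
    (φ : BoundedContinuousFunction (κ → UI) ℝ) :
    Tendsto (fun J => ∫ ω, φ (f J ω) ∂P) l (𝓝 (∫ ω, φ (W ω) ∂P)) := by
  have hfi : ∀ J i, Measurable fun ω => f J ω i := fun J i => (measurable_pi_apply i).comp (hf J)
  have hWi : ∀ i, Measurable fun ω => W ω i := fun i => (measurable_pi_apply i).comp hW
  rw [Metric.tendsto_nhds]
  intro η hη
  obtain ⟨M, hM0, hpt⟩ := bcf_modulus φ (by positivity : (0 : ℝ) < η / 4)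
  have hsum : Tendsto (fun J => M * ∑ i : κ, ∫ ω, ((f J ω i : ℝ) - W ω i) ^ 2 ∂P)
      l (𝓝 0) := by
    have h1 : Tendsto (fun J => ∑ i : κ, ∫ ω, ((f J ω i : ℝ) - W ω i) ^ 2 ∂P)
        l (𝓝 (∑ _i : κ, (0 : ℝ))) := tendsto_finsetSum _ fun i _ => hlim i
    have := h1.const_mul M
    simpa using this
  filter_upwards [hsum.eventually (gt_mem_nhds (by positivity : (0 : ℝ) < η / 4))] with J hJ
  have i1 : Integrable (fun ω => φ (f J ω)) P :=
    Integrable.of_bound (φ.continuous.measurable.comp (hf J)).aestronglyMeasurable ‖φ‖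
      (Eventually.of_forall fun ω => φ.norm_coe_le_norm _)
  have i2 : Integrable (fun ω => φ (W ω)) P :=
    Integrable.of_bound (φ.continuous.measurable.comp hW).aestronglyMeasurable ‖φ‖
      (Eventually.of_forall fun ω => φ.norm_coe_le_norm _)
  have i3 : Integrable (fun ω => M * ∑ i : κ, ((f J ω i : ℝ) - W ω i) ^ 2) P :=
    (integrable_finsetSum _ fun i _ => int_sq P (hfi J i) (hWi i)).const_mul M
  have h1 : ∫ ω, |φ (f J ω) - φ (W ω)| ∂P ≤
      ∫ ω, (η / 4 + M * ∑ i : κ, ((f J ω i : ℝ) - W ω i) ^ 2) ∂P :=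
    integral_mono (i1.sub i2).norm ((integrable_const _).add i3) fun ω => hpt _ _
  have h2 : ∫ ω, (η / 4 + M * ∑ i : κ, ((f J ω i : ℝ) - W ω i) ^ 2) ∂P =
      η / 4 + M * ∑ i : κ, ∫ ω, ((f J ω i : ℝ) - W ω i) ^ 2 ∂P := by
    rw [integral_add (integrable_const _) i3, integral_const_mul,
      integral_finsetSum _ fun i _ => int_sq P (hfi J i) (hWi i)]
    simp
  rw [Real.dist_eq, ← integral_sub i1 i2]
  have h3 : |∫ ω, (φ (f J ω) - φ (W ω)) ∂P| ≤ ∫ ω, |φ (f J ω) - φ (W ω)| ∂P :=
    abs_integral_le_integral_abs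
  linarith

theorem fin_law {κ Ω Ω' T : Type*} [Fintype κ] [MeasurableSpace Ω] [MeasurableSpace Ω']
    (P : Measure Ω) [IsProbabilityMeasure P] (P' : Measure Ω') [IsProbabilityMeasure P']
    (l : Filter T) [l.NeBot] (f : T → Ω → κ → UI) (hf : ∀ J, Measurable (f J))
    (W : Ω → κ → UI) (hW : Measurable W) (D : Ω' → κ → UI) (hD : Measurable D)
    (hlaw : ∀ᶠ J in l, P.map (f J) = P'.map D)
    (hlim : ∀ i, Tendsto (fun J => ∫ ω, ((f J ω i : ℝ) - W ω i) ^ 2 ∂P) l (𝓝 0)) :
    P.map W = P'.map D := by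
  have := Measure.isProbabilityMeasure_map (μ := P) hW.aemeasurable
  have := Measure.isProbabilityMeasure_map (μ := P') hD.aemeasurable
  refine ext_of_forall_integral_eq_of_IsFiniteMeasure fun φ => ?_
  rw [integral_map hW.aemeasurable φ.continuous.measurable.aestronglyMeasurable]
  have hφ := tendsto_integral_bcf P l f hf W hW hlim φ
  have hev : ∀ᶠ J in l, ∫ ω, φ (f J ω) ∂P = ∫ x, φ x ∂(P'.map D) := by
    filter_upwards [hlaw] with J hJ
    rw [← hJ, integral_map (hf J).aemeasurable φ.continuous.measurable.aestronglyMeasurable]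
  exact tendsto_nhds_unique (hφ.congr' hev) tendsto_const_nhds

/-- Law of the limit: if for every finite `K` the law of `(f J · i)_{i ∈ K}` is eventually the law of
`(D · i)_{i ∈ K}`, and `f J · i → W · i` in `L²` for each `i`, then `W` and `D` have the same law. -/
theorem limit_law {ι : Type} [Countable ι] {Ω Ω' : Type} [MeasurableSpace Ω] [MeasurableSpace Ω']
    (P : Measure Ω) [IsProbabilityMeasure P] (P' : Measure Ω') [IsProbabilityMeasure P']
    (f : Finset ι → Ω → ι → UI) (hf : ∀ J, Measurable (f J))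
    (W : Ω → ι → UI) (hW : Measurable W) (D : Ω' → ι → UI) (hD : Measurable D)
    (hlaw : ∀ K : Finset ι, ∀ᶠ J in (atTop : Filter (Finset ι)),
      P.map (fun ω (i : K) => f J ω i) = P'.map (fun ω (i : K) => D ω i))
    (hlim : ∀ i, Tendsto (fun J : Finset ι => ∫ ω, ((f J ω i : ℝ) - W ω i) ^ 2 ∂P) atTop (𝓝 0)) :
    P.map W = P'.map D := by
  classical
  have key : ∀ K : Finset ι, P.map (fun ω (i : K) => W ω i) = P'.map (fun ω (i : K) => D ω i) := by
    intro K
    exact fin_law P P' atTop (fun J ω (i : K) => f J ω i)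
      (fun J => measurable_pi_iff.mpr fun i => (measurable_pi_apply (i : ι)).comp (hf J))
      (fun ω (i : K) => W ω i)
      (measurable_pi_iff.mpr fun i => (measurable_pi_apply (i : ι)).comp hW)
      (fun ω (i : K) => D ω i)
      (measurable_pi_iff.mpr fun i => (measurable_pi_apply (i : ι)).comp hD)
      (hlaw K) (fun i => hlim i)
  have hmW : IsProbabilityMeasure (P.map W) := Measure.isProbabilityMeasure_map hW.aemeasurable
  have hmD : IsProbabilityMeasure (P'.map D) := Measure.isProbabilityMeasure_map hD.aemeasurable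
  have hfin : ∀ K : Finset ι, IsFiniteMeasure ((P'.map D).map K.restrict) := fun K => by
    have := Measure.isProbabilityMeasure_map (μ := P'.map D)
      (Finset.measurable_restrict (X := fun _ : ι => UI) K).aemeasurable
    infer_instance
  refine IsProjectiveLimit.unique (P := fun K : Finset ι => (P'.map D).map K.restrict) ?_
    (fun K => rfl)
  intro K
  simp only
  rw [Measure.map_map (Finset.measurable_restrict K) hW,
    Measure.map_map (Finset.measurable_restrict K) hD]
  exact key K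

end Vale.Agent.H16.FIID
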