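import Vale.Agent.H16.FIID.M1Quantile
/-! M9c: the spins are a function of the (infinite) data: strong law of large numbers. -/
open MeasureTheory Filter Topology
namespace Vale.Agent.H16.FIID
variable {V : Type}

/-- empirical mean -/
noncomputable def emp (n : ℕ) (w : ℕ → UI) : ℝ := (∑ r ∈ Finset.range n, (w r : ℝ)) / n

theorem measurable_emp (n : ℕ) : Measurable (emp n) := by
  unfold emp
  refine Measurable.div_const ?_ _
  exact Finset.measurable_fun_sum _ fun r _ => measurable_subtype_coe.comp (measurable_pi_apply r)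

theorem measurableSet_emp : MeasurableSet {w : ℕ → UI | ∀ᶠ n in atTop, (1 / 2 : ℝ) < emp n w} := by
  have h : {w : ℕ → UI | ∀ᶠ n in atTop, (1 / 2 : ℝ) < emp n w} =
      ⋃ N : ℕ, ⋂ n : ℕ, ⋂ _ : N ≤ n, {w | (1 / 2 : ℝ) < emp n w} := by
    ext w
    simp [eventually_atTop]
  rw [h]
  refine MeasurableSet.iUnion fun N => MeasurableSet.iInter fun n => MeasurableSet.iInter fun _ => ?_
  exact measurableSet_lt measurable_const (measurable_emp n)

theorem abs_eps_sgn {ε : ℝ} (hε0 : 0 < ε) (hε1 : ε < 1) (s : Bool) : |ε * sgn s| < 1 := by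
  cases s
  · simp only [sgn]; rw [abs_lt]; constructor <;> simp <;> linarith
  · simp only [sgn]; rw [abs_lt]; constructor <;> simp <;> linarith

theorem slln {ε : ℝ} (hε0 : 0 < ε) (hε1 : ε < 1) (s : Bool) (v : V) :
    ∀ᵐ x ∂(iid (V × ℕ)), Tendsto (fun n => emp n fun r => qt (ε * sgn s) (x (v, r))) atTop
      (𝓝 (1 / 2 + ε * sgn s / 6)) := by
  have ha := abs_eps_sgn hε0 hε1 s
  set q : UI → ℝ := fun u => (qt (ε * sgn s) u : ℝ) with hq
  have hqm : Measurable q := by
    have : Measurable fun u : UI => qt (ε * sgn s) u :=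
      measurable_qt.comp (measurable_const.prodMk measurable_id)
    exact measurable_subtype_coe.comp this
  set X : ℕ → (V × ℕ → UI) → ℝ := fun r x => q (x (v, r)) with hX
  have hXm : ∀ r, Measurable (X r) := fun r => hqm.comp (measurable_pi_apply _)
  have hind : ProbabilityTheory.iIndepFun (fun (i : V × ℕ) (x : V × ℕ → UI) => q (x i))
      (iid (V × ℕ)) := by
    unfold iid
    exact ProbabilityTheory.iIndepFun_infinitePi (X := fun _ u => q u) (fun _ => hqm)
  have hinj : Function.Injective fun r : ℕ => ((v, r) : V × ℕ) := fun r r' h => by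
    simpa using h
  have hind' : ProbabilityTheory.iIndepFun X (iid (V × ℕ)) := hind.precomp hinj
  have hpair : Pairwise (Function.onFun (fun f g => ProbabilityTheory.IndepFun f g (iid (V × ℕ))) X) :=
    fun i j hij => hind'.indepFun hij
  have hident : ∀ r, ProbabilityTheory.IdentDistrib (X r) (X 0) (iid (V × ℕ)) (iid (V × ℕ)) := by
    intro r
    have h : ProbabilityTheory.IdentDistrib (fun x : V × ℕ → UI => x (v, r))
        (fun x : V × ℕ → UI => x (v, 0)) (iid (V × ℕ)) (iid (V × ℕ)) := by
      refine ⟨(measurable_pi_apply _).aemeasurable, (measurable_pi_apply _).aemeasurable, ?_⟩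
      unfold iid
      exact (Measure.infinitePi_map_eval _ (v, r)).trans
        (Measure.infinitePi_map_eval (fun _ : V × ℕ => (volume : Measure UI)) (v, 0)).symm
    exact h.comp hqm
  have hbd : ∀ r x, |X r x| ≤ 1 := by
    intro r x
    have h0 := (qt (ε * sgn s) (x (v, r))).2
    simp only [hX, hq]
    rw [abs_le]; exact ⟨by linarith [h0.1], h0.2⟩
  have hint : Integrable (X 0) (iid (V × ℕ)) :=
    Integrable.of_bound (hXm 0).aestronglyMeasurable 1
      (Eventually.of_forall fun x => by rw [Real.norm_eq_abs]; exact hbd 0 x)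
  have hmean : ∫ x, X 0 x ∂(iid (V × ℕ)) = 1 / 2 + ε * sgn s / 6 := by
    rw [← integral_qt_val ha]
    have h1 : (iid (V × ℕ)).map (fun x => x (v, 0)) = (volume : Measure UI) := by
      unfold iid
      exact Measure.infinitePi_map_eval _ (v, 0)
    have h2 := integral_map (μ := iid (V × ℕ)) (φ := fun x : V × ℕ → UI => x (v, 0))
      (measurable_pi_apply _).aemeasurable (f := q) hqm.aestronglyMeasurable
    rw [← h1]
    exact h2.symm
  have := ProbabilityTheory.strong_law_ae_real X hint hpair hident
  rw [hmean] at this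
  exact this

/-- Proof idea: `D w = true` iff `limsup` of the averages `(1/n)∑_{r<n} w_r` is `> 1/2`.  For each
fixed `s = ±1` and `v` the sequence `qt (ε s) (x (v,r))`, `r ∈ ℕ`, is i.i.d. with mean `1/2 + ε s/6`
(`integral_qt_val`), so `ProbabilityTheory.strong_law_ae_real` applies under `iid (V × ℕ)`; then Fubini. -/
theorem exists_decode [Countable V] {ε : ℝ} (hε0 : 0 < ε) (hε1 : ε < 1)
    (μ : Measure (V → Bool)) [IsProbabilityMeasure μ] :
    ∃ D : (ℕ → UI) → Bool, Measurable D ∧
      ∀ᵐ p ∂(μ.prod (iid (V × ℕ))), ∀ v : V, D (fun r => data ε p (v, r)) = p.1 v := by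
  classical
  set S : Set (ℕ → UI) := {w : ℕ → UI | ∀ᶠ n in atTop, (1 / 2 : ℝ) < emp n w} with hS
  refine ⟨fun w => if w ∈ S then true else false,
    Measurable.ite measurableSet_emp measurable_const measurable_const, ?_⟩
  rw [ae_all_iff]
  intro v
  set Dm : (ℕ → UI) → Bool := fun w => if w ∈ S then true else false with hDm
  have hDmeas : Measurable Dm := Measurable.ite measurableSet_emp measurable_const measurable_const
  have hdata : Measurable fun p : (V → Bool) × (V × ℕ → UI) => fun r : ℕ => data ε p (v, r) := by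
    rw [measurable_pi_iff]
    intro r
    unfold data
    refine measurable_qt.comp (Measurable.prodMk ?_ ?_)
    · have h1 : Measurable (sgn : Bool → ℝ) := measurable_from_top
      exact (h1.comp ((measurable_pi_apply v).comp measurable_fst)).const_mul ε
    · exact (measurable_pi_apply (v, r)).comp measurable_snd
  have hset : MeasurableSet {p : (V → Bool) × (V × ℕ → UI) |
      Dm (fun r => data ε p (v, r)) = p.1 v} :=
    measurableSet_eq_fun (hDmeas.comp hdata) ((measurable_pi_apply v).comp measurable_fst)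
  have : ∀ᵐ p ∂(μ.prod (iid (V × ℕ))), Dm (fun r => data ε p (v, r)) = p.1 v := by
    rw [Measure.ae_prod_iff_ae_ae hset]
    refine Eventually.of_forall fun σ => ?_
    filter_upwards [slln hε0 hε1 (σ v) v] with x hx
    have hx' : Tendsto (fun n => emp n fun r => data ε (σ, x) (v, r)) atTop
      (𝓝 (1 / 2 + ε * sgn (σ v) / 6)) := hx
    simp only [hDm]
    rcases Bool.eq_false_or_eq_true (σ v) with h | h
    · rw [h]
      rw [if_pos]
      rw [hS, Set.mem_ofPred_eq]
      rw [h] at hx'
      have : (1 / 2 : ℝ) < 1 / 2 + ε * sgn true / 6 := by simp [sgn]; linarith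
      exact hx'.eventually (lt_mem_nhds this)
    · rw [h]
      rw [if_neg]
      rw [hS, Set.mem_ofPred_eq]
      intro hcon
      rw [h] at hx'
      have h2 : 1 / 2 + ε * sgn false / 6 < (1 / 2 : ℝ) := by simp [sgn]; linarith
      have h3 := hx'.eventually (gt_mem_nhds h2)
      obtain ⟨n, h4, h5⟩ := (hcon.and h3).exists
      linarith
  exact this

end Vale.Agent.H16.FIID
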