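import Vale.Agent.H16.FIID.M2Tree
import Vale.Agent.H16.FIID.M3Ising
import Vale.Agent.H16.FIID.M4bInfluence
import Vale.Agent.H16.FIID.M6bInfluence
import Vale.Agent.H16.FIID.M8Cauchy
import Vale.Agent.H16.FIID.M9aLabels
import Vale.Agent.H16.FIID.M9bLimit
import Vale.Agent.H16.FIID.M9cDecode
/-! M10: assembly. -/
open MeasureTheory Filter Topology
namespace Vale.Agent.H16.FIID
variable {V : Type}

/-! ### law of the scheme -/

section law
variable [Countable V] (μ : Measure (V → Bool)) [IsProbabilityMeasure μ] {ε : ℝ} (hε0 : 0 < ε)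
  (hε1 : ε < 1)

include hε0 hε1 in
/-- for fixed injective labels, the scheme on `J` has the law of the data on `K ⊆ J` -/
lemma T_law {τ : V → UI} (hτ : Function.Injective τ) {J K : Finset (V × ℕ)} (hK : K ⊆ J) :
    (iid (V × ℕ)).map (fun u (i : K) => T μ ε τ J u i) =
      (μ.prod (iid (V × ℕ))).map (fun p (i : K) => data ε p i) := by
  set h : (J → UI) → (K → UI) := fun x i => T μ ε τ J (extd J x) i.1 with hh
  have hhm : Measurable h := measurable_pi_lambda _ fun i =>
    (measurable_T_fixed μ τ J i.1).comp (measurable_extd J)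
  have hX : Measurable fun (p : (V → Bool) × (V × ℕ → UI)) (j : J) => inn μ ε τ J (data ε p) j :=
    measurable_pi_lambda _ fun j => measurable_inn_data μ τ J j.1
  have e1 : (fun (u : V × ℕ → UI) (i : K) => T μ ε τ J u i) = h ∘ J.restrict := by
    funext u i
    rw [hh]
    apply T_congr μ τ J _ i.1 (hK i.2)
    intro k hk
    rw [extd_of_mem _ hk]
    rfl
  have e2 : (fun (p : (V → Bool) × (V × ℕ → UI)) (i : K) => data ε p i) =
      h ∘ fun p (j : J) => inn μ ε τ J (data ε p) j := by
    funext p i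
    rw [hh]
    change data ε p i.1 = T μ ε τ J (extd J fun j : J => inn μ ε τ J (data ε p) j) i.1
    rw [T_congr μ τ J (u' := inn μ ε τ J (data ε p)) _ i.1 (hK i.2)]
    · exact (T_inn μ hε0 hε1 τ J (data ε p) i.1 (hK i.2)).symm
    · intro k hk
      rw [extd_of_mem _ hk]
  rw [e1, e2, ← Measure.map_map hhm (Finset.measurable_restrict J), ← Measure.map_map hhm hX,
    inn_law μ hε0 hε1 hτ J]
  congr 1
  exact Measure.infinitePi_map_restrict (fun _ : V × ℕ => (volume : Measure UI))

include hε0 hε1 in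
lemma T_law_joint {J K : Finset (V × ℕ)} (hK : K ⊆ J) :
    ((iid V).prod (iid (V × ℕ))).map (fun p (i : K) => T μ ε p.1 J p.2 i) =
      (μ.prod (iid (V × ℕ))).map (fun p (i : K) => data ε p i) := by
  have hTm : Measurable fun (p : (V → UI) × (V × ℕ → UI)) (i : K) => T μ ε p.1 J p.2 i :=
    measurable_pi_lambda _ fun i => (measurable_pi_apply i.1).comp (measurable_T μ J)
  ext B hB
  rw [Measure.map_apply hTm hB, Measure.prod_apply (hTm hB)]
  have : ∀ᵐ τ ∂(iid V), (iid (V × ℕ)) (Prod.mk τ ⁻¹'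
      ((fun (p : (V → UI) × (V × ℕ → UI)) (i : K) => T μ ε p.1 J p.2 i) ⁻¹' B)) =
      (μ.prod (iid (V × ℕ))).map (fun p (i : K) => data ε p i) B := by
    filter_upwards [iid_injective (V := V)] with τ hτ
    rw [← T_law μ hε0 hε1 hτ hK, Measure.map_apply _ hB]
    · rfl
    · exact measurable_pi_lambda _ fun i => measurable_T_fixed μ τ J i.1
  rw [lintegral_congr_ae this, lintegral_const, measure_univ, mul_one]

end law

/-! ### action of bijections on labels and inputs -/

/-- the action on pairs (labels, inputs) -/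
def act (g : V ≃ V) (p : (V → UI) × (V × ℕ → UI)) : (V → UI) × (V × ℕ → UI) :=
  (fun v => p.1 (g.symm v), fun i => p.2 (g.symm i.1, i.2))

lemma iid_reindex {ι : Type} (e : ι ≃ ι) :
    MeasurePreserving (fun (x : ι → UI) i => x (e i)) (iid ι) (iid ι) := by
  have hm : Measurable fun (x : ι → UI) i => x (e i) :=
    measurable_pi_lambda _ fun i => measurable_pi_apply _
  refine ⟨hm, ?_⟩
  unfold iid
  apply Measure.eq_infinitePi
  intro s t ht
  classical
  have hsymm : ∀ a, t (e.symm (e a)) = t a := fun a => by rw [e.symm_apply_apply a]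
  rw [Measure.map_apply hm (MeasurableSet.pi s.countable_toSet fun i _ => ht i)]
  have : (fun (x : ι → UI) i => x (e i)) ⁻¹' (Set.pi s t) =
      Set.pi ((s.map e.toEmbedding : Finset ι) : Set ι) (fun i => t (e.symm i)) := by
    ext x
    constructor
    · intro h i hi
      rw [Finset.mem_coe, Finset.mem_map] at hi
      obtain ⟨a, ha, rfl⟩ := hi
      have h2 : x (e a) ∈ t a := h a ha
      rw [← hsymm a] at h2
      exact h2
    · intro h i hi
      have h1 : (e i) ∈ ((s.map e.toEmbedding : Finset ι) : Set ι) := by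
        rw [Finset.mem_coe, Finset.mem_map]
        exact ⟨i, hi, rfl⟩
      have h2 : x (e i) ∈ t (e.symm (e i)) := h (e i) h1
      rw [hsymm i] at h2
      exact h2
  rw [this, Measure.infinitePi_pi _ fun i _ => ht _, Finset.prod_map]
  apply Finset.prod_congr rfl
  intro i _
  change volume (t (e.symm (e i))) = _
  rw [hsymm i]

lemma act_preserving [Countable V] (g : V ≃ V) :
    MeasurePreserving (act g) ((iid V).prod (iid (V × ℕ))) ((iid V).prod (iid (V × ℕ))) := by
  have h1 := iid_reindex g.symm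
  have h2 := iid_reindex (idxEquiv g).symm
  exact h1.prod h2

/-! ### the factor map -/

theorem fiid_core [Countable V] (G : SimpleGraph V) (μ : Measure (V → Bool))
    [IsProbabilityMeasure μ] {ε : ℝ} (hε0 : 0 < ε) (hε1 : ε < 1)
    (hc : ∀ τ : V → UI, Function.Injective τ → ∀ (i : V × ℕ) (δ : ℝ), 0 < δ →
      ∃ J₀ : Finset (V × ℕ), ∀ J J' : Finset (V × ℕ), J₀ ⊆ J → J₀ ⊆ J' →
        ∫ u, ((T μ ε τ J u i : ℝ) - T μ ε τ J' u i) ^ 2 ∂(iid (V × ℕ)) ≤ δ)
    (hinv : ∀ g : G ≃g G, μ.map (fun σ v => σ (g.symm v)) = μ) : IsFactorOfIID G μ := by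
  classical
  set P := (iid V).prod (iid (V × ℕ)) with hP
  -- the limit of the scheme
  have hTm : ∀ (J : Finset (V × ℕ)) (i : V × ℕ), Measurable fun p : (V → UI) × (V × ℕ → UI) =>
      T μ ε p.1 J p.2 i := fun J i => (measurable_pi_apply i).comp (measurable_T μ J)
  have hex : ∀ i : V × ℕ, ∃ W : (V → UI) × (V × ℕ → UI) → UI, Measurable W ∧
      Tendsto (fun J : Finset (V × ℕ) => ∫ p, ((T μ ε p.1 J p.2 i : ℝ) - W p) ^ 2 ∂P)
        atTop (𝓝 0) := by
    intro i
    apply exists_limit (iid V) (iid (V × ℕ)) (fun J p => T μ ε p.1 J p.2 i) (fun J => hTm J i)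
    filter_upwards [iid_injective (V := V)] with τ hτ δ hδ
    exact hc τ hτ i δ hδ
  choose W0 hW0m hW0 using hex
  set W : (V → UI) × (V × ℕ → UI) → V × ℕ → UI := fun p i => W0 i p with hW
  have hWm : Measurable W := measurable_pi_lambda _ fun i => hW0m i
  -- its law
  have hWlaw : P.map W = (μ.prod (iid (V × ℕ))).map (data ε) := by
    apply limit_law P (μ.prod (iid (V × ℕ))) (fun J p => T μ ε p.1 J p.2)
      (fun J => measurable_T μ J) W hWm (data ε) measurable_data
    · intro K
      filter_upwards [eventually_ge_atTop K] with J hJ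
      exact T_law_joint μ hε0 hε1 hJ
    · intro i
      exact hW0 i
  -- decoding
  obtain ⟨D, hDm, hD⟩ := exists_decode hε0 hε1 μ
  set dec : (V × ℕ → UI) → (V → Bool) := fun w v => D fun r => w (v, r) with hdec
  have hdecm : Measurable dec := measurable_pi_lambda _ fun v =>
    hDm.comp (measurable_pi_lambda _ fun r => measurable_pi_apply _)
  have hlaw0 : P.map (dec ∘ W) = μ := by
    rw [← Measure.map_map hdecm hWm, hWlaw, Measure.map_map hdecm measurable_data]
    have : dec ∘ data ε =ᵐ[μ.prod (iid (V × ℕ))] Prod.fst := by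
      filter_upwards [hD] with p hp
      funext v
      exact hp v
    rw [Measure.map_congr this, Measure.map_fst_prod, measure_univ, one_smul]
  -- equivariance of the limit
  have hequiv : ∀ g : G ≃g G, ∀ᵐ p ∂P, W (act g.toEquiv p) = fun i => W p (g.symm i.1, i.2) := by
    intro g
    have hg : μ.map (fun σ v => σ (g.toEquiv.symm v)) = μ := hinv g
    have hi : ∀ i : V × ℕ, ∀ᵐ p ∂P, W0 (g i.1, i.2) (act g.toEquiv p) = W0 i p := by
      intro i
      have hact := act_preserving g.toEquiv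
      have h1 := hW0 (g i.1, i.2)
      -- transport by the action
      have h2 : ∀ J : Finset (V × ℕ), ∫ p, ((T μ ε p.1 J p.2 (g i.1, i.2) : ℝ) -
          W0 (g i.1, i.2) p) ^ 2 ∂P = ∫ p, ((T μ ε (act g.toEquiv p).1 J (act g.toEquiv p).2
            (g i.1, i.2) : ℝ) - W0 (g i.1, i.2) (act g.toEquiv p)) ^ 2 ∂P := by
        intro J
        have hm : Measurable fun p : (V → UI) × (V × ℕ → UI) =>
            ((T μ ε p.1 J p.2 (g i.1, i.2) : ℝ) - W0 (g i.1, i.2) p) ^ 2 :=
          ((measurable_subtype_coe.comp (hTm J _)).sub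
            (measurable_subtype_coe.comp (hW0m _))).pow_const 2
        conv_lhs => rw [hP, ← hact.map_eq]
        rw [integral_map hact.measurable.aemeasurable hm.aestronglyMeasurable]
      -- along the images of finite sets
      have h3 : Tendsto (fun J : Finset (V × ℕ) => J.map (idxEquiv g.toEquiv).toEmbedding)
          atTop atTop := by
        rw [Filter.tendsto_atTop]
        intro K
        filter_upwards [eventually_ge_atTop (K.map (idxEquiv g.toEquiv).symm.toEmbedding)]
          with J hJ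
        intro k hk
        rw [Finset.mem_map]
        refine ⟨(idxEquiv g.toEquiv).symm k, hJ (Finset.mem_map.2 ⟨k, hk, rfl⟩), ?_⟩
        simp
      have h4 := h1.comp h3
      have h5 : Tendsto (fun J : Finset (V × ℕ) => ∫ p, ((T μ ε p.1 J p.2 i : ℝ) -
          W0 (g i.1, i.2) (act g.toEquiv p)) ^ 2 ∂P) atTop (𝓝 0) := by
        refine h4.congr fun J => ?_
        simp only [Function.comp_apply]
        rw [h2]
        congr 1
        funext p
        have h6 := T_equivariant μ (ε := ε) g.toEquiv hg p.1 J p.2 i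
        have h7 : T μ ε (act g.toEquiv p).1 (J.map (idxEquiv g.toEquiv).toEmbedding)
            (act g.toEquiv p).2 (g i.1, i.2) = T μ ε p.1 J p.2 i := h6
        rw [h7]
      exact limit_unique P (fun J p => T μ ε p.1 J p.2 i) (fun J => hTm J i)
        (fun p => W0 (g i.1, i.2) (act g.toEquiv p)) (W0 i)
        ((hW0m _).comp hact.measurable) (hW0m i) h5 (hW0 i)
    have hall : ∀ᵐ p ∂P, ∀ i : V × ℕ, W0 (g i.1, i.2) (act g.toEquiv p) = W0 i p :=
      ae_all_iff.2 hi
    filter_upwards [hall] with p hp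
    funext i
    have h8 := hp (g.symm i.1, i.2)
    simp only [RelIso.apply_symm_apply] at h8
    exact h8
  -- encode everything in one label per vertex
  obtain ⟨E, hEm, hE⟩ := exists_encode (V := V)
  set Ψ : (V → UI) → (V → UI) × (V × ℕ → UI) := fun U =>
    ((fun v => E (U v) 0 : V → UI), (fun i => E (U i.1) (i.2 + 1) : V × ℕ → UI)) with hΨ
  have hΨm : Measurable Ψ := by
    refine Measurable.prodMk ?_ ?_
    · exact measurable_pi_lambda _ fun v =>
        (measurable_pi_apply 0).comp (hEm.comp (measurable_pi_apply v))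
    · exact measurable_pi_lambda _ fun i =>
        (measurable_pi_apply (i.2 + 1)).comp (hEm.comp (measurable_pi_apply i.1))
  have hΨp : MeasurePreserving Ψ (iid V) P := ⟨hΨm, hE⟩
  refine ⟨dec ∘ W ∘ Ψ, hdecm.comp (hWm.comp hΨm), ?_, ?_⟩
  · intro g
    have h9 := hΨp.quasiMeasurePreserving.ae (hequiv g)
    filter_upwards [h9] with U hU
    have h10 : Ψ (fun v => U (g.symm v)) = act g.toEquiv (Ψ U) := rfl
    simp only [Function.comp_apply]
    rw [h10, hU]
  · have : (iid V).map (dec ∘ W ∘ Ψ) = ((iid V).map Ψ).map (dec ∘ W) := by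
      rw [Measure.map_map (hdecm.comp hWm) hΨm]
      rfl
    rw [this, hΨp.map_eq, hlaw0]

/-- Free Ising states below the critical value are factors of IID. -/
theorem fiid_of_subcritical (G : SimpleGraph V) {b : ℕ} (hb : 2 ≤ b)
    (hG : IsRegularTree G (b + 1)) {θ : ℝ} (h0 : 0 ≤ θ) (h1 : (b : ℝ) * θ ^ 2 < 1) :
    ∃ μ : Measure (V → Bool), IsProbabilityMeasure μ ∧ IsFreeIsing G θ μ ∧
      (∀ ν : Measure (V → Bool), IsFreeIsing G θ ν → ν = μ) ∧ IsFactorOfIID G μ := by
  have hcount : Countable V := tree_countable hG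
  have hb0 : (2 : ℝ) ≤ b := by exact_mod_cast hb
  have hb1 : (0 : ℝ) < b := by linarith
  have hsb : 0 < Real.sqrt b := Real.sqrt_pos.2 hb1
  -- choice of `θ'`
  have hθ1 : θ < 1 / Real.sqrt b := by
    rw [lt_div_iff₀ hsb]
    have h2 : (θ * Real.sqrt b) ^ 2 < 1 ^ 2 := by
      rw [mul_pow, Real.sq_sqrt hb1.le]
      linarith
    exact lt_of_pow_lt_pow_left₀ 2 (by norm_num) h2
  obtain ⟨θ', h2, h3⟩ := exists_between hθ1
  have hθ' : 0 ≤ θ' := h0.trans h2.le
  have h4 : (b : ℝ) * θ' ^ 2 < 1 := by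
    rw [lt_div_iff₀ hsb] at h3
    have h5 : (θ' * Real.sqrt b) ^ 2 < 1 ^ 2 :=
      pow_lt_pow_left₀ h3 (by positivity) (by norm_num)
    rw [mul_pow, Real.sq_sqrt hb1.le] at h5
    linarith
  have hθlt : θ < 1 := by nlinarith
  obtain ⟨μ, hμp, hμ⟩ := exists_freeIsing (d := b + 1) (by omega) hG h0 hθlt
  obtain ⟨C, hC, hK⟩ := tree_kernel hb hG h0 h2 h4
  -- choice of `ε`
  obtain ⟨ε, hε0, hε1, hsmall⟩ : ∃ ε : ℝ, 0 < ε ∧ ε < 1 ∧
      ε ^ 2 / (2 * (1 - ε) ^ 3) * C ≤ 1 / 2 := by
    refine ⟨1 / (4 * (C + 1)), by positivity, ?_, ?_⟩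
    · rw [div_lt_one (by positivity)]
      linarith
    · set e : ℝ := 1 / (4 * (C + 1)) with he
      have he0 : 0 < e := by positivity
      have he1 : e ≤ 1 / 4 := by
        rw [he, div_le_div_iff₀ (by positivity) (by norm_num)]
        linarith
      have he2 : e * C ≤ 1 / 4 := by
        rw [he, one_div_mul_eq_div, div_le_div_iff₀ (by positivity) (by norm_num)]
        linarith
      have h5 : (27 / 64 : ℝ) ≤ (1 - e) ^ 3 := by
        have : (3 / 4 : ℝ) ≤ 1 - e := by linarith
        calc (27 / 64 : ℝ) = (3 / 4) ^ 3 := by norm_num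
          _ ≤ (1 - e) ^ 3 := pow_le_pow_left₀ (by norm_num) this 3
      rw [div_mul_eq_mul_div, div_le_iff₀ (by positivity)]
      nlinarith
  have hinv : ∀ g : G ≃g G, μ.map (fun σ v => σ (g.symm v)) = μ := fun g =>
    freeIsing_unique hG.1 (freeIsing_map hμ g) hμ
  refine ⟨μ, hμp, hμ, fun ν hν => freeIsing_unique hG.1 hν hμ, ?_⟩
  apply fiid_core G μ hε0 hε1 _ hinv
  intro τ hτ i δ hδ
  apply T_cauchy μ hε0 hε1 G hθ' (fun x => tree_summable hb hG hθ' h4 x) hτ _ i hδ
  intro _ J u j₀ a i
  exact T_influence μ G hε0 hε1 h0 h2 hC hK (pm_influence hG.1 h0 hθlt hμ hε0 hε1) hsmall τ J u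
    j₀ a i

end Vale.Agent.H16.FIID
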