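import Vale.Agent.H16.FIID.Defs
/-! M1: the quantile function `qt a` and the distribution function `cd a` (density `1+a(2w-1)`). -/
open MeasureTheory
namespace Vale.Agent.H16.FIID

theorem measurable_qt : Measurable fun p : ℝ × UI => qt p.1 p.2 := by
  unfold qt qtR
  refine (continuous_projIcc.measurable).comp ?_
  have h2 : Measurable fun p : ℝ × UI => (p.2 : ℝ) := measurable_subtype_coe.comp measurable_snd
  have h1 : Measurable fun p : ℝ × UI => p.1 := measurable_fst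
  have hs : Measurable fun p : ℝ × UI => Real.sqrt ((1 - p.1) ^ 2 + 4 * p.1 * (p.2 : ℝ)) :=
    Real.continuous_sqrt.measurable.comp (by fun_prop)
  fun_prop

theorem measurable_cd : Measurable fun p : ℝ × UI => cd p.1 p.2 := by
  unfold cd cdR
  refine (continuous_projIcc.measurable).comp ?_
  have h2 : Measurable fun p : ℝ × UI => (p.2 : ℝ) := measurable_subtype_coe.comp measurable_snd
  have h1 : Measurable fun p : ℝ × UI => p.1 := measurable_fst
  fun_prop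

theorem cdR_mem {a : ℝ} (ha : |a| < 1) {w : ℝ} (h0 : 0 ≤ w) (h1 : w ≤ 1) :
    cdR a w ∈ Set.Icc (0 : ℝ) 1 := by
  rw [abs_lt] at ha
  unfold cdR
  have h2 : 0 ≤ w * (1 - w) := mul_nonneg h0 (by linarith)
  constructor <;> nlinarith

theorem coe_cd {a : ℝ} (ha : |a| < 1) (w : UI) : (cd a w : ℝ) = cdR a w := by
  unfold cd
  rw [Set.projIcc_of_mem _ (cdR_mem ha w.2.1 w.2.2)]

theorem disc_pos {a : ℝ} (ha : |a| < 1) {u : ℝ} (h0 : 0 ≤ u) (h1 : u ≤ 1) :
    0 < (1 - a) ^ 2 + 4 * a * u := by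
  rw [abs_lt] at ha
  rcases le_total 0 a with h | h
  · have : 0 ≤ a * u := mul_nonneg h h0
    nlinarith
  · nlinarith [mul_nonneg (neg_nonneg.mpr h) (sub_nonneg.mpr h1)]

theorem qtR_spec {a : ℝ} (ha : |a| < 1) {u : ℝ} (h0 : 0 ≤ u) (h1 : u ≤ 1) :
    qtR a u ∈ Set.Icc (0 : ℝ) 1 ∧ cdR a (qtR a u) = u := by
  have hD := disc_pos ha h0 h1
  have ha' := abs_lt.mp ha
  unfold qtR
  set s := Real.sqrt ((1 - a) ^ 2 + 4 * a * u) with hs
  have hs0 : 0 < s := Real.sqrt_pos.mpr hD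
  have hs2 : s ^ 2 = (1 - a) ^ 2 + 4 * a * u := Real.sq_sqrt hD.le
  have hden : 0 < (1 - a) + s := by linarith
  refine ⟨⟨by positivity, ?_⟩, ?_⟩
  · rw [div_le_one hden]
    by_contra hc
    push Not at hc
    have h2 : s < 2 * u - (1 - a) := by linarith
    have h3 : s ^ 2 < (2 * u - (1 - a)) ^ 2 := by
      apply pow_lt_pow_left₀ h2 hs0.le (by norm_num)
    rw [hs2] at h3
    nlinarith [mul_nonneg h0 (sub_nonneg.mpr h1)]
  · unfold cdR
    have h4 : 2 * u / ((1 - a) + s) - a * (2 * u / ((1 - a) + s)) * (1 - 2 * u / ((1 - a) + s)) - u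
        = u * (s ^ 2 - ((1 - a) ^ 2 + 4 * a * u)) * (-1) / ((1 - a) + s) ^ 2 := by
      field_simp
      ring
    rw [hs2, sub_self, mul_zero, zero_mul, zero_div] at h4
    linarith

theorem coe_qt {a : ℝ} (ha : |a| < 1) (u : UI) : (qt a u : ℝ) = qtR a u := by
  unfold qt
  rw [Set.projIcc_of_mem _ (qtR_spec ha u.2.1 u.2.2).1]

theorem cd_qt {a : ℝ} (ha : |a| < 1) (u : UI) : cd a (qt a u) = u := by
  apply Subtype.ext
  rw [coe_cd ha, coe_qt ha]
  exact (qtR_spec ha u.2.1 u.2.2).2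

/-- the distribution function expands distances by at least `1 - ε` -/
theorem cdR_expand {ε a : ℝ} (ha : |a| ≤ ε) {w w' : ℝ} (h0 : 0 ≤ w) (h1 : w ≤ 1)
    (h0' : 0 ≤ w') (h1' : w' ≤ 1) : (1 - ε) * |w - w'| ≤ |cdR a w - cdR a w'| := by
  have e : cdR a w - cdR a w' = (w - w') * (1 - a + a * (w + w')) := by
    unfold cdR; ring
  rw [abs_le] at ha
  have h2 : 1 - ε ≤ 1 - a + a * (w + w') := by
    rcases le_total 0 a with h | h
    · nlinarith [mul_nonneg h (add_nonneg h0 h0')]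
    · nlinarith [mul_nonneg (neg_nonneg.mpr h) (by linarith : 0 ≤ 2 - (w + w'))]
  rw [e, abs_mul, mul_comm (1 - ε)]
  apply mul_le_mul_of_nonneg_left _ (abs_nonneg _)
  exact h2.trans (le_abs_self _)

theorem qt_cd {a : ℝ} (ha : |a| < 1) (w : UI) : qt a (cd a w) = w := by
  have h := cdR_expand (a := a) le_rfl (qt a (cd a w)).2.1 (qt a (cd a w)).2.2 w.2.1 w.2.2
  rw [← coe_cd ha, ← coe_cd ha, cd_qt ha, sub_self, abs_zero] at h
  have h1 : 0 < 1 - |a| := by linarith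
  have h2 : |((qt a (cd a w) : UI) : ℝ) - w| ≤ 0 := by
    by_contra hc
    push Not at hc
    have := mul_pos h1 hc
    linarith
  have h3 := abs_nonpos_iff.mp h2
  exact Subtype.ext (by linarith)

theorem abs_qt_sub_le {ε a : ℝ} (hε : ε < 1) (ha : |a| ≤ ε) (u u' : UI) :
    |(qt a u : ℝ) - qt a u'| ≤ |(u : ℝ) - u'| / (1 - ε) := by
  have ha1 : |a| < 1 := ha.trans_lt hε
  have h := cdR_expand ha (qt a u).2.1 (qt a u).2.2 (qt a u').2.1 (qt a u').2.2
  rw [← coe_cd ha1, ← coe_cd ha1, cd_qt ha1, cd_qt ha1] at h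
  rw [le_div_iff₀ (by linarith)]
  linarith

theorem abs_qt_sub_le' {ε a a' : ℝ} (hε : ε < 1) (ha : |a| ≤ ε) (ha' : |a'| ≤ ε) (u : UI) :
    |(qt a u : ℝ) - qt a' u| ≤ |a - a'| / (4 * (1 - ε)) := by
  have ha1 : |a| < 1 := ha.trans_lt hε
  have ha1' : |a'| < 1 := ha'.trans_lt hε
  have h := cdR_expand ha (qt a u).2.1 (qt a u).2.2 (qt a' u).2.1 (qt a' u).2.2
  have e1 : cdR a (qt a u) = u := by rw [← coe_cd ha1, cd_qt ha1]
  have e2 : cdR a' (qt a' u) = u := by rw [← coe_cd ha1', cd_qt ha1']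
  set w' : ℝ := (qt a' u : ℝ) with hw'
  have h0 : 0 ≤ w' := (qt a' u).2.1
  have h1 : w' ≤ 1 := (qt a' u).2.2
  have e3 : cdR a (qt a u) - cdR a w' = (a - a') * (w' * (1 - w')) := by
    rw [e1, ← e2]; unfold cdR; ring
  have h2 : 0 ≤ w' * (1 - w') := mul_nonneg h0 (by linarith)
  have h3 : w' * (1 - w') ≤ 1 / 4 := by nlinarith [sq_nonneg (w' - 1 / 2)]
  rw [e3, abs_mul, abs_of_nonneg h2] at h
  rw [le_div_iff₀ (by linarith)]
  nlinarith [abs_nonneg (a - a')]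

theorem abs_cd_sub_le {a a' : ℝ} (ha : |a| < 1) (ha' : |a'| < 1) (w : UI) :
    |(cd a w : ℝ) - cd a' w| ≤ |a - a'| / 4 := by
  rw [coe_cd ha, coe_cd ha']
  have h0 : 0 ≤ (w : ℝ) := w.2.1
  have h1 : (w : ℝ) ≤ 1 := w.2.2
  have e3 : cdR a w - cdR a' w = -((a - a') * ((w : ℝ) * (1 - w))) := by
    unfold cdR; ring
  have h2 : 0 ≤ (w : ℝ) * (1 - w) := mul_nonneg h0 (by linarith)
  have h3 : (w : ℝ) * (1 - w) ≤ 1 / 4 := by nlinarith [sq_nonneg ((w : ℝ) - 1 / 2)]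
  rw [e3, abs_neg, abs_mul, abs_of_nonneg h2]
  nlinarith [abs_nonneg (a - a')]

/-- integrals over `UI` as set integrals -/
theorem integral_UI (g : ℝ → ℝ) : ∫ u : UI, g u = ∫ x in Set.Icc (0 : ℝ) 1, g x := by
  rw [unitInterval.volume_def]
  exact integral_subtype_comap measurableSet_Icc g

/-- the law of `qt a u`, `u` uniform, has density `1 + a(2w-1)` -/
theorem integral_qt {a : ℝ} (ha : |a| < 1) {f : UI → ℝ} (hf : Measurable f)
    (hb : ∃ C, ∀ x, |f x| ≤ C) :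
    ∫ u, f (qt a u) = ∫ w : UI, (1 + a * (2 * (w : ℝ) - 1)) * f w := by
  have ha' := abs_lt.mp ha
  set g : ℝ → ℝ := fun x => f (qt a (Set.projIcc 0 1 zero_le_one x)) with hg
  have h1 : ∫ u, f (qt a u) = ∫ x in Set.Icc (0 : ℝ) 1, g x := by
    rw [← integral_UI]
    refine integral_congr_ae (Filter.Eventually.of_forall fun u => ?_)
    simp only [hg, Set.projIcc_val]
  have himg : cdR a '' Set.Icc (0 : ℝ) 1 = Set.Icc (0 : ℝ) 1 := by
    ext u
    constructor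
    · rintro ⟨w, hw, rfl⟩
      exact cdR_mem ha hw.1 hw.2
    · intro hu
      exact ⟨qtR a u, (qtR_spec ha hu.1 hu.2).1, (qtR_spec ha hu.1 hu.2).2⟩
  have hinj : Set.InjOn (cdR a) (Set.Icc (0 : ℝ) 1) := by
    intro w hw w' hw' h
    have := cdR_expand (a := a) le_rfl hw.1 hw.2 hw'.1 hw'.2
    rw [h, sub_self, abs_zero] at this
    have h1 : 0 < 1 - |a| := by linarith
    by_contra hne
    have := mul_pos h1 (abs_pos.mpr (sub_ne_zero.mpr hne))
    linarith
  have hder : ∀ x ∈ Set.Icc (0 : ℝ) 1, HasDerivWithinAt (cdR a) (1 + a * (2 * x - 1))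
      (Set.Icc (0 : ℝ) 1) x := by
    intro x _
    have h : HasDerivAt (fun w : ℝ => w - a * w * (1 - w))
        (1 - (a * 1 * (1 - x) + a * x * (0 - 1))) x :=
      (hasDerivAt_id' x).sub ((((hasDerivAt_id' x).const_mul a).mul
        ((hasDerivAt_const x (1 : ℝ)).sub (hasDerivAt_id' x))))
    have h2 : HasDerivAt (cdR a) (1 + a * (2 * x - 1)) x := by
      refine h.congr_deriv ?_
      ring
    exact h2.hasDerivWithinAt
  have h2 := integral_image_eq_integral_abs_deriv_smul measurableSet_Icc hder hinj g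
  rw [himg] at h2
  rw [h1, h2]
  have h3 : ∫ w : UI, (1 + a * (2 * (w : ℝ) - 1)) * f w =
      ∫ w : UI, (fun x : ℝ => (1 + a * (2 * x - 1)) * f (Set.projIcc 0 1 zero_le_one x)) w := by
    refine integral_congr_ae (Filter.Eventually.of_forall fun u => ?_)
    simp only [Set.projIcc_val]
  rw [h3, integral_UI (fun x : ℝ => (1 + a * (2 * x - 1)) * f (Set.projIcc 0 1 zero_le_one x))]
  refine setIntegral_congr_fun measurableSet_Icc fun x hx => ?_
  simp only [smul_eq_mul, hg]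
  have h4 : 0 < 1 + a * (2 * x - 1) := by
    rcases le_total 0 a with h | h
    · nlinarith [mul_nonneg h hx.1]
    · nlinarith [mul_nonneg (neg_nonneg.mpr h) (sub_nonneg.mpr hx.2)]
  rw [abs_of_pos h4, Set.projIcc_of_mem zero_le_one (cdR_mem ha hx.1 hx.2),
    Set.projIcc_of_mem zero_le_one hx]
  congr 2
  have := qt_cd ha ⟨x, hx⟩
  unfold cd at this
  rwa [Set.projIcc_of_mem zero_le_one (cdR_mem ha hx.1 hx.2)] at this

theorem integral_Icc_poly (g G : ℝ → ℝ) (hg : Continuous g) (hG : ∀ x, HasDerivAt G (g x) x) :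
    ∫ u : UI, g u = G 1 - G 0 := by
  rw [integral_UI, integral_Icc_eq_integral_Ioc, ← intervalIntegral.integral_of_le zero_le_one]
  exact intervalIntegral.integral_eq_sub_of_hasDerivAt (fun x _ => hG x) (hg.intervalIntegrable _ _)

theorem integral_dens (a : ℝ) : ∫ w : UI, (1 + a * (2 * (w : ℝ) - 1)) = 1 := by
  rw [integral_Icc_poly (fun x => 1 + a * (2 * x - 1)) (fun x => x + a * (x ^ 2 - x)) (by fun_prop)]
  · norm_num
  · intro x
    have h : HasDerivAt (fun x : ℝ => x + a * (x ^ 2 - x)) (1 + a * (((2 : ℕ) : ℝ) * x ^ (2 - 1) - 1)) x :=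
      (hasDerivAt_id' x).add (((hasDerivAt_pow 2 x).sub (hasDerivAt_id' x)).const_mul a)
    refine h.congr_deriv ?_
    norm_num

theorem integral_qt_val {a : ℝ} (ha : |a| < 1) : ∫ u : UI, (qt a u : ℝ) = 1 / 2 + a / 6 := by
  rw [integral_qt ha (f := fun w : UI => (w : ℝ)) measurable_subtype_coe
    ⟨1, fun x => by rw [abs_le]; exact ⟨by linarith [x.2.1], x.2.2⟩⟩]
  rw [integral_Icc_poly (fun x => (1 + a * (2 * x - 1)) * x)
    (fun x => x ^ 2 / 2 + a * (2 / 3 * x ^ 3 - x ^ 2 / 2)) (by fun_prop)]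
  · norm_num; ring
  · intro x
    have h2 : HasDerivAt (fun x : ℝ => x ^ 2 / 2) (((2 : ℕ) : ℝ) * x ^ (2 - 1) / 2) x :=
      (hasDerivAt_pow 2 x).div_const 2
    have h3 : HasDerivAt (fun x : ℝ => 2 / 3 * x ^ 3) (2 / 3 * (((3 : ℕ) : ℝ) * x ^ (3 - 1))) x :=
      (hasDerivAt_pow 3 x).const_mul _
    have h := h2.add ((h3.sub h2).const_mul a)
    refine h.congr_deriv ?_
    norm_num
    ring

end Vale.Agent.H16.FIID
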