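import Vale.Agent.H16.FIID.Defs
import Vale.Agent.H8.IsingLeaf
/-! M4a: the tree Markov property in the form: integrate out one spin across an edge. -/
open MeasureTheory
namespace Vale.Agent.H16.FIID
variable {V : Type} {G : SimpleGraph V}

open Vale.Agent.H8.IsingAux

/-- the one-edge averaging operator -/
noncomputable def edgeAvg (θ : ℝ) (g : Bool → ℝ) (s : Bool) : ℝ :=
  (1 + θ * sgn s) / 2 * g true + (1 - θ * sgn s) / 2 * g false

/-- If `F` depends only on the spins in a finite set `A` of vertices that are strictly closer to `p`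
than to `l` (`l ~ p`), then `σ_l` can be integrated out.
Proof idea: take a finite connected `D ⊇ A ∪ {p}` on the `p`-side (union of geodesics from `p`);
`D ∪ {l}` is connected with one more edge `{l,p}`; sum over the configurations of `D`. -/
theorem leaf_integration (hG : G.IsTree) {θ : ℝ} (h0 : 0 ≤ θ) (h1 : θ < 1)
    {μ : Measure (V → Bool)} [IsProbabilityMeasure μ] (hμ : IsFreeIsing G θ μ)
    {l p : V} (hlp : G.Adj l p) (A : Finset V) (hA : ∀ a ∈ A, G.dist p a < G.dist l a)
    (F : (V → Bool) → ℝ) (hF : ∀ σ σ' : V → Bool, (∀ a ∈ A, σ a = σ' a) → F σ = F σ')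
    (g : Bool → ℝ) :
    ∫ σ, g (σ l) * F σ ∂μ = ∫ σ, edgeAvg θ g (σ p) * F σ ∂μ := by
  classical
  obtain ⟨D, hAD, hpD, hlD, hDc, hDc'⟩ := exists_side hG hlp A hA
  have hi1 : Integrable (fun σ : V → Bool => g (σ l) * F σ) μ := by
    apply integrable_of_dep (insert l A)
    intro σ σ' h
    rw [h l (by simp), hF σ σ' (fun a ha => h a (by simp [ha]))]
  have hi2 : Integrable (fun σ : V → Bool => edgeAvg θ g (σ p) * F σ) μ := by
    apply integrable_of_dep (insert p A)
    intro σ σ' h
    rw [h p (by simp), hF σ σ' (fun a ha => h a (by simp [ha]))]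
  rw [integral_cyl_sum D _ hi1, integral_cyl_sum D _ hi2]
  refine Finset.sum_congr rfl fun c _ => ?_
  set η : V → Bool := ext c with hη
  have hms := measurableSet_cyl D η
  have e1 : ∫ σ in cyl D η, g (σ l) * F σ ∂μ = (∫ σ in cyl D η, g (σ l) ∂μ) * F η := by
    rw [← integral_mul_const]
    apply setIntegral_congr_fun hms
    intro σ hσ
    simp only
    rw [hF σ η (fun a ha => hσ a (hAD ha))]
  have e2 : ∫ σ in cyl D η, edgeAvg θ g (σ p) * F σ ∂μ
      = (μ.real (cyl D η) * edgeAvg θ g (η p)) * F η := by
    have : ∫ σ in cyl D η, edgeAvg θ g (σ p) * F σ ∂μ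
        = ∫ σ in cyl D η, edgeAvg θ g (η p) * F η ∂μ := by
      apply setIntegral_congr_fun hms
      intro σ hσ
      simp only
      rw [hF σ η (fun a ha => hσ a (hAD ha)), hσ p hpD]
    rw [this, setIntegral_const, smul_eq_mul]; ring
  rw [e1, e2]
  congr 1
  -- split according to the value at `l`
  have hcyl : ∀ b : Bool, cyl D η ∩ {σ | σ l = b} = cyl (insert l D) (Function.update η l b) := by
    intro b
    ext σ
    simp only [cyl, Set.mem_inter_iff, Set.mem_ofPred_eq, Finset.mem_insert, forall_eq_or_imp,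
      Function.update_self]
    constructor
    · rintro ⟨h2, h3⟩
      refine ⟨h3, fun v hv => ?_⟩
      rw [Function.update_of_ne (show v ≠ l from fun h => hlD (h ▸ hv))]
      exact h2 v hv
    · rintro ⟨h3, h2⟩
      refine ⟨fun v hv => ?_, h3⟩
      have := h2 v hv
      rwa [Function.update_of_ne (show v ≠ l from fun h => hlD (h ▸ hv))] at this
  have hm : ∀ b : Bool, μ.real (cyl D η ∩ {σ | σ l = b})
      = (1 + θ * (sgn b * sgn (η p))) / 2 * μ.real (cyl D η) := by
    intro b
    have hpl : p ≠ l := fun h => hlD (h ▸ hpD)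
    have hnn : 0 ≤ (1 + θ * (sgn b * sgn (η p))) / 2 := by
      simp only [sgn]
      cases b <;> cases η p <;> simp <;> linarith
    rw [hcyl, measureReal_def, cyl_insert hG h0 h1 hμ hlp hpD hlD hDc hDc',
      Function.update_self, Function.update_of_ne hpl, ENNReal.toReal_mul,
      ENNReal.toReal_ofReal hnn, measureReal_def]
    congr 2
    unfold cyl
    apply congrArg
    ext σ
    simp only [Set.mem_ofPred_eq]
    constructor
    · intro h v hv
      have := h v hv
      rwa [Function.update_of_ne (show v ≠ l from fun h => hlD (h ▸ hv))] at this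
    · intro h v hv
      rw [Function.update_of_ne (show v ≠ l from fun h => hlD (h ▸ hv))]
      exact h v hv
  have hms2 : MeasurableSet {σ : V → Bool | σ l = true} := by
    have h3 : MeasurableSet ((fun σ : V → Bool => σ l) ⁻¹' {true}) :=
      measurable_pi_apply l (measurableSet_singleton true)
    exact h3
  have hig : Integrable (fun σ : V → Bool => g (σ l)) μ := by
    apply integrable_of_dep {l}
    intro σ σ' h
    rw [h l (by simp)]
  have hcompl : cyl D η \ {σ : V → Bool | σ l = true} = cyl D η ∩ {σ | σ l = false} := by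
    ext σ
    simp
  rw [← integral_inter_add_sdiff (s := cyl D η) hms2 hig.integrableOn, hcompl]
  have f1 : ∫ σ in cyl D η ∩ {σ | σ l = true}, g (σ l) ∂μ
      = μ.real (cyl D η ∩ {σ | σ l = true}) * g true := by
    have : ∫ σ in cyl D η ∩ {σ | σ l = true}, g (σ l) ∂μ
        = ∫ σ in cyl D η ∩ {σ | σ l = true}, g true ∂μ := by
      apply setIntegral_congr_fun (hms.inter hms2)
      intro σ hσ
      simp only
      rw [hσ.2]
    rw [this, setIntegral_const, smul_eq_mul]
  have f2 : ∫ σ in cyl D η ∩ {σ | σ l = false}, g (σ l) ∂μ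
      = μ.real (cyl D η ∩ {σ | σ l = false}) * g false := by
    have hms3 : MeasurableSet (cyl D η ∩ {σ | σ l = false}) := by
      rw [← hcompl]; exact hms.diff hms2
    have : ∫ σ in cyl D η ∩ {σ | σ l = false}, g (σ l) ∂μ
        = ∫ σ in cyl D η ∩ {σ | σ l = false}, g false ∂μ := by
      apply setIntegral_congr_fun hms3
      intro σ hσ
      simp only
      rw [hσ.2]
    rw [this, setIntegral_const, smul_eq_mul]
  rw [f1, f2, hm, hm]
  simp only [edgeAvg, sgn]
  cases η p <;> simp <;> ring

end Vale.Agent.H16.FIID
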