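import Vale.Agent.H16.FIID.Defs
/-! M5: Efron–Stein type coupling lemma on finite products. -/
open MeasureTheory
namespace Vale.Agent.H16.FIID

section efron
variable {κ : Type*} [Fintype κ] [DecidableEq κ]

/-- Lipschitz constants, coordinate by coordinate -/
def LipC (F : (κ → UI) → ℝ) (l : κ → ℝ) : Prop :=
  ∀ (u : κ → UI) (j : κ) (a : UI), |F (Function.update u j a) - F u| ≤ l j * |(a : ℝ) - u j|

theorem abs_ui_sub_le (a b : UI) : |(a : ℝ) - b| ≤ 1 := by
  have h1 := a.2.1
  have h2 := a.2.2
  have h3 := b.2.1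
  have h4 := b.2.2
  rw [abs_le]; constructor <;> linarith

theorem LipC.piecewise_le {F : (κ → UI) → ℝ} {l : κ → ℝ} (hF : LipC F l) (u u' : κ → UI)
    (s : Finset κ) : |F (s.piecewise u u') - F u'| ≤ ∑ j ∈ s, l j * |(u j : ℝ) - u' j| := by
  classical
  induction s using Finset.induction_on with
  | empty => simp
  | insert j s hj ih =>
    rw [Finset.piecewise_insert, Finset.sum_insert hj]
    have h1 := hF (s.piecewise u u') j (u j)
    rw [Finset.piecewise_eq_of_notMem _ _ _ hj] at h1
    have h2 : F (Function.update (s.piecewise u u') j (u j)) - F u' =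
      (F (Function.update (s.piecewise u u') j (u j)) - F (s.piecewise u u')) +
        (F (s.piecewise u u') - F u') := by ring
    rw [h2]
    exact (abs_add_le _ _).trans (add_le_add h1 ih)

theorem LipC.sub_le {F : (κ → UI) → ℝ} {l : κ → ℝ} (hF : LipC F l) (u u' : κ → UI) :
    |F u - F u'| ≤ ∑ j, l j * |(u j : ℝ) - u' j| := by
  have := hF.piecewise_le u u' Finset.univ
  rwa [Finset.piecewise_univ] at this

theorem LipC.bdd {F : (κ → UI) → ℝ} {l : κ → ℝ} (hl : ∀ j, 0 ≤ l j) (hF : LipC F l) :
    ∀ u, |F u| ≤ |F 0| + ∑ j, l j := by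
  intro u
  have h1 := hF.sub_le u 0
  have h2 : ∑ j, l j * |(u j : ℝ) - ((0 : κ → UI) j : ℝ)| ≤ ∑ j, l j :=
    Finset.sum_le_sum fun j _ => mul_le_of_le_one_right (hl j) (abs_ui_sub_le _ _)
  have h3 := abs_sub_abs_le_abs_sub (F u) (F 0)
  linarith

/-- product measure -/
noncomputable def piv (κ : Type*) [Fintype κ] : Measure (κ → UI) :=
  Measure.pi fun _ : κ => (volume : Measure UI)

instance : IsProbabilityMeasure (piv κ) := by unfold piv; infer_instance

theorem measurable_upd (j : κ) :
    Measurable fun p : (κ → UI) × UI => Function.update p.1 j p.2 := by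
  rw [measurable_pi_iff]
  intro i
  by_cases h : i = j
  · subst h
    simpa using measurable_snd
  · simp only [Function.update_of_ne h]
    exact (measurable_pi_apply i).comp measurable_fst

theorem map_upd (j : κ) :
    ((piv κ).prod (volume : Measure UI)).map (fun p => Function.update p.1 j p.2) = piv κ := by
  unfold piv
  symm
  apply Measure.pi_eq
  intro s hs
  rw [Measure.map_apply (measurable_upd j) (MeasurableSet.univ_pi hs)]
  have h1 : (fun p : (κ → UI) × UI => Function.update p.1 j p.2) ⁻¹' (Set.univ.pi s) =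
      (Set.univ.pi (Function.update s j Set.univ)) ×ˢ (s j) := by
    ext ⟨u, a⟩
    simp only [Set.mem_preimage, Set.mem_univ_pi, Set.mem_prod]
    constructor
    · intro h
      refine ⟨fun i => ?_, by simpa using h j⟩
      by_cases hi : i = j
      · subst hi; simp
      · have := h i
        rw [Function.update_of_ne hi] at this ⊢
        exact this
    · rintro ⟨h1, h2⟩ i
      by_cases hi : i = j
      · subst hi; simpa using h2
      · have := h1 i
        rw [Function.update_of_ne hi] at this ⊢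
        exact this
  rw [h1, Measure.prod_prod, Measure.pi_pi]
  rw [← Finset.mul_prod_erase _ _ (Finset.mem_univ j), ← Finset.mul_prod_erase Finset.univ
    (fun i => volume (s i)) (Finset.mem_univ j)]
  simp only [Function.update_self, measure_univ, one_mul]
  rw [mul_comm]
  congr 1
  refine Finset.prod_congr rfl fun i hi => ?_
  rw [Function.update_of_ne (Finset.ne_of_mem_erase hi)]

/-- average over one coordinate -/
noncomputable def av (F : (κ → UI) → ℝ) (j : κ) (u : κ → UI) : ℝ :=
  ∫ a : UI, F (Function.update u j a)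

theorem integrable_of_bdd {Ω : Type*} [MeasurableSpace Ω] (P : Measure Ω) [IsFiniteMeasure P]
    {f : Ω → ℝ} (hf : Measurable f) {C : ℝ} (hC : ∀ x, |f x| ≤ C) : Integrable f P :=
  Integrable.of_bound hf.aestronglyMeasurable C (Filter.Eventually.of_forall fun x => by
    rw [Real.norm_eq_abs]; exact hC x)

theorem measurable_av {F : (κ → UI) → ℝ} (hF : Measurable F) (j : κ) : Measurable (av F j) := by
  unfold av
  exact ((hF.comp (measurable_upd j)).stronglyMeasurable.integral_prod_right').measurable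

theorem lip_av {F : (κ → UI) → ℝ} (hFm : Measurable F) {l : κ → ℝ} (hl : ∀ j, 0 ≤ l j)
    (hF : LipC F l) (j : κ) : LipC (av F j) (fun i => if i = j then 0 else l i) := by
  intro u i a
  have hb := hF.bdd hl
  have hint : ∀ u : κ → UI, Integrable (fun a : UI => F (Function.update u j a)) volume := fun u =>
    integrable_of_bdd _ (hFm.comp ((measurable_upd j).comp (measurable_const.prodMk measurable_id)))
      fun _ => hb _
  by_cases h : i = j
  · subst h
    simp only [if_true, zero_mul]
    unfold av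
    simp
  · simp only [h, if_false]
    unfold av
    rw [← integral_sub (hint _) (hint _)]
    have h1 : ∀ b : UI, |F (Function.update (Function.update u i a) j b) -
        F (Function.update u j b)| ≤ l i * |(a : ℝ) - u i| := by
      intro b
      have := hF (Function.update u j b) i a
      rw [Function.update_comm h] 
      rw [Function.update_of_ne h] at this
      exact this
    have h2 := norm_integral_le_of_norm_le_const (μ := (volume : Measure UI))
      (f := fun b => F (Function.update (Function.update u i a) j b) -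
        F (Function.update u j b)) (C := l i * |(a : ℝ) - u i|)
      (Filter.Eventually.of_forall fun b => by rw [Real.norm_eq_abs]; exact h1 b)
    simpa using h2

theorem sub_av_le {F : (κ → UI) → ℝ} (hFm : Measurable F) {l : κ → ℝ} (hl : ∀ j, 0 ≤ l j)
    (hF : LipC F l) (j : κ) (u : κ → UI) : |F u - av F j u| ≤ l j := by
  have hb := hF.bdd hl
  have hint : Integrable (fun a : UI => F (Function.update u j a)) volume :=
    integrable_of_bdd _ (hFm.comp ((measurable_upd j).comp (measurable_const.prodMk measurable_id)))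
      fun _ => hb _
  have h0 : F u - av F j u = ∫ a : UI, (F u - F (Function.update u j a)) := by
    unfold av
    rw [integral_sub (integrable_const _) hint]
    simp
  rw [h0]
  have h2 := norm_integral_le_of_norm_le_const (μ := (volume : Measure UI))
      (f := fun b => F u - F (Function.update u j b)) (C := l j)
      (Filter.Eventually.of_forall fun b => by
        rw [Real.norm_eq_abs, abs_sub_comm]
        exact (hF u j b).trans (mul_le_of_le_one_right (hl j) (abs_ui_sub_le _ _)))
  simpa using h2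

/-- averaging is a conditional expectation -/
theorem integral_mul_av {F K : (κ → UI) → ℝ} (hFm : Measurable F) (hKm : Measurable K) {C D : ℝ}
    (hC : ∀ u, |F u| ≤ C) (hD : ∀ u, |K u| ≤ D) (j : κ)
    (hK : ∀ u a, K (Function.update u j a) = K u) :
    ∫ u, F u * K u ∂(piv κ) = ∫ u, av F j u * K u ∂(piv κ) := by
  have hC0 : 0 ≤ C := (abs_nonneg _).trans (hC 0)
  have hmeas : Measurable fun p : (κ → UI) × UI => F (Function.update p.1 j p.2) * K p.1 :=
    (hFm.comp (measurable_upd j)).mul (hKm.comp measurable_fst)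
  calc ∫ u, F u * K u ∂(piv κ) = ∫ u, F u * K u ∂(((piv κ).prod (volume : Measure UI)).map
        (fun p => Function.update p.1 j p.2)) := by rw [map_upd]
    _ = ∫ p, F (Function.update p.1 j p.2) * K (Function.update p.1 j p.2)
        ∂((piv κ).prod (volume : Measure UI)) := by
      rw [integral_map (measurable_upd j).aemeasurable]
      exact (hFm.mul hKm).aestronglyMeasurable
    _ = ∫ p, F (Function.update p.1 j p.2) * K p.1 ∂((piv κ).prod (volume : Measure UI)) := by
      simp_rw [hK]
    _ = ∫ u, (∫ a : UI, F (Function.update u j a) * K u) ∂(piv κ) := by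
      rw [integral_prod]
      refine integrable_of_bdd _ hmeas (C := C * D) fun p => ?_
      rw [abs_mul]
      exact mul_le_mul (hC _) (hD _) (abs_nonneg _) hC0
    _ = _ := by
      refine integral_congr_ae (Filter.Eventually.of_forall fun u => ?_)
      simp only [av]
      rw [integral_mul_const]

theorem exists_proj (B : Finset κ) : ∀ (F : (κ → UI) → ℝ) (l : κ → ℝ), Measurable F →
    (∀ j, 0 ≤ l j) → LipC F l → ∃ G : (κ → UI) → ℝ, Measurable G ∧
      LipC G (fun j => if j ∈ B then 0 else l j) ∧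
      ∫ u, (F u - G u) ^ 2 ∂(piv κ) ≤ ∑ j ∈ B, l j ^ 2 := by
  classical
  induction B using Finset.induction_on with
  | empty =>
    intro F l hFm hl hF
    exact ⟨F, hFm, by simpa using hF, by simp⟩
  | insert j B hj ih =>
    intro F l hFm hl hF
    set l1 : κ → ℝ := fun i => if i = j then 0 else l i with hl1
    have hl1n : ∀ i, 0 ≤ l1 i := by
      intro i; rw [hl1]; simp only; split_ifs; exacts [le_rfl, hl i]
    have hHm := measurable_av hFm j
    have hH := lip_av hFm hl hF j
    obtain ⟨G, hGm, hG, hint⟩ := ih (av F j) l1 hHm hl1n hH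
    refine ⟨G, hGm, ?_, ?_⟩
    · intro u i a
      refine (hG u i a).trans (le_of_eq ?_)
      congr 1
      by_cases h1 : i ∈ B
      · simp [h1]
      · by_cases h2 : i = j
        · simp [h2, hl1]
        · simp [h1, h2, hl1]
    · have hbF := hF.bdd hl
      have hbH := hH.bdd hl1n
      have hGn : ∀ i, 0 ≤ (fun i => if i ∈ B then 0 else l1 i) i := by
        intro i; simp only; split_ifs; exacts [le_rfl, hl1n i]
      have hbG := hG.bdd hGn
      set CF := |F 0| + ∑ j, l j
      set CH := |av F j 0| + ∑ j, l1 j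
      set CG := |G 0| + ∑ j, (fun i => if i ∈ B then 0 else l1 i) j
      have hKj : ∀ u a, (fun u => av F j u - G u) (Function.update u j a) =
          (fun u => av F j u - G u) u := by
        intro u a
        have h1 := hH u j a
        have h2 := hG u j a
        simp only [if_true, zero_mul, hl1, ite_self] at h1 h2
        have h1' := abs_nonpos_iff.mp h1
        have h2' := abs_nonpos_iff.mp h2
        simp only
        linarith
      have hbK : ∀ u, |(fun u => av F j u - G u) u| ≤ CH + CG := by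
        intro u
        exact (abs_sub _ _).trans (add_le_add (hbH u) (hbG u))
      have key := integral_mul_av hFm (hHm.sub hGm) hbF hbK j hKj
      have hCF0 : 0 ≤ CF := (abs_nonneg _).trans (hbF 0)
      have hCH0 : 0 ≤ CH := (abs_nonneg _).trans (hbH 0)
      have i1 : Integrable (fun u => (F u - av F j u) ^ 2) (piv κ) :=
        integrable_of_bdd _ ((hFm.sub hHm).pow_const 2) (C := (CF + CH) ^ 2) fun u => by
          rw [abs_pow]
          exact pow_le_pow_left₀ (abs_nonneg _) ((abs_sub _ _).trans (add_le_add (hbF u) (hbH u))) 2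
      have i2 : Integrable (fun u => (av F j u - G u) ^ 2) (piv κ) :=
        integrable_of_bdd _ ((hHm.sub hGm).pow_const 2) (C := (CH + CG) ^ 2) fun u => by
          rw [abs_pow]
          exact pow_le_pow_left₀ (abs_nonneg _) (hbK u) 2
      have i3 : Integrable (fun u => F u * (av F j u - G u)) (piv κ) :=
        integrable_of_bdd _ (hFm.mul (hHm.sub hGm)) (C := CF * (CH + CG)) fun u => by
          rw [abs_mul]
          exact mul_le_mul (hbF u) (hbK u) (abs_nonneg _) hCF0
      have i4 : Integrable (fun u => av F j u * (av F j u - G u)) (piv κ) :=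
        integrable_of_bdd _ (hHm.mul (hHm.sub hGm)) (C := CH * (CH + CG)) fun u => by
          rw [abs_mul]
          exact mul_le_mul (hbH u) (hbK u) (abs_nonneg _) hCH0
      have hexp : ∫ u, (F u - G u) ^ 2 ∂(piv κ) = ∫ u, (F u - av F j u) ^ 2 ∂(piv κ) +
          ∫ u, (av F j u - G u) ^ 2 ∂(piv κ) := by
        have e : ∀ u, (F u - G u) ^ 2 = ((F u - av F j u) ^ 2 + (av F j u - G u) ^ 2) +
            2 * (F u * (av F j u - G u) - av F j u * (av F j u - G u)) := by
          intro u; ring
        simp_rw [e]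
        have i12 : Integrable (fun u => (F u - av F j u) ^ 2 + (av F j u - G u) ^ 2) (piv κ) :=
          i1.add i2
        have i34 : Integrable (fun u => F u * (av F j u - G u) -
          av F j u * (av F j u - G u)) (piv κ) := i3.sub i4
        simp only [Pi.sub_apply] at key
        rw [integral_add i12 (i34.const_mul 2), integral_add i1 i2,
          integral_const_mul, integral_sub i3 i4, key, sub_self, mul_zero, add_zero]
      rw [hexp, Finset.sum_insert hj]
      refine add_le_add ?_ (hint.trans (le_of_eq ?_))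
      · calc ∫ u, (F u - av F j u) ^ 2 ∂(piv κ) ≤ ∫ _ : κ → UI, l j ^ 2 ∂(piv κ) := by
              refine integral_mono i1 (integrable_const _) fun u => ?_
              simp only
              rw [← sq_abs]
              exact pow_le_pow_left₀ (abs_nonneg _) (sub_av_le hFm hl hF j u) 2
          _ = l j ^ 2 := by simp
      · refine Finset.sum_congr rfl fun i hi => ?_
        have : i ≠ j := fun h => hj (h ▸ hi)
        simp [hl1, this]

end efron

/-- Proof idea: `G u = ∫ F(u on A, x off A) dx`.  (1) `∫ (F - G)² ≤ ∑_{j ∉ A} ℓ_j²` for the product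
measure: replace the coordinates `j ∉ A` one at a time by their averages (`E_j f u = ∫ f (update u j a) da`);
`F - G` is a sum of orthogonal terms `f - E_j f`, `|f - E_j f| ≤ ℓ_j`.
(2) `|G u - G u'| ≤ ∑_{j ∈ A} ℓ_j |u_j - u'_j|`.  (3) `(a+b+c)² ≤ 3(a²+b²+c²)`, Cauchy–Schwarz. -/
theorem efron_coupling {κ : Type*} [Fintype κ] [DecidableEq κ] (F : (κ → UI) → ℝ)
    (hF : Measurable F) (l : κ → ℝ) (hl : ∀ j, 0 ≤ l j)
    (hL : ∀ (u : κ → UI) (j : κ) (a : UI),
      |F (Function.update u j a) - F u| ≤ l j * |(a : ℝ) - u j|)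
    {Ω : Type*} [MeasurableSpace Ω] (P : Measure Ω) [IsProbabilityMeasure P]
    (X X' : Ω → κ → UI) (hX : Measurable X) (hX' : Measurable X')
    (hlaw : P.map X = Measure.pi fun _ : κ => (volume : Measure UI))
    (hlaw' : P.map X' = Measure.pi fun _ : κ => (volume : Measure UI)) (A : Finset κ) :
    ∫ ω, (F (X ω) - F (X' ω)) ^ 2 ∂P ≤
      6 * ∑ j ∈ Aᶜ, l j ^ 2 +
        3 * A.card * ∑ j ∈ A, l j ^ 2 * ∫ ω, ((X ω j : ℝ) - X' ω j) ^ 2 ∂P := by
  have hLip : LipC F l := hL
  obtain ⟨G, hGm, hG, hint⟩ := exists_proj Aᶜ F l hF hl hLip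
  have hGn : ∀ j, 0 ≤ (fun j => if j ∈ Aᶜ then 0 else l j) j := by
    intro j; simp only; split_ifs; exacts [le_rfl, hl j]
  have hbF := hLip.bdd hl
  have hbG := hG.bdd hGn
  set CF := |F 0| + ∑ j, l j
  set CG := |G 0| + ∑ j, (fun j => if j ∈ Aᶜ then 0 else l j) j
  have hm2 : Measurable fun u => (F u - G u) ^ 2 := (hF.sub hGm).pow_const 2
  have hb2 : ∀ u, |(F u - G u) ^ 2| ≤ (CF + CG) ^ 2 := fun u => by
    rw [abs_pow]
    exact pow_le_pow_left₀ (abs_nonneg _) ((abs_sub _ _).trans (add_le_add (hbF u) (hbG u))) 2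
  have hXi : ∫ ω, (F (X ω) - G (X ω)) ^ 2 ∂P ≤ ∑ j ∈ Aᶜ, l j ^ 2 := by
    have := integral_map (μ := P) hX.aemeasurable (f := fun u => (F u - G u) ^ 2)
      hm2.aestronglyMeasurable
    rw [← this, hlaw]
    exact hint
  have hXi' : ∫ ω, (F (X' ω) - G (X' ω)) ^ 2 ∂P ≤ ∑ j ∈ Aᶜ, l j ^ 2 := by
    have := integral_map (μ := P) hX'.aemeasurable (f := fun u => (F u - G u) ^ 2)
      hm2.aestronglyMeasurable
    rw [← this, hlaw']
    exact hint
  have mX : ∀ j, Measurable fun ω => (X ω j : ℝ) := fun j =>
    measurable_subtype_coe.comp ((measurable_pi_apply j).comp hX)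
  have mX' : ∀ j, Measurable fun ω => (X' ω j : ℝ) := fun j =>
    measurable_subtype_coe.comp ((measurable_pi_apply j).comp hX')
  have i1 : Integrable (fun ω => (F (X ω) - G (X ω)) ^ 2) P :=
    integrable_of_bdd _ (hm2.comp hX) fun ω => hb2 _
  have i1' : Integrable (fun ω => (F (X' ω) - G (X' ω)) ^ 2) P :=
    integrable_of_bdd _ (hm2.comp hX') fun ω => hb2 _
  have i2 : ∀ j, Integrable (fun ω => ((X ω j : ℝ) - X' ω j) ^ 2) P := fun j =>
    integrable_of_bdd _ (((mX j).sub (mX' j)).pow_const 2) (C := 1) fun ω => by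
      rw [abs_pow]
      exact pow_le_one₀ (abs_nonneg _) (abs_ui_sub_le _ _)
  have hpt : ∀ ω, (F (X ω) - F (X' ω)) ^ 2 ≤ 3 * (F (X ω) - G (X ω)) ^ 2 +
      3 * (F (X' ω) - G (X' ω)) ^ 2 +
        3 * (A.card * ∑ j ∈ A, l j ^ 2 * ((X ω j : ℝ) - X' ω j) ^ 2) := by
    intro ω
    have h1 := hG.sub_le (X ω) (X' ω)
    have h2 : ∑ j, (fun j => if j ∈ Aᶜ then 0 else l j) j * |(X ω j : ℝ) - X' ω j| =
        ∑ j ∈ A, l j * |(X ω j : ℝ) - X' ω j| := by
      rw [← Finset.sum_subset (Finset.subset_univ A)]
      · refine Finset.sum_congr rfl fun j hj => ?_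
        simp [hj]
      · intro j _ hj
        simp [hj]
    rw [h2] at h1
    have h3 : (∑ j ∈ A, l j * |(X ω j : ℝ) - X' ω j|) ^ 2 ≤
        A.card * ∑ j ∈ A, l j ^ 2 * ((X ω j : ℝ) - X' ω j) ^ 2 := by
      refine (sq_sum_le_card_mul_sum_sq).trans (le_of_eq ?_)
      congr 1
      refine Finset.sum_congr rfl fun j _ => ?_
      rw [mul_pow, sq_abs]
    have h4 : (G (X ω) - G (X' ω)) ^ 2 ≤
        A.card * ∑ j ∈ A, l j ^ 2 * ((X ω j : ℝ) - X' ω j) ^ 2 := by
      refine le_trans ?_ h3
      rw [← sq_abs]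
      exact pow_le_pow_left₀ (abs_nonneg _) h1 2
    nlinarith [sq_nonneg ((F (X ω) - G (X ω)) + (F (X' ω) - G (X' ω))),
      sq_nonneg ((F (X ω) - G (X ω)) - (G (X ω) - G (X' ω))),
      sq_nonneg ((F (X' ω) - G (X' ω)) + (G (X ω) - G (X' ω)))]
  have i3 : Integrable (fun ω => A.card * ∑ j ∈ A, l j ^ 2 * ((X ω j : ℝ) - X' ω j) ^ 2) P :=
    (integrable_finsetSum _ fun j _ => (i2 j).const_mul _).const_mul _
  have i4 : Integrable (fun ω => (F (X ω) - F (X' ω)) ^ 2) P :=
    integrable_of_bdd _ (((hF.comp hX).sub (hF.comp hX')).pow_const 2) (C := (CF + CF) ^ 2)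
      fun ω => by
        rw [abs_pow]
        exact pow_le_pow_left₀ (abs_nonneg _)
          ((abs_sub _ _).trans (add_le_add (hbF _) (hbF _))) 2
  have i5 : Integrable (fun ω => 3 * (F (X ω) - G (X ω)) ^ 2 + 3 * (F (X' ω) - G (X' ω)) ^ 2) P :=
    (i1.const_mul 3).add (i1'.const_mul 3)
  calc ∫ ω, (F (X ω) - F (X' ω)) ^ 2 ∂P ≤ ∫ ω, (3 * (F (X ω) - G (X ω)) ^ 2 +
      3 * (F (X' ω) - G (X' ω)) ^ 2 +
        3 * (A.card * ∑ j ∈ A, l j ^ 2 * ((X ω j : ℝ) - X' ω j) ^ 2)) ∂P :=
        integral_mono i4 (i5.add (i3.const_mul 3)) hpt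
    _ = 3 * ∫ ω, (F (X ω) - G (X ω)) ^ 2 ∂P + 3 * ∫ ω, (F (X' ω) - G (X' ω)) ^ 2 ∂P +
        3 * (A.card * ∑ j ∈ A, l j ^ 2 * ∫ ω, ((X ω j : ℝ) - X' ω j) ^ 2 ∂P) := by
      rw [integral_add i5 (i3.const_mul 3),
        integral_add (i1.const_mul 3) (i1'.const_mul 3), integral_const_mul, integral_const_mul,
        integral_const_mul, integral_const_mul, integral_finsetSum _ fun j _ => (i2 j).const_mul _]
      simp_rw [integral_const_mul]
    _ ≤ _ := by
      have : 3 * (A.card * ∑ j ∈ A, l j ^ 2 * ∫ ω, ((X ω j : ℝ) - X' ω j) ^ 2 ∂P) =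
        3 * A.card * ∑ j ∈ A, l j ^ 2 * ∫ ω, ((X ω j : ℝ) - X' ω j) ^ 2 ∂P := by ring
      rw [this]
      linarith

end Vale.Agent.H16.FIID
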