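import Vale.Agent.H16.FIID.M1Quantile
/-! M6: the sequential scheme `T`. -/
open MeasureTheory
namespace Vale.Agent.H16.FIID
variable {V : Type}

lemma measurable_sgn : Measurable sgn := measurable_of_countable _

lemma sgn_true : sgn true = 1 := by simp [sgn]
lemma sgn_false : sgn false = -1 := by simp [sgn]

lemma abs_sgn (s : Bool) : |sgn s| = 1 := by cases s <;> simp [sgn]

/-- the update index equivalence -/
def idxEquiv (g : V ≃ V) : V × ℕ ≃ V × ℕ := g.prodCongr (Equiv.refl ℕ)

section basic
variable (μ : Measure (V → Bool)) [IsProbabilityMeasure μ] {ε : ℝ} (hε0 : 0 < ε) (hε1 : ε < 1)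

lemma abs_two_mul_sub_one_le (w : UI) : |2 * (w : ℝ) - 1| ≤ 1 := by
  have h := w.2
  rw [Set.mem_Icc] at h
  rw [abs_le]
  constructor <;> linarith [h.1, h.2]

include hε0 in
lemma factor_bounds (s : Bool) (w : UI) :
    1 - ε ≤ 1 + ε * sgn s * (2 * (w : ℝ) - 1) ∧ 1 + ε * sgn s * (2 * (w : ℝ) - 1) ≤ 1 + ε := by
  have h1 : |ε * sgn s * (2 * (w : ℝ) - 1)| ≤ ε := by
    rw [abs_mul, abs_mul, abs_sgn, mul_one, abs_of_pos hε0]
    exact mul_le_of_le_one_right hε0.le (abs_two_mul_sub_one_le w)
  rw [abs_le] at h1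
  constructor <;> linarith [h1.1, h1.2]

include hε0 hε1 in
theorem lik_pos (S : Finset (V × ℕ)) (w : V × ℕ → UI) (σ : V → Bool) : 0 < lik ε S w σ := by
  unfold lik
  apply Finset.prod_pos
  intro j _
  have := (factor_bounds hε0 (σ j.1) (w j)).1
  linarith

include hε0 hε1 in
theorem lik_le (S : Finset (V × ℕ)) (w : V × ℕ → UI) (σ : V → Bool) :
    lik ε S w σ ≤ (1 + ε) ^ S.card := by
  unfold lik
  calc _ ≤ ∏ _j ∈ S, (1 + ε) := by
        apply Finset.prod_le_prod
        · intro j _
          have := (factor_bounds hε0 (σ j.1) (w j)).1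
          linarith
        · intro j _
          exact (factor_bounds hε0 (σ j.1) (w j)).2
    _ = _ := by simp

theorem measurable_lik_uncurry (S : Finset (V × ℕ)) :
    Measurable fun p : (V × ℕ → UI) × (V → Bool) => lik ε S p.1 p.2 := by
  unfold lik
  apply Finset.measurable_prod
  intro j _
  have h1 : Measurable fun p : (V × ℕ → UI) × (V → Bool) => sgn (p.2 j.1) :=
    measurable_sgn.comp ((measurable_pi_apply j.1).comp measurable_snd)
  have h2 : Measurable fun p : (V × ℕ → UI) × (V → Bool) => ((p.1 j : UI) : ℝ) :=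
    measurable_subtype_coe.comp ((measurable_pi_apply j).comp measurable_fst)
  exact ((h1.const_mul ε).mul ((h2.const_mul 2).sub_const 1)).const_add 1

theorem measurable_lik (S : Finset (V × ℕ)) (w : V × ℕ → UI) : Measurable fun σ => lik ε S w σ :=
  (measurable_lik_uncurry (ε := ε) S).comp (measurable_const.prodMk measurable_id)

include hε0 hε1 in
theorem integrable_lik (S : Finset (V × ℕ)) (w : V × ℕ → UI) :
    Integrable (fun σ => lik ε S w σ) μ := by
  apply Integrable.of_bound (measurable_lik S w).aestronglyMeasurable ((1 + ε) ^ S.card)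
  refine Filter.Eventually.of_forall fun σ => ?_
  rw [Real.norm_eq_abs, abs_of_pos (lik_pos hε0 hε1 S w σ)]
  exact lik_le hε0 hε1 S w σ

include hε0 hε1 in
theorem Zp_pos (S : Finset (V × ℕ)) (w : V × ℕ → UI) : 0 < Zp μ ε S w := by
  unfold Zp
  rw [integral_pos_iff_support_of_nonneg (fun σ => (lik_pos hε0 hε1 S w σ).le)
    (integrable_lik μ hε0 hε1 S w)]
  have : Function.support (fun σ => lik ε S w σ) = Set.univ := by
    ext σ
    simp [(lik_pos hε0 hε1 S w σ).ne']
  rw [this]
  simp

include hε0 hε1 in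
theorem abs_pm_le (v : V) (S : Finset (V × ℕ)) (w : V × ℕ → UI) : |pm μ ε v S w| ≤ 1 := by
  unfold pm
  have hZ := Zp_pos μ hε0 hε1 S w
  rw [abs_div, abs_of_pos hZ, div_le_one hZ]
  unfold Np Zp
  calc |∫ σ, sgn (σ v) * lik ε S w σ ∂μ| ≤ ∫ σ, |sgn (σ v) * lik ε S w σ| ∂μ :=
        abs_integral_le_integral_abs
    _ = ∫ σ, lik ε S w σ ∂μ := by
        congr 1
        funext σ
        rw [abs_mul, abs_sgn, one_mul, abs_of_pos (lik_pos hε0 hε1 S w σ)]

theorem lik_congr {S : Finset (V × ℕ)} {w w' : V × ℕ → UI} (h : ∀ j ∈ S, w j = w' j)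
    (σ : V → Bool) : lik ε S w σ = lik ε S w' σ := by
  unfold lik
  apply Finset.prod_congr rfl
  intro j hj
  rw [h j hj]

omit [IsProbabilityMeasure μ] in
theorem pm_congr (v : V) {S : Finset (V × ℕ)} {w w' : V × ℕ → UI} (h : ∀ j ∈ S, w j = w' j) :
    pm μ ε v S w = pm μ ε v S w' := by
  unfold pm Np Zp
  simp only [lik_congr h]

theorem measurable_Zp (S : Finset (V × ℕ)) : Measurable (Zp μ ε S) := by
  have h := (measurable_lik_uncurry (ε := ε) S).stronglyMeasurable
  exact (h.integral_prod_right (ν := μ)).measurable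

theorem measurable_Np (v : V) (S : Finset (V × ℕ)) : Measurable (Np μ ε v S) := by
  have h1 : Measurable fun p : (V × ℕ → UI) × (V → Bool) => sgn (p.2 v) * lik ε S p.1 p.2 :=
    (measurable_sgn.comp ((measurable_pi_apply v).comp measurable_snd)).mul
      (measurable_lik_uncurry S)
  exact (h1.stronglyMeasurable.integral_prod_right (ν := μ)).measurable

theorem measurable_pm (v : V) (S : Finset (V × ℕ)) : Measurable (pm μ ε v S) :=
  (measurable_Np μ v S).div (measurable_Zp μ S)

lemma before_irrefl (τ : V → UI) (i : V × ℕ) : ¬ before τ i i := by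
  unfold before
  rintro (h | ⟨_, h⟩) <;> exact lt_irrefl _ h

lemma before_trans {τ : V → UI} {i j k : V × ℕ} (h : before τ i j) (h' : before τ j k) :
    before τ i k := by
  unfold before at *
  rcases h with h | ⟨h1, h2⟩ <;> rcases h' with h' | ⟨h1', h2'⟩
  · left; omega
  · left; omega
  · left; omega
  · right
    exact ⟨h1.trans h1', h2.trans h2'⟩

lemma mem_past {τ : V → UI} {J : Finset (V × ℕ)} {i j : V × ℕ} :
    j ∈ past τ J i ↔ j ∈ J ∧ before τ j i := by
  unfold past
  let _ := Classical.decPred fun j : V × ℕ => before τ j i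
  exact Finset.mem_filter

lemma past_card_lt {τ : V → UI} {J : Finset (V × ℕ)} {i j : V × ℕ} (h : j ∈ past τ J i) :
    (past τ J j).card < (past τ J i).card := by
  apply Finset.card_lt_card
  rw [Finset.ssubset_iff_of_subset]
  · refine ⟨j, h, fun h' => before_irrefl τ j (mem_past.1 h').2⟩
  · intro k hk
    rw [mem_past] at *
    exact ⟨hk.1, before_trans hk.2 h.2⟩

lemma past_card_le (τ : V → UI) (J : Finset (V × ℕ)) (i : V × ℕ) :
    (past τ J i).card ≤ J.card := by
  apply Finset.card_le_card
  intro k hk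
  exact (mem_past.1 hk).1

omit [IsProbabilityMeasure μ] in
lemma iter_congr (τ : V → UI) (J : Finset (V × ℕ)) (u : V × ℕ → UI) :
    ∀ (k : ℕ) (w w' : V × ℕ → UI) (i : V × ℕ), (past τ J i).card < k →
      (step μ ε τ J u)^[k] w i = (step μ ε τ J u)^[k] w' i := by
  intro k
  induction k with
  | zero => intro w w' i h; exact absurd h (Nat.not_lt_zero _)
  | succ k ih =>
    intro w w' i h
    rw [Function.iterate_succ_apply', Function.iterate_succ_apply']
    unfold step
    rw [pm_congr μ (v := i.1) (S := past τ J i)]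
    intro j hj
    exact ih w w' j (lt_of_lt_of_le (past_card_lt hj) (Nat.lt_succ_iff.1 h))

omit [IsProbabilityMeasure μ] in
/-- the scheme is a fixed point of the update rule, at every index -/
theorem T_fixed (τ : V → UI) (J : Finset (V × ℕ)) (u : V × ℕ → UI) (i : V × ℕ) :
    T μ ε τ J u i = qt (ε * pm μ ε i.1 (past τ J i) (T μ ε τ J u)) (u i) := by
  have h1 : qt (ε * pm μ ε i.1 (past τ J i) (T μ ε τ J u)) (u i) =
      step μ ε τ J u (T μ ε τ J u) i := rfl
  rw [h1]
  have h2 : step μ ε τ J u (T μ ε τ J u) =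
      (step μ ε τ J u)^[J.card + 1] (step μ ε τ J u (fun _ => 0)) := by
    unfold T
    exact (Function.iterate_succ_apply' (step μ ε τ J u) (J.card + 1) (fun _ => 0)).symm.trans
      (Function.iterate_succ_apply (step μ ε τ J u) (J.card + 1) (fun _ => 0))
  rw [h2]
  exact iter_congr μ τ J u _ _ _ i (Nat.lt_succ_of_le (past_card_le τ J i))

omit [IsProbabilityMeasure μ] in
/-- uniqueness of the fixed point on `J` -/
theorem T_unique (τ : V → UI) (J : Finset (V × ℕ)) (u w : V × ℕ → UI)
    (hw : ∀ i ∈ J, w i = qt (ε * pm μ ε i.1 (past τ J i) w) (u i)) :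
    ∀ i ∈ J, T μ ε τ J u i = w i := by
  have key : ∀ (n : ℕ) (i : V × ℕ), i ∈ J → (past τ J i).card = n → T μ ε τ J u i = w i := by
    intro n
    induction n using Nat.strong_induction_on with
    | _ n ih =>
      intro i hi hn
      rw [T_fixed μ τ J u i, hw i hi, pm_congr μ (v := i.1) (S := past τ J i)]
      intro j hj
      exact ih _ (hn ▸ past_card_lt hj) j (mem_past.1 hj).1 rfl
  exact fun i hi => key _ i hi rfl

include hε0 hε1 in
lemma abs_eps_pm_lt (v : V) (S : Finset (V × ℕ)) (w : V × ℕ → UI) :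
    |ε * pm μ ε v S w| < 1 := by
  have h := abs_pm_le μ hε0 hε1 v S w
  rw [abs_mul, abs_of_pos hε0]
  nlinarith [abs_nonneg (pm μ ε v S w)]

include hε0 hε1 in
lemma abs_eps_pm_le (v : V) (S : Finset (V × ℕ)) (w : V × ℕ → UI) :
    |ε * pm μ ε v S w| ≤ ε := by
  have h := abs_pm_le μ hε0 hε1 v S w
  rw [abs_mul, abs_of_pos hε0]
  nlinarith [abs_nonneg (pm μ ε v S w)]

include hε0 hε1 in
theorem T_inn (τ : V → UI) (J : Finset (V × ℕ)) (w : V × ℕ → UI) :
    ∀ i ∈ J, T μ ε τ J (inn μ ε τ J w) i = w i := by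
  apply T_unique
  intro i _
  unfold inn
  rw [qt_cd (abs_eps_pm_lt μ hε0 hε1 _ _ _)]

theorem T_congr (τ : V → UI) (J : Finset (V × ℕ)) {u u' : V × ℕ → UI} (h : ∀ i ∈ J, u i = u' i) :
    ∀ i ∈ J, T μ ε τ J u i = T μ ε τ J u' i := by
  apply T_unique
  intro i hi
  rw [h i hi]
  exact T_fixed μ τ J u' i

/-- likelihood with the past written through indicators -/
lemma lik_past (τ : V → UI) (J : Finset (V × ℕ)) (i : V × ℕ) (w : V × ℕ → UI) (σ : V → Bool) :
    letI := Classical.decPred fun j : V × ℕ => before τ j i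
    lik ε (past τ J i) w σ =
      ∏ j ∈ J, if before τ j i then (1 + ε * sgn (σ j.1) * (2 * (w j : ℝ) - 1)) else 1 := by
  unfold lik past
  let _ := Classical.decPred fun j : V × ℕ => before τ j i
  exact Finset.prod_filter _ _

lemma measurableSet_before (i j : V × ℕ) : MeasurableSet {τ : V → UI | before τ j i} := by
  unfold before
  apply MeasurableSet.union
  · exact MeasurableSet.const _
  · apply MeasurableSet.inter
    · exact MeasurableSet.const _
    · have h1 : Measurable fun τ : V → UI => τ j.1 := measurable_pi_apply j.1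
      have h2 : Measurable fun τ : V → UI => τ i.1 := measurable_pi_apply i.1
      exact measurableSet_lt (measurable_subtype_coe.comp h1) (measurable_subtype_coe.comp h2)

lemma measurable_lik_past (J : Finset (V × ℕ)) (i : V × ℕ) :
    Measurable fun p : ((V → UI) × (V × ℕ → UI)) × (V → Bool) =>
      lik ε (past p.1.1 J i) p.1.2 p.2 := by
  classical
  have : (fun p : ((V → UI) × (V × ℕ → UI)) × (V → Bool) => lik ε (past p.1.1 J i) p.1.2 p.2) =
      fun p => ∏ j ∈ J, if before p.1.1 j i then
        (1 + ε * sgn (p.2 j.1) * (2 * (p.1.2 j : ℝ) - 1)) else 1 := by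
    funext p
    rw [lik_past]
  rw [this]
  apply Finset.measurable_prod
  intro j _
  refine Measurable.ite ?_ ?_ measurable_const
  · exact (measurable_fst.comp measurable_fst) (measurableSet_before i j)
  · have h1 : Measurable fun p : ((V → UI) × (V × ℕ → UI)) × (V → Bool) => sgn (p.2 j.1) :=
      measurable_sgn.comp ((measurable_pi_apply j.1).comp measurable_snd)
    have h2 : Measurable fun p : ((V → UI) × (V × ℕ → UI)) × (V → Bool) =>
        ((p.1.2 j : UI) : ℝ) :=
      measurable_subtype_coe.comp ((measurable_pi_apply j).comp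
        (measurable_snd.comp measurable_fst))
    exact ((h1.const_mul ε).mul ((h2.const_mul 2).sub_const 1)).const_add 1

lemma measurable_pm_past (J : Finset (V × ℕ)) (i : V × ℕ) :
    Measurable fun p : (V → UI) × (V × ℕ → UI) => pm μ ε i.1 (past p.1 J i) p.2 := by
  have h1 := (measurable_lik_past (ε := ε) J i)
  have h2 : Measurable fun p : ((V → UI) × (V × ℕ → UI)) × (V → Bool) =>
      sgn (p.2 i.1) * lik ε (past p.1.1 J i) p.1.2 p.2 :=
    (measurable_sgn.comp ((measurable_pi_apply i.1).comp measurable_snd)).mul h1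
  exact (h2.stronglyMeasurable.integral_prod_right (ν := μ)).measurable.div
    (h1.stronglyMeasurable.integral_prod_right (ν := μ)).measurable

lemma measurable_step {P : Type*} [MeasurableSpace P] (J : Finset (V × ℕ))
    (A : P → V → UI) (U W : P → V × ℕ → UI) (hA : Measurable A) (hU : Measurable U)
    (hW : Measurable W) : Measurable fun p => step μ ε (A p) J (U p) (W p) := by
  refine measurable_pi_lambda _ fun i => ?_
  have h0 : Measurable fun p => (A p, W p) := hA.prodMk hW
  have h1 : Measurable fun p => pm μ ε i.1 (past (A p) J i) (W p) :=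
    Measurable.comp (g := fun q : (V → UI) × (V × ℕ → UI) => pm μ ε i.1 (past q.1 J i) q.2)
      (f := fun p => (A p, W p)) (measurable_pm_past μ J i) h0
  have h2 : Measurable fun p => (ε * pm μ ε i.1 (past (A p) J i) (W p), U p i) :=
    (h1.const_mul ε).prodMk ((measurable_pi_apply i).comp hU)
  exact measurable_qt.comp h2

lemma measurable_iter {P : Type*} [MeasurableSpace P] (J : Finset (V × ℕ))
    (A : P → V → UI) (U : P → V × ℕ → UI) (hA : Measurable A) (hU : Measurable U) (k : ℕ) :
    Measurable fun p => (step μ ε (A p) J (U p))^[k] (fun _ => 0) := by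
  induction k with
  | zero =>
    simp only [Function.iterate_zero, id_eq]
    exact measurable_const
  | succ k ih =>
    have h := measurable_step (ε := ε) μ J A U _ hA hU ih
    simp only [Function.iterate_succ_apply']
    exact h

/-- joint measurability in the labels and the inputs -/
theorem measurable_T [Countable V] (J : Finset (V × ℕ)) :
    Measurable fun p : (V → UI) × (V × ℕ → UI) => T μ ε p.1 J p.2 :=
  measurable_iter μ J Prod.fst Prod.snd measurable_fst measurable_snd _

/-- for fixed `τ`, as a function of the inputs -/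
theorem measurable_T_fixed (τ : V → UI) (J : Finset (V × ℕ)) (i : V × ℕ) :
    Measurable fun u : V × ℕ → UI => T μ ε τ J u i :=
  (measurable_pi_apply i).comp
    (measurable_iter μ J (fun _ => τ) (fun u => u) measurable_const measurable_id _)

end basic

/-! ### equivariance -/

lemma pm_equivariant (μ : Measure (V → Bool)) [IsProbabilityMeasure μ] {ε : ℝ} (g : V ≃ V)
    (hg : μ.map (fun σ v => σ (g.symm v)) = μ) (v : V) (S : Finset (V × ℕ)) (w : V × ℕ → UI) :
    pm μ ε (g v) (S.map (idxEquiv g).toEmbedding) (w ∘ (idxEquiv g).symm) = pm μ ε v S w := by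
  have hm : Measurable fun (σ : V → Bool) (v : V) => σ (g.symm v) :=
    measurable_pi_lambda _ fun v => measurable_pi_apply _
  have hl : ∀ σ : V → Bool, lik ε (S.map (idxEquiv g).toEmbedding) (w ∘ (idxEquiv g).symm)
      (fun v => σ (g.symm v)) = lik ε S w σ := by
    intro σ
    unfold lik
    rw [Finset.prod_map]
    apply Finset.prod_congr rfl
    intro j _
    have e1 : (w ∘ (idxEquiv g).symm) ((idxEquiv g).toEmbedding j) = w j := by simp
    have e2 : g.symm ((idxEquiv g).toEmbedding j).1 = j.1 := g.symm_apply_apply j.1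
    rw [e1]
    dsimp only
    rw [e2]
  have h1 : Zp μ ε (S.map (idxEquiv g).toEmbedding) (w ∘ (idxEquiv g).symm) = Zp μ ε S w := by
    unfold Zp
    conv_lhs => rw [← hg]
    rw [integral_map hm.aemeasurable (measurable_lik _ _).aestronglyMeasurable]
    simp only [hl]
  have h2 : Np μ ε (g v) (S.map (idxEquiv g).toEmbedding) (w ∘ (idxEquiv g).symm) =
      Np μ ε v S w := by
    unfold Np
    conv_lhs => rw [← hg]
    rw [integral_map hm.aemeasurable]
    · simp only [hl, Equiv.symm_apply_apply]
    · exact ((measurable_sgn.comp (measurable_pi_apply _)).mul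
        (measurable_lik _ _)).aestronglyMeasurable
  unfold pm
  rw [h1, h2]

lemma past_equivariant (g : V ≃ V) (τ : V → UI) (J : Finset (V × ℕ)) (i : V × ℕ) :
    past (fun v => τ (g.symm v)) (J.map (idxEquiv g).toEmbedding) (idxEquiv g i) =
      (past τ J i).map (idxEquiv g).toEmbedding := by
  ext j
  simp only [mem_past, Finset.mem_map, Equiv.coe_toEmbedding]
  constructor
  · rintro ⟨⟨k, hk, rfl⟩, hb⟩
    refine ⟨k, ⟨hk, ?_⟩, rfl⟩
    simpa [before, idxEquiv] using hb
  · rintro ⟨k, ⟨hk, hb⟩, rfl⟩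
    refine ⟨⟨k, hk, rfl⟩, ?_⟩
    simpa [before, idxEquiv] using hb

lemma step_equivariant (μ : Measure (V → Bool)) [IsProbabilityMeasure μ] {ε : ℝ} (g : V ≃ V)
    (hg : μ.map (fun σ v => σ (g.symm v)) = μ) (τ : V → UI) (J : Finset (V × ℕ))
    (u w : V × ℕ → UI) :
    step μ ε (fun v => τ (g.symm v)) (J.map (idxEquiv g).toEmbedding)
      (u ∘ (idxEquiv g).symm) (w ∘ (idxEquiv g).symm) =
      step μ ε τ J u w ∘ (idxEquiv g).symm := by
  funext i
  obtain ⟨k, rfl⟩ := (idxEquiv g).surjective i
  unfold step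
  simp only [Function.comp_apply, Equiv.symm_apply_apply]
  rw [past_equivariant]
  have h := pm_equivariant μ (ε := ε) g hg k.1 (past τ J k) w
  have e : (idxEquiv g k).1 = g k.1 := rfl
  rw [e, h]

/-- equivariance of the scheme under a bijection preserving `μ` -/
theorem T_equivariant (μ : Measure (V → Bool)) [IsProbabilityMeasure μ] {ε : ℝ} (g : V ≃ V)
    (hg : μ.map (fun σ v => σ (g.symm v)) = μ) (τ : V → UI) (J : Finset (V × ℕ))
    (u : V × ℕ → UI) (i : V × ℕ) :
    T μ ε (fun v => τ (g.symm v)) (J.map (g.prodCongr (Equiv.refl ℕ)).toEmbedding)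
      (fun j => u (g.symm j.1, j.2)) (g i.1, i.2) = T μ ε τ J u i := by
  have key : ∀ k : ℕ, (step μ ε (fun v => τ (g.symm v)) (J.map (idxEquiv g).toEmbedding)
      (u ∘ (idxEquiv g).symm))^[k] (fun _ => 0) =
      ((step μ ε τ J u)^[k] (fun _ => 0)) ∘ (idxEquiv g).symm := by
    intro k
    induction k with
    | zero => rfl
    | succ k ih =>
      rw [Function.iterate_succ_apply', Function.iterate_succ_apply', ih, step_equivariant μ g hg]
  have h := congrFun (key (J.card + 1)) (idxEquiv g i)
  simp only [Function.comp_apply, Equiv.symm_apply_apply] at h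
  unfold T
  rw [Finset.card_map]
  exact h

/-- influence constants of the scheme -/
noncomputable def infl (G : SimpleGraph V) (θ' ε : ℝ) (i j : V × ℕ) : ℝ :=
  if j.2 ≤ i.2 then (1 - ε)⁻¹ * 2 ^ i.2 * θ' ^ G.dist i.1 j.1 else 0

end Vale.Agent.H16.FIID
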