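import Vale.Agent.H16.FIID.M6Scheme
/-! M7: the joint law of spins and data; Bayes formula. -/
open MeasureTheory
namespace Vale.Agent.H16.FIID
variable {V : Type}

/-- resampling one coordinate of an i.i.d. family -/
theorem iid_update {ι : Type} [DecidableEq ι] (j : ι) :
    MeasurePreserving (fun p : (ι → UI) × UI => Function.update p.1 j p.2)
      ((iid ι).prod (volume : Measure UI)) (iid ι) := by
  have hm : Measurable fun p : (ι → UI) × UI => Function.update p.1 j p.2 := by
    refine measurable_pi_lambda _ fun i => ?_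
    by_cases h : i = j
    · subst h
      simp only [Function.update_self]
      exact measurable_snd
    · simp only [Function.update_of_ne h]
      exact (measurable_pi_apply i).comp measurable_fst
  refine ⟨hm, ?_⟩
  unfold iid
  apply Measure.eq_infinitePi
  intro s t ht
  rw [Measure.map_apply hm (MeasurableSet.pi s.countable_toSet fun i _ => ht i)]
  by_cases hj : j ∈ s
  · have : (fun p : (ι → UI) × UI => Function.update p.1 j p.2) ⁻¹' (Set.pi s t) =
        (Set.pi (s.erase j : Finset ι) t) ×ˢ (t j) := by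
      ext p
      simp only [Set.mem_preimage, Set.mem_pi, Finset.mem_coe, Set.mem_prod, Finset.mem_erase]
      constructor
      · intro h
        refine ⟨fun i hi => ?_, ?_⟩
        · have := h i hi.2
          rwa [Function.update_of_ne hi.1] at this
        · have := h j hj
          rwa [Function.update_self] at this
      · rintro ⟨h1, h2⟩ i hi
        by_cases hij : i = j
        · subst hij
          rwa [Function.update_self]
        · rw [Function.update_of_ne hij]
          exact h1 i ⟨hij, hi⟩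
    rw [this, Measure.prod_prod, Measure.infinitePi_pi _ fun i _ => ht i, mul_comm,
      Finset.mul_prod_erase s (fun i => (volume : Measure UI) (t i)) hj]
  · have : (fun p : (ι → UI) × UI => Function.update p.1 j p.2) ⁻¹' (Set.pi s t) =
        (Set.pi s t) ×ˢ Set.univ := by
      ext p
      simp only [Set.mem_preimage, Set.mem_pi, Finset.mem_coe, Set.mem_prod, Set.mem_univ,
        and_true]
      constructor
      · intro h i hi
        have := h i hi
        rwa [Function.update_of_ne (ne_of_mem_of_not_mem hi hj)] at this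
      · intro h i hi
        rw [Function.update_of_ne (ne_of_mem_of_not_mem hi hj)]
        exact h i hi
    rw [this, Measure.prod_prod, Measure.infinitePi_pi _ fun i _ => ht i, measure_univ, mul_one]

theorem bdd_integrable {Ω : Type*} [MeasurableSpace Ω] {P : Measure Ω} [IsFiniteMeasure P]
    {f : Ω → ℝ} (hf : Measurable f) (hb : ∃ C, ∀ x, |f x| ≤ C) : Integrable f P := by
  obtain ⟨C, hC⟩ := hb
  exact Integrable.of_bound hf.aestronglyMeasurable C (Filter.Eventually.of_forall hC)

theorem integral_resample {ι : Type} [DecidableEq ι] (j : ι) {f : (ι → UI) → ℝ}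
    (hf : Measurable f) (hb : ∃ C, ∀ x, |f x| ≤ C) :
    ∫ x, f x ∂(iid ι) = ∫ x, (∫ a : UI, f (Function.update x j a)) ∂(iid ι) := by
  have hp := iid_update (ι := ι) j
  rw [← hp.map_eq, integral_map hp.measurable.aemeasurable hf.aestronglyMeasurable]
  rw [hp.map_eq]
  apply integral_prod
  apply bdd_integrable (hf.comp hp.measurable)
  obtain ⟨C, hC⟩ := hb
  exact ⟨C, fun x => hC _⟩

theorem measurable_data [Countable V] {ε : ℝ} : Measurable (data (V := V) ε) := by
  refine measurable_pi_lambda _ fun i => ?_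
  have h1 : Measurable fun p : (V → Bool) × (V × ℕ → UI) => (ε * sgn (p.1 i.1), p.2 i) :=
    ((measurable_sgn.comp ((measurable_pi_apply i.1).comp measurable_fst)).const_mul ε).prodMk
      ((measurable_pi_apply i).comp measurable_snd)
  exact measurable_qt.comp h1

lemma measurable_lik_left {ε : ℝ} (S : Finset (V × ℕ)) (σ : V → Bool) :
    Measurable fun w : V × ℕ → UI => lik ε S w σ :=
  (measurable_lik_uncurry (ε := ε) S).comp (measurable_id.prodMk measurable_const)

lemma data_update {ε : ℝ} [DecidableEq (V × ℕ)] (σ : V → Bool) (x : V × ℕ → UI) (j : V × ℕ)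
    (a : UI) :
    data ε (σ, Function.update x j a) =
      Function.update (data ε (σ, x)) j (qt (ε * sgn (σ j.1)) a) := by
  funext i
  by_cases h : i = j
  · subst h
    simp [data]
  · simp only [data, Function.update_of_ne h]

lemma lik_insert {ε : ℝ} [DecidableEq (V × ℕ)] {S : Finset (V × ℕ)} {j : V × ℕ} (hj : j ∉ S)
    (w : V × ℕ → UI) (σ : V → Bool) :
    lik ε (insert j S) w σ = (1 + ε * sgn (σ j.1) * (2 * (w j : ℝ) - 1)) * lik ε S w σ := by
  unfold lik
  rw [Finset.prod_insert hj]

/-- dependence on finitely many coordinates -/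
def Dep (S : Finset (V × ℕ)) (g : (V × ℕ → UI) → ℝ) : Prop :=
  ∀ w w' : V × ℕ → UI, (∀ j ∈ S, w j = w' j) → g w = g w'

lemma measurable_update_pair {ι : Type} [DecidableEq ι] (j : ι) :
    Measurable fun p : (ι → UI) × UI => Function.update p.1 j p.2 := (iid_update j).measurable

theorem integral_data_fixed_aux [DecidableEq (V × ℕ)] [Countable V] {ε : ℝ} (hε0 : 0 < ε) (hε1 : ε < 1) (σ : V → Bool)
    (S : Finset (V × ℕ)) {g : (V × ℕ → UI) → ℝ} (hg : Measurable g) (hb : ∃ C, ∀ w, |g w| ≤ C)
    (hdep : ∀ w w' : V × ℕ → UI, (∀ j ∈ S, w j = w' j) → g w = g w') :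
    ∫ x, g (data ε (σ, x)) ∂(iid (V × ℕ)) = ∫ w, lik ε S w σ * g w ∂(iid (V × ℕ)) := by
  induction S using Finset.induction_on generalizing g with
  | empty =>
    have hc : ∀ w, g w = g (fun _ => 0) := fun w => hdep _ _ (by simp)
    have hl : ∀ w : V × ℕ → UI, lik ε ∅ w σ * g w = g (fun _ => 0) := by
      intro w
      rw [hc w]
      simp [lik]
    have hl' : ∀ x : V × ℕ → UI, g (data ε (σ, x)) = g (fun _ => 0) := fun x => hc _
    simp only [hl, hl']
  | insert j S hj ih =>
    obtain ⟨C, hC⟩ := hb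
    have hfm : Measurable fun a : UI => 1 + ε * sgn (σ j.1) * (2 * (a : ℝ) - 1) :=
      ((measurable_subtype_coe.const_mul 2).sub_const 1).const_mul _ |>.const_add 1
    have hfb : ∀ a : UI, |1 + ε * sgn (σ j.1) * (2 * (a : ℝ) - 1)| ≤ 2 := by
      intro a
      have := factor_bounds hε0 (σ j.1) a
      rw [abs_le]
      constructor <;> linarith [this.1, this.2]
    have haε : |ε * sgn (σ j.1)| < 1 := by
      rw [abs_mul, abs_sgn, mul_one, abs_of_pos hε0]
      exact hε1
    -- the averaged function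
    set G : (V × ℕ → UI) → ℝ := fun w =>
      ∫ a : UI, (1 + ε * sgn (σ j.1) * (2 * (a : ℝ) - 1)) * g (Function.update w j a) with hG
    have hGval : ∀ w, G w =
      ∫ a : UI, (1 + ε * sgn (σ j.1) * (2 * (a : ℝ) - 1)) * g (Function.update w j a) :=
      fun w => rfl
    clear_value G
    have hG2 : Measurable fun p : (V × ℕ → UI) × UI =>
        (1 + ε * sgn (σ j.1) * (2 * (p.2 : ℝ) - 1)) * g (Function.update p.1 j p.2) :=
      (hfm.comp measurable_snd).mul (hg.comp (measurable_update_pair j))
    have hGm : Measurable G := by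
      rw [hG]
      exact (hG2.stronglyMeasurable.integral_prod_right (ν := volume)).measurable
    have hGb' : ∀ w a, |(1 + ε * sgn (σ j.1) * (2 * ((a : UI) : ℝ) - 1)) *
        g (Function.update w j a)| ≤ 2 * C := by
      intro w a
      rw [abs_mul]
      exact mul_le_mul (hfb a) (hC _) (abs_nonneg _) (by norm_num)
    have hGb : ∃ C, ∀ w, |G w| ≤ C := by
      refine ⟨2 * C, fun w => ?_⟩
      rw [hGval]
      calc _ ≤ ∫ a : UI, |(1 + ε * sgn (σ j.1) * (2 * (a : ℝ) - 1)) *
            g (Function.update w j a)| := abs_integral_le_integral_abs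
        _ ≤ ∫ _a : UI, 2 * C := by
            apply integral_mono_of_nonneg (Filter.Eventually.of_forall fun _ => abs_nonneg _)
              (integrable_const _) (Filter.Eventually.of_forall fun a => hGb' w a)
        _ = 2 * C := by simp
    have hGdep : ∀ w w' : V × ℕ → UI, (∀ k ∈ S, w k = w' k) → G w = G w' := by
      intro w w' hww
      rw [hGval, hGval]
      congr 1
      funext a
      congr 1
      apply hdep
      intro k hk
      by_cases hkj : k = j
      · subst hkj
        simp
      · rw [Function.update_of_ne hkj, Function.update_of_ne hkj]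
        exact hww k ((Finset.mem_insert.1 hk).resolve_left hkj)
    have hgu : ∀ w : V × ℕ → UI, Measurable fun a : UI => g (Function.update w j a) := by
      intro w
      have h1 : Measurable fun a : UI => (w, a) := measurable_const.prodMk measurable_id
      exact hg.comp ((measurable_update_pair j).comp h1)
    have step1 : ∫ x, g (data ε (σ, x)) ∂(iid (V × ℕ)) = ∫ x, G (data ε (σ, x)) ∂(iid (V × ℕ)) := by
      have hcm : Measurable fun x : V × ℕ → UI => g (data ε (σ, x)) :=
        hg.comp (measurable_data.comp (measurable_const.prodMk measurable_id))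
      rw [integral_resample j hcm ⟨C, fun x => hC _⟩]
      congr 1
      funext x
      simp only [data_update]
      have h := integral_qt haε (hgu (data ε (σ, x))) ⟨C, fun a => hC _⟩
      rw [hGval, h]
    rw [step1, ih hGm hGb hGdep]
    have hlm' : Measurable fun w : V × ℕ → UI => lik ε (insert j S) w σ :=
      measurable_lik_left (insert j S) σ
    rw [integral_resample j (f := fun w => lik ε (insert j S) w σ * g w) (hlm'.mul hg)]
    · congr 1
      funext w
      rw [hGval, ← integral_const_mul]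
      congr 1
      funext a
      have e1 : lik ε (insert j S) (Function.update w j a) σ =
          (1 + ε * sgn (σ j.1) * (2 * (a : ℝ) - 1)) * lik ε S w σ := by
        rw [lik_insert hj, Function.update_self]
        congr 1
        apply lik_congr
        intro k hk
        rw [Function.update_of_ne (ne_of_mem_of_not_mem hk hj)]
      rw [e1]
      ring
    · refine ⟨(1 + ε) ^ (insert j S).card * C, fun w => ?_⟩
      rw [abs_mul, abs_of_pos (lik_pos hε0 hε1 _ _ _)]
      exact mul_le_mul (lik_le hε0 hε1 _ _ _) (hC _) (abs_nonneg _) (by positivity)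

/-- For fixed spins the data have density `lik` on finitely many coordinates. -/
theorem integral_data_fixed [Countable V] {ε : ℝ} (hε0 : 0 < ε) (hε1 : ε < 1) (σ : V → Bool)
    (S : Finset (V × ℕ)) {g : (V × ℕ → UI) → ℝ} (hg : Measurable g) (hb : ∃ C, ∀ w, |g w| ≤ C)
    (hdep : ∀ w w' : V × ℕ → UI, (∀ j ∈ S, w j = w' j) → g w = g w') :
    ∫ x, g (data ε (σ, x)) ∂(iid (V × ℕ)) = ∫ w, lik ε S w σ * g w ∂(iid (V × ℕ)) := by
  classical
  exact integral_data_fixed_aux hε0 hε1 σ S hg hb hdep

section bayes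
variable (μ : Measure (V → Bool)) [IsProbabilityMeasure μ] {ε : ℝ} (hε0 : 0 < ε) (hε1 : ε < 1)

include hε0 hε1 in
/-- integrals against the joint law of spins and data -/
theorem integral_joint [Countable V] (S : Finset (V × ℕ)) {φ : (V → Bool) → ℝ} (hφ : Measurable φ)
    (hφb : ∀ σ, |φ σ| ≤ 1) {g : (V × ℕ → UI) → ℝ}
    (hg : Measurable g) (hb : ∃ C, ∀ w, |g w| ≤ C)
    (hdep : ∀ w w' : V × ℕ → UI, (∀ j ∈ S, w j = w' j) → g w = g w') :
    ∫ p, φ p.1 * g (data ε p) ∂(μ.prod (iid (V × ℕ))) =
      ∫ w, (∫ σ, φ σ * lik ε S w σ ∂μ) * g w ∂(iid (V × ℕ)) := by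
  obtain ⟨C, hC⟩ := hb
  have hC0 : 0 ≤ C := (abs_nonneg _).trans (hC (fun _ => 0))
  have hm1 : Measurable fun p : (V → Bool) × (V × ℕ → UI) => φ p.1 * g (data ε p) :=
    (hφ.comp measurable_fst).mul (hg.comp measurable_data)
  have hi1 : Integrable (fun p : (V → Bool) × (V × ℕ → UI) => φ p.1 * g (data ε p))
      (μ.prod (iid (V × ℕ))) := by
    apply bdd_integrable hm1
    refine ⟨1 * C, fun p => ?_⟩
    rw [abs_mul]
    exact mul_le_mul (hφb _) (hC _) (abs_nonneg _) (by norm_num)
  rw [integral_prod _ hi1]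
  have e1 : ∀ σ : V → Bool, ∫ x, φ σ * g (data ε (σ, x)) ∂(iid (V × ℕ)) =
      ∫ w, φ σ * (lik ε S w σ * g w) ∂(iid (V × ℕ)) := by
    intro σ
    rw [integral_const_mul, integral_const_mul, integral_data_fixed hε0 hε1 σ S hg ⟨C, hC⟩ hdep]
  simp only [e1]
  have hm2 : Measurable fun p : (V → Bool) × (V × ℕ → UI) =>
      φ p.1 * (lik ε S p.2 p.1 * g p.2) := by
    have h1 : Measurable fun p : (V → Bool) × (V × ℕ → UI) => lik ε S p.2 p.1 :=
      (measurable_lik_uncurry S).comp (measurable_snd.prodMk measurable_fst)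
    exact (hφ.comp measurable_fst).mul (h1.mul (hg.comp measurable_snd))
  have hi2 : Integrable (fun p : (V → Bool) × (V × ℕ → UI) =>
      φ p.1 * (lik ε S p.2 p.1 * g p.2)) (μ.prod (iid (V × ℕ))) := by
    apply bdd_integrable hm2
    refine ⟨1 * ((1 + ε) ^ S.card * C), fun p => ?_⟩
    rw [abs_mul, abs_mul, abs_of_pos (lik_pos hε0 hε1 _ _ _)]
    have h1 := lik_le hε0 hε1 S p.2 p.1
    have h2 : lik ε S p.2 p.1 * |g p.2| ≤ (1 + ε) ^ S.card * C :=
      mul_le_mul h1 (hC _) (abs_nonneg _) (by positivity)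
    exact mul_le_mul (hφb _) h2 (mul_nonneg (lik_pos hε0 hε1 _ _ _).le (abs_nonneg _))
      (by norm_num)
  rw [integral_integral_swap hi2]
  congr 1
  funext w
  rw [← integral_mul_const]
  congr 1
  funext σ
  ring

include hε0 hε1 in
theorem integral_joint_one [Countable V] (S : Finset (V × ℕ)) {g : (V × ℕ → UI) → ℝ}
    (hg : Measurable g) (hb : ∃ C, ∀ w, |g w| ≤ C)
    (hdep : ∀ w w' : V × ℕ → UI, (∀ j ∈ S, w j = w' j) → g w = g w') :
    ∫ p, g (data ε p) ∂(μ.prod (iid (V × ℕ))) =
      ∫ w, Zp μ ε S w * g w ∂(iid (V × ℕ)) := by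
  have h := integral_joint μ hε0 hε1 S (φ := fun _ => 1) measurable_const (by simp) hg hb hdep
  simp only [one_mul] at h
  exact h

include hε0 hε1 in
/-- Bayes formula: `pm` is the conditional expectation of the spin given the data on `S`. -/
theorem bayes [Countable V] (v : V) (S : Finset (V × ℕ)) {g : (V × ℕ → UI) → ℝ}
    (hg : Measurable g) (hb : ∃ C, ∀ w, |g w| ≤ C)
    (hdep : ∀ w w' : V × ℕ → UI, (∀ j ∈ S, w j = w' j) → g w = g w') :
    ∫ p, sgn (p.1 v) * g (data ε p) ∂(μ.prod (iid (V × ℕ))) =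
      ∫ p, pm μ ε v S (data ε p) * g (data ε p) ∂(μ.prod (iid (V × ℕ))) := by
  have h1 := integral_joint μ hε0 hε1 S (φ := fun σ => sgn (σ v))
    (measurable_sgn.comp (measurable_pi_apply v)) (fun σ => (abs_sgn _).le) hg hb hdep
  rw [h1]
  obtain ⟨C, hC⟩ := hb
  have h2 := integral_joint_one μ hε0 hε1 S (g := fun w => pm μ ε v S w * g w)
    ((measurable_pm μ v S).mul hg) ?_ ?_
  · rw [h2]
    congr 1
    funext w
    unfold pm
    have hZ := Zp_pos μ hε0 hε1 S w
    rw [← mul_assoc, mul_div_cancel₀ _ hZ.ne']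
    rfl
  · refine ⟨1 * C, fun w => ?_⟩
    rw [abs_mul]
    exact mul_le_mul (abs_pm_le μ hε0 hε1 _ _ _) (hC _) (abs_nonneg _) (by norm_num)
  · intro w w' hww
    rw [pm_congr μ v hww, hdep w w' hww]

lemma Zp_insert [Countable V] [DecidableEq (V × ℕ)] (hε0 : 0 < ε) (hε1 : ε < 1)
    {S : Finset (V × ℕ)} {i : V × ℕ} (hi : i ∉ S)
    (w : V × ℕ → UI) :
    Zp μ ε (insert i S) w = Zp μ ε S w * (1 + ε * pm μ ε i.1 S w * (2 * (w i : ℝ) - 1)) := by
  have hZ := Zp_pos μ hε0 hε1 S w
  have e1 : Zp μ ε (insert i S) w = Zp μ ε S w + ε * (2 * (w i : ℝ) - 1) * Np μ ε i.1 S w := by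
    unfold Zp Np
    have hint : Integrable (fun σ => ε * (2 * (w i : ℝ) - 1) * (sgn (σ i.1) * lik ε S w σ)) μ := by
      apply Integrable.const_mul
      apply bdd_integrable ((measurable_sgn.comp (measurable_pi_apply _)).mul (measurable_lik S w))
      refine ⟨(1 + ε) ^ S.card, fun σ => ?_⟩
      change |sgn (σ i.1) * lik ε S w σ| ≤ _
      rw [abs_mul, abs_sgn, one_mul, abs_of_pos (lik_pos hε0 hε1 _ _ _)]
      exact lik_le hε0 hε1 _ _ _
    rw [← integral_const_mul, ← integral_add (integrable_lik μ hε0 hε1 S w) hint]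
    congr 1
    funext σ
    rw [lik_insert hi]
    ring
  rw [e1]
  unfold pm
  field_simp

include hε0 hε1 in
/-- Conditional law of one new observation given the data on `S`. -/
theorem next_obs [Countable V] (S : Finset (V × ℕ)) (i : V × ℕ) (hi : i ∉ S)
    {g : (V × ℕ → UI) → UI → ℝ}
    (hg : Measurable (Function.uncurry g)) (hb : ∃ C, ∀ w a, |g w a| ≤ C)
    (hdep : ∀ w w' : V × ℕ → UI, (∀ j ∈ S, w j = w' j) → g w = g w') :
    ∫ p, g (data ε p) (data ε p i) ∂(μ.prod (iid (V × ℕ))) =
      ∫ p, (∫ u : UI, g (data ε p) (qt (ε * pm μ ε i.1 S (data ε p)) u))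
        ∂(μ.prod (iid (V × ℕ))) := by
  classical
  obtain ⟨C, hC⟩ := hb
  have hC0 : 0 ≤ C := (abs_nonneg _).trans (hC (fun _ => 0) 0)
  have hgw : Measurable fun w : V × ℕ → UI => g w (w i) :=
    hg.comp (measurable_id.prodMk (measurable_pi_apply i))
  rw [integral_joint_one μ hε0 hε1 (insert i S) (g := fun w => g w (w i)) hgw
    ⟨C, fun w => hC _ _⟩ ?_]
  swap
  · intro w w' hww
    rw [hdep w w' fun j hj => hww j (Finset.mem_insert_of_mem hj),
      hww i (Finset.mem_insert_self _ _)]
  have hZb : ∀ (S : Finset (V × ℕ)) w, |Zp μ ε S w| ≤ (1 + ε) ^ S.card := by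
    intro S w
    rw [abs_of_pos (Zp_pos μ hε0 hε1 _ _)]
    unfold Zp
    calc _ ≤ ∫ _σ, (1 + ε) ^ S.card ∂μ :=
          integral_mono (integrable_lik μ hε0 hε1 S w) (integrable_const _)
            fun σ => lik_le hε0 hε1 S w σ
      _ = _ := by simp
  rw [integral_resample i (f := fun w => Zp μ ε (insert i S) w * g w (w i))
    ((measurable_Zp μ _).mul hgw)]
  swap
  · refine ⟨(1 + ε) ^ (insert i S).card * C, fun w => ?_⟩
    rw [abs_mul]
    exact mul_le_mul (hZb _ _) (hC _ _) (abs_nonneg _) (by positivity)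
  -- the inner function of the right side
  have hqm : Measurable fun q : (V × ℕ → UI) × UI =>
      g q.1 (qt (ε * pm μ ε i.1 S q.1) q.2) := by
    have h1 : Measurable fun q : (V × ℕ → UI) × UI => (ε * pm μ ε i.1 S q.1, q.2) :=
      (((measurable_pm μ i.1 S).comp measurable_fst).const_mul ε).prodMk measurable_snd
    have h2 : Measurable fun q : (V × ℕ → UI) × UI => qt (ε * pm μ ε i.1 S q.1) q.2 :=
      measurable_qt.comp h1
    exact hg.comp (measurable_fst.prodMk h2)
  have hhm : Measurable fun w : V × ℕ → UI => ∫ u : UI, g w (qt (ε * pm μ ε i.1 S w) u) :=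
    (hqm.stronglyMeasurable.integral_prod_right (ν := volume)).measurable
  rw [integral_joint_one μ hε0 hε1 S
    (g := fun w => ∫ u : UI, g w (qt (ε * pm μ ε i.1 S w) u)) hhm ?_ ?_]
  · congr 1
    funext w
    have e1 : ∀ a : UI, Zp μ ε (insert i S) (Function.update w i a) *
        g (Function.update w i a) (Function.update w i a i) =
        Zp μ ε S w * ((1 + ε * pm μ ε i.1 S w * (2 * (a : ℝ) - 1)) * g w a) := by
      intro a
      have hS : ∀ j ∈ S, Function.update w i a j = w j := by
        intro j hj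
        rw [Function.update_of_ne (ne_of_mem_of_not_mem hj hi)]
      have hZS : Zp μ ε S (Function.update w i a) = Zp μ ε S w := by
        unfold Zp
        simp only [lik_congr hS]
      rw [Zp_insert μ hε0 hε1 hi, Function.update_self, hZS, pm_congr μ i.1 hS,
        hdep _ _ hS]
      ring
    simp only [e1]
    rw [integral_const_mul]
    have hgm : Measurable fun a : UI => g w a :=
      hg.comp (measurable_const.prodMk measurable_id)
    rw [integral_qt (abs_eps_pm_lt μ hε0 hε1 i.1 S w) hgm ⟨C, fun a => hC _ _⟩]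
  · refine ⟨C, fun w => ?_⟩
    calc |∫ u : UI, g w (qt (ε * pm μ ε i.1 S w) u)| ≤
          ∫ u : UI, |g w (qt (ε * pm μ ε i.1 S w) u)| := abs_integral_le_integral_abs
      _ ≤ ∫ _u : UI, C := by
          apply integral_mono_of_nonneg (Filter.Eventually.of_forall fun _ => abs_nonneg _)
            (integrable_const _) (Filter.Eventually.of_forall fun a => hC _ _)
      _ = C := by simp
  · intro w w' hww
    rw [pm_congr μ i.1 hww, hdep w w' hww]

include hε0 hε1 in
/-- second moments of posterior means: Pythagoras -/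
theorem pm_pythagoras [Countable V] (v : V) {S S' : Finset (V × ℕ)} (h : S ⊆ S') :
    ∫ p, (pm μ ε v S' (data ε p) - pm μ ε v S (data ε p)) ^ 2 ∂(μ.prod (iid (V × ℕ))) =
      ∫ p, pm μ ε v S' (data ε p) ^ 2 ∂(μ.prod (iid (V × ℕ))) -
        ∫ p, pm μ ε v S (data ε p) ^ 2 ∂(μ.prod (iid (V × ℕ))) := by
  have hb : ∃ C, ∀ w, |pm μ ε v S w| ≤ C := ⟨1, fun w => abs_pm_le μ hε0 hε1 v S w⟩
  have b1 := bayes μ hε0 hε1 v S' (g := pm μ ε v S) (measurable_pm μ v S) hb
    (fun w w' hww => pm_congr μ v fun j hj => hww j (h hj))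
  have b2 := bayes μ hε0 hε1 v S (g := pm μ ε v S) (measurable_pm μ v S) hb
    (fun w w' hww => pm_congr μ v hww)
  have b3 := b1.symm.trans b2
  have hi : ∀ S₁ S₂ : Finset (V × ℕ), Integrable (fun p : (V → Bool) × (V × ℕ → UI) =>
      pm μ ε v S₁ (data ε p) * pm μ ε v S₂ (data ε p)) (μ.prod (iid (V × ℕ))) := by
    intro S₁ S₂
    apply bdd_integrable (((measurable_pm μ v S₁).comp measurable_data).mul
      ((measurable_pm μ v S₂).comp measurable_data))
    refine ⟨1 * 1, fun p => ?_⟩
    change |pm μ ε v S₁ (data ε p) * pm μ ε v S₂ (data ε p)| ≤ _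
    rw [abs_mul]
    exact mul_le_mul (abs_pm_le μ hε0 hε1 _ _ _) (abs_pm_le μ hε0 hε1 _ _ _) (abs_nonneg _)
      (by norm_num)
  have e : ∫ p, (pm μ ε v S' (data ε p) - pm μ ε v S (data ε p)) ^ 2 ∂(μ.prod (iid (V × ℕ))) =
      ∫ p, pm μ ε v S' (data ε p) * pm μ ε v S' (data ε p) ∂(μ.prod (iid (V × ℕ))) +
        ((-2) * ∫ p, pm μ ε v S' (data ε p) * pm μ ε v S (data ε p) ∂(μ.prod (iid (V × ℕ))) +
          ∫ p, pm μ ε v S (data ε p) * pm μ ε v S (data ε p) ∂(μ.prod (iid (V × ℕ)))) := by
    rw [← integral_const_mul, ← integral_add ((hi S' S).const_mul (-2)) (hi S S)]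
    have h2 : Integrable (fun p : (V → Bool) × (V × ℕ → UI) =>
        -2 * (pm μ ε v S' (data ε p) * pm μ ε v S (data ε p)) +
          pm μ ε v S (data ε p) * pm μ ε v S (data ε p)) (μ.prod (iid (V × ℕ))) :=
      ((hi S' S).const_mul (-2)).add (hi S S)
    rw [← integral_add (hi S' S') h2]
    congr 1
    funext p
    ring
  rw [e, b3]
  simp only [sq]
  ring

end bayes

end Vale.Agent.H16.FIID
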